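import Vale.Agent.P358.EtaBasic

/-!
# P358 : inequalities for `eta`
-/

open Matrix Finset
open scoped BigOperators ComplexOrder

namespace Vale.Agent.P358

section A
variable {α β : Type} [Fintype α] [DecidableEq α] [Fintype β] [DecidableEq β]

/-- A10 (Peierls / Jensen) -/
theorem eta_le_sum_diag (M : Matrix α α ℂ) (hM : M.PosSemidef) :
    eta M ≤ ∑ i, Real.negMulLog (M i i).re := by
  obtain ⟨U, hU, hU', h⟩ := exists_diagonalization M hM.1
  have hrow : ∀ i, ∑ k, ‖U i k‖ ^ 2 = 1 := by
    intro i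
    have h1 := congrFun (congrFun hU i) i
    rw [mul_apply, one_apply_eq] at h1
    have h2 : ∀ k, U i k * Uᴴ k i = ((‖U i k‖ ^ 2 : ℝ) : ℂ) := by
      intro k
      rw [conjTranspose_apply, Complex.star_def, Complex.mul_conj, Complex.normSq_eq_norm_sq]
    simp only [h2] at h1
    exact_mod_cast h1
  have hcol : ∀ k, ∑ i, ‖U i k‖ ^ 2 = 1 := by
    intro k
    have h1 := congrFun (congrFun hU' k) k
    rw [mul_apply, one_apply_eq] at h1
    have h2 : ∀ i, Uᴴ k i * U i k = ((‖U i k‖ ^ 2 : ℝ) : ℂ) := by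
      intro i
      rw [conjTranspose_apply, Complex.star_def, mul_comm, Complex.mul_conj,
        Complex.normSq_eq_norm_sq]
    simp only [h2] at h1
    exact_mod_cast h1
  have hdiag : ∀ i, (M i i).re = ∑ k, ‖U i k‖ ^ 2 * hM.1.eigenvalues k := by
    intro i
    have h1 : M i i = ∑ k, ((‖U i k‖ ^ 2 * hM.1.eigenvalues k : ℝ) : ℂ) := by
      conv_lhs => rw [h]
      rw [mul_apply]
      apply Finset.sum_congr rfl
      intro k _
      rw [mul_diagonal, conjTranspose_apply]
      show U i k * (hM.1.eigenvalues k : ℂ) * (starRingEnd ℂ) (U i k) = _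
      have : U i k * (hM.1.eigenvalues k : ℂ) * (starRingEnd ℂ) (U i k) =
        (U i k * (starRingEnd ℂ) (U i k)) * (hM.1.eigenvalues k : ℂ) := by ring
      rw [this, Complex.mul_conj, Complex.normSq_eq_norm_sq]
      push_cast; ring
    rw [h1, Complex.re_sum]
    simp only [Complex.ofReal_re]
  have hjen : ∀ i, ∑ k, ‖U i k‖ ^ 2 * Real.negMulLog (hM.1.eigenvalues k) ≤
      Real.negMulLog (M i i).re := by
    intro i
    rw [hdiag i]
    have := Real.concaveOn_negMulLog.le_map_sum (t := univ) (w := fun k => ‖U i k‖ ^ 2)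
      (p := fun k => hM.1.eigenvalues k) (fun k _ => by positivity) (hrow i)
      (fun k _ => hM.eigenvalues_nonneg k)
    simpa [smul_eq_mul] using this
  rw [eta_eq_sum_eigenvalues M hM.1]
  calc ∑ k, Real.negMulLog (hM.1.eigenvalues k)
      = ∑ k, (∑ i, ‖U i k‖ ^ 2) * Real.negMulLog (hM.1.eigenvalues k) := by
        apply Finset.sum_congr rfl
        intro k _
        rw [hcol, one_mul]
    _ = ∑ i, ∑ k, ‖U i k‖ ^ 2 * Real.negMulLog (hM.1.eigenvalues k) := by
        rw [Finset.sum_comm]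
        apply Finset.sum_congr rfl
        intro k _
        rw [Finset.sum_mul]
    _ ≤ ∑ i, Real.negMulLog (M i i).re := Finset.sum_le_sum fun i _ => hjen i

/-- A11 -/
theorem eta_nonneg (M : Matrix α α ℂ) (hM : M.PosSemidef) (h1 : rtr M ≤ 1) : 0 ≤ eta M := by
  rw [eta_eq_sum_eigenvalues M hM.1]
  rw [rtr_eq_sum_eigenvalues M hM.1] at h1
  apply Finset.sum_nonneg
  intro i _
  apply Real.negMulLog_nonneg (hM.eigenvalues_nonneg i)
  exact (Finset.single_le_sum (f := fun i => hM.1.eigenvalues i)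
    (fun j _ => hM.eigenvalues_nonneg j) (mem_univ i)).trans h1

/-- A12 (crude bound) -/
theorem eta_le_card (M : Matrix α α ℂ) (hM : M.PosSemidef) : eta M ≤ Fintype.card α := by
  rw [eta_eq_sum_eigenvalues M hM.1]
  calc ∑ i, Real.negMulLog (hM.1.eigenvalues i) ≤ ∑ _i : α, (1:ℝ) := by
        apply Finset.sum_le_sum
        intro i _
        have h0 := hM.eigenvalues_nonneg i
        have := Real.negMulLog_le_one_sub_self h0
        linarith
    _ = Fintype.card α := by simp

/-- A13 -/
theorem eta_kronecker (A : Matrix α α ℂ) (B : Matrix β β ℂ) (hA : A.IsHermitian)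
    (hB : B.IsHermitian) :
    eta (Matrix.kroneckerMap (· * ·) A B) = rtr B * eta A + rtr A * eta B := by
  obtain ⟨U, hU, _, hUA⟩ := exists_diagonalization A hA
  obtain ⟨V, hV, _, hVB⟩ := exists_diagonalization B hB
  have h1 : Matrix.kroneckerMap (· * ·) A B =
      (Matrix.kroneckerMap (· * ·) U V) *
        diagonal (fun i : α × β => ((hA.eigenvalues i.1 * hB.eigenvalues i.2 : ℝ) : ℂ)) *
        (Matrix.kroneckerMap (· * ·) U V)ᴴ := by
    have e1 : diagonal (fun i : α × β => ((hA.eigenvalues i.1 * hB.eigenvalues i.2 : ℝ) : ℂ)) =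
        Matrix.kroneckerMap (· * ·) (diagonal (fun i => (hA.eigenvalues i : ℂ)))
          (diagonal (fun i => (hB.eigenvalues i : ℂ))) := by
      rw [diagonal_kronecker_diagonal]
      congr 1
      funext i
      push_cast
      rfl
    have e2 : (Matrix.kroneckerMap (· * ·) U V)ᴴ = Matrix.kroneckerMap (· * ·) Uᴴ Vᴴ :=
      conjTranspose_kronecker U V
    rw [e1, e2, ← mul_kronecker_mul, ← mul_kronecker_mul, ← hUA, ← hVB]
  have h2 : (Matrix.kroneckerMap (· * ·) U V) * (Matrix.kroneckerMap (· * ·) U V)ᴴ = 1 := by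
    have e2 : (Matrix.kroneckerMap (· * ·) U V)ᴴ = Matrix.kroneckerMap (· * ·) Uᴴ Vᴴ :=
      conjTranspose_kronecker U V
    rw [e2, ← mul_kronecker_mul, hU, hV]
    exact one_kronecker_one
  rw [eta_of_diagonalization _ _ h2 _ h1, eta_eq_sum_eigenvalues A hA, eta_eq_sum_eigenvalues B hB,
    rtr_eq_sum_eigenvalues A hA, rtr_eq_sum_eigenvalues B hB, Fintype.sum_prod_type]
  simp only [Real.negMulLog_mul, Finset.sum_add_distrib]
  congr 1
  · rw [Finset.sum_comm, Finset.sum_mul]
    apply Finset.sum_congr rfl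
    intro j _
    rw [Finset.mul_sum]
  · rw [Finset.sum_mul]
    apply Finset.sum_congr rfl
    intro i _
    rw [Finset.mul_sum]

end A

end Vale.Agent.P358
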