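import Vale.Agent.P358.IntRep
import Vale.Agent.P358.EtaIneq

/-!
Scalar functions used for amplitude damping.
-/

namespace Vale.Agent.P358

noncomputable def alphaF (β ζ x t : ℝ) : ℝ :=
  t * x / ((t + β * x) ^ 2 * ((t + ζ * x) + t * x / (t + β * x)))

noncomputable def chiF (β ζ x t : ℝ) : ℝ :=
  1 / (t + ζ * x) - 1 / ((t + ζ * x) + t * x / (t + β * x))

/-- the two roots of `m² - (β+ζ+1) m + βζ` -/
noncomputable def rootP (β ζ : ℝ) : ℝ := ((β + ζ + 1) + Real.sqrt ((β + ζ + 1) ^ 2 - 4 * β * ζ)) / 2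
noncomputable def rootM (β ζ : ℝ) : ℝ := ((β + ζ + 1) - Real.sqrt ((β + ζ + 1) ^ 2 - 4 * β * ζ)) / 2

noncomputable def Lam (β ζ : ℝ) : ℝ :=
  Real.negMulLog (rootP β ζ) + Real.negMulLog (rootM β ζ) - Real.negMulLog β - Real.negMulLog ζ

end Vale.Agent.P358
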