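import Vale.Agent.P358.ADDet
import Vale.Agent.P358.ADScalarDefs

/-!
# Amplitude damping: algebraic facts for the assembly
-/

open Matrix Finset MeasureTheory Set
open scoped BigOperators ComplexOrder MatrixOrder

namespace Vale.Agent.P358

section
variable {R S : Type} [Fintype R] [DecidableEq R] [Fintype S] [DecidableEq S]

omit [DecidableEq R] [Fintype S] in
/-- columns of `G` with zero norm vanish -/
lemma col_zero (G : Matrix R S ℂ) (x : S → ℝ) (hG : Gᴴ * G = diagonal (fun i => (x i : ℂ)))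
    (i : S) (hi : x i = 0) (r : R) : G r i = 0 := by
  have h1 := congrFun (congrFun hG i) i
  rw [Matrix.mul_apply, Matrix.diagonal_apply_eq, hi] at h1
  have h2 : ∑ r, Complex.normSq (G r i) = 0 := by
    have h3 : (∑ r, ((Complex.normSq (G r i) : ℝ) : ℂ)) = 0 := by
      have h4 : ∀ r, ((Complex.normSq (G r i) : ℝ) : ℂ) = Gᴴ i r * G r i := by
        intro r
        rw [Matrix.conjTranspose_apply, Complex.normSq_eq_conj_mul_self]
        rfl
      rw [Finset.sum_congr rfl fun r _ => h4 r, h1]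
      simp
    exact_mod_cast h3
  have h5 := (Finset.sum_eq_zero_iff_of_nonneg fun r _ => Complex.normSq_nonneg (G r i)).mp h2 r
    (Finset.mem_univ r)
  exact Complex.normSq_eq_zero.mp h5

omit [DecidableEq R] in
lemma diag_entry_zero (P : Matrix R S ℂ) (Y : Matrix R R ℂ) (V : Matrix S S ℂ) (x : S → ℝ)
    (hVP : Vᴴ * (Pᴴ * P) * V = diagonal (fun i => (x i : ℂ))) (i : S) (hi : x i = 0) :
    ((Vᴴ * (Pᴴ * Y * P) * V) i i).re = 0 := by
  have hG : (P * V)ᴴ * (P * V) = diagonal (fun i => (x i : ℂ)) := by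
    rw [← hVP, Matrix.conjTranspose_mul]; simp only [Matrix.mul_assoc]
  have h1 : Vᴴ * (Pᴴ * Y * P) * V = (P * V)ᴴ * (Y * (P * V)) := by
    rw [Matrix.conjTranspose_mul]; simp only [Matrix.mul_assoc]
  have h2 : ((P * V)ᴴ * (Y * (P * V))) i i = 0 := by
    rw [Matrix.mul_apply]
    apply Finset.sum_eq_zero
    intro r _
    rw [Matrix.conjTranspose_apply, col_zero (P * V) x hG i hi r]
    simp
  rw [h1, h2, Complex.zero_re]

omit [Fintype S] [DecidableEq S] in
lemma diag_entry_nonneg (M : Matrix S S ℂ) (hM : M.PosSemidef) (i : S) : 0 ≤ (M i i).re :=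
  (Complex.nonneg_iff.mp hM.diag_nonneg).1

/-- `∑_{x_i ≠ 0} y_i / x_i ≤ Tr Y` -/
lemma sum_div_le (P Q : Matrix R S ℂ) (V : Matrix S S ℂ) (x : S → ℝ) (hx : ∀ i, 0 ≤ x i)
    (hVP : Vᴴ * (Pᴴ * P) * V = diagonal (fun i => (x i : ℂ))) :
    ∑ i, (if x i = 0 then 0 else ((Vᴴ * (Pᴴ * (Q * Qᴴ) * P) * V) i i).re / x i)
      ≤ rtr (Q * Qᴴ) := by
  set g : S → ℝ := fun i => if x i = 0 then 0 else 1 / Real.sqrt (x i) with hg
  set gd : Matrix S S ℂ := diagonal (fun i => ((g i : ℝ) : ℂ)) with hgd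
  have hgdH : gdᴴ = gd := by
    rw [hgd, Matrix.diagonal_conjTranspose]; congr 1; ext i; simp
  set E : Matrix S S ℂ := diagonal (fun i => (((if x i = 0 then 0 else 1 : ℝ)) : ℂ)) with hE
  set G : Matrix R S ℂ := P * V * gd with hG
  have hGG : Gᴴ * G = E := by
    have h1 : Gᴴ * G = gd * (Vᴴ * (Pᴴ * P) * V) * gd := by
      rw [hG, Matrix.conjTranspose_mul, Matrix.conjTranspose_mul, hgdH]
      simp only [Matrix.mul_assoc]
    rw [h1, hVP, hgd, Matrix.diagonal_mul_diagonal, Matrix.diagonal_mul_diagonal, hE]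
    congr 1
    ext i
    rw [← Complex.ofReal_mul, ← Complex.ofReal_mul]
    congr 1
    simp only [hg]
    by_cases hi : x i = 0
    · simp [hi]
    · have hp : 0 < x i := lt_of_le_of_ne (hx i) (Ne.symm hi)
      have := Real.mul_self_sqrt (hx i)
      have hs : 0 < Real.sqrt (x i) := Real.sqrt_pos.mpr hp
      simp only [hi, if_false]
      field_simp
      nlinarith
  have hGE : G * E = G := by
    rw [hG, Matrix.mul_assoc, hgd, hE, Matrix.diagonal_mul_diagonal]
    congr 2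
    ext i
    rw [← Complex.ofReal_mul]
    congr 1
    simp only [hg]
    by_cases hi : x i = 0 <;> simp [hi]
  have hproj : (G * Gᴴ) * (G * Gᴴ) = G * Gᴴ := by
    rw [Matrix.mul_assoc, ← Matrix.mul_assoc Gᴴ, hGG, ← Matrix.mul_assoc, hGE]
  have hpsd : ((1 : Matrix R R ℂ) - G * Gᴴ).PosSemidef := by
    have hH : ((1 : Matrix R R ℂ) - G * Gᴴ)ᴴ = 1 - G * Gᴴ :=
      Matrix.isHermitian_one.sub (Matrix.isHermitian_mul_conjTranspose_self G)
    have h1 : (1 : Matrix R R ℂ) - G * Gᴴ = ((1 : Matrix R R ℂ) - G * Gᴴ)ᴴ * (1 - G * Gᴴ) := by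
      rw [hH, Matrix.sub_mul, Matrix.mul_sub, Matrix.mul_sub, Matrix.one_mul, Matrix.mul_one,
        Matrix.one_mul, hproj]
      simp
    rw [h1]
    exact Matrix.posSemidef_conjTranspose_mul_self _
  have h2 : 0 ≤ ((Qᴴ * ((1 : Matrix R R ℂ) - G * Gᴴ) * Q).trace).re :=
    PosSemidef.re_trace_nonneg (hpsd.conjTranspose_mul_mul_same Q)
  have h3 : ((Qᴴ * ((1 : Matrix R R ℂ) - G * Gᴴ) * Q).trace).re
      = rtr (Q * Qᴴ) - ((gd * (Vᴴ * (Pᴴ * (Q * Qᴴ) * P) * V) * gd).trace).re := by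
    rw [Matrix.mul_sub, Matrix.sub_mul, Matrix.trace_sub, Complex.sub_re, Matrix.mul_one,
      Matrix.trace_mul_comm Qᴴ Q]
    congr 2
    have h4 : Qᴴ * (G * Gᴴ) * Q = (Qᴴ * G) * (Gᴴ * Q) := by simp only [Matrix.mul_assoc]
    rw [h4, Matrix.trace_mul_comm]
    congr 1
    rw [hG, Matrix.conjTranspose_mul, Matrix.conjTranspose_mul, hgdH]
    simp only [Matrix.mul_assoc]
  rw [h3] at h2
  have h5 : ((gd * (Vᴴ * (Pᴴ * (Q * Qᴴ) * P) * V) * gd).trace).re
      = ∑ i, (if x i = 0 then 0 else ((Vᴴ * (Pᴴ * (Q * Qᴴ) * P) * V) i i).re / x i) := by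
    rw [hgd, Matrix.trace, Complex.re_sum]
    apply Finset.sum_congr rfl
    intro i _
    rw [Matrix.diag_apply, Matrix.mul_diagonal, Matrix.diagonal_mul, mul_right_comm,
      ← Complex.ofReal_mul, Complex.re_ofReal_mul]
    simp only [hg]
    by_cases hi : x i = 0
    · simp [hi]
    · have hp : 0 < x i := lt_of_le_of_ne (hx i) (Ne.symm hi)
      have := Real.mul_self_sqrt (hx i)
      simp only [hi, if_false]
      rw [div_mul_div_comm, this]
      ring
  rw [h5] at h2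
  linarith

lemma rtr_conj (M V : Matrix S S ℂ) (hV : V * Vᴴ = 1) : rtr (Vᴴ * M * V) = rtr M := by
  unfold rtr
  rw [Matrix.trace_mul_comm, ← Matrix.mul_assoc, hV, Matrix.one_mul]

end

end Vale.Agent.P358
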