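import Vale.Agent.P358.EtaBasic

/-!
# P358, piece B : integral representation of `eta`
-/

open Matrix Finset MeasureTheory Set
open scoped BigOperators ComplexOrder Topology

namespace Vale.Agent.P358

namespace IntRepAux

/-- the antiderivative -/
noncomputable def GG (m t : ℝ) : ℝ :=
  (t + m) * Real.log (t + m) - t * Real.log t -
    m * ((t + 1) * Real.log (t + 1) - t * Real.log t)

theorem GG_zero (m : ℝ) : GG m 0 = m * Real.log m := by
  simp [GG]

theorem continuous_GG (m : ℝ) : Continuous (GG m) := by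
  unfold GG
  have h := Real.continuous_mul_log
  exact ((h.comp (continuous_id.add continuous_const)).sub h).sub
    (continuous_const.mul ((h.comp (continuous_id.add continuous_const)).sub h))

theorem hasDerivAt_GG {m : ℝ} (hm : 0 ≤ m) {t : ℝ} (ht : 0 < t) :
    HasDerivAt (GG m) (Real.log (1 + m / t) - m * Real.log (1 + 1 / t)) t := by
  have h0 := Real.hasDerivAt_mul_log ht.ne'
  have h1 := (Real.hasDerivAt_mul_log (show t + m ≠ 0 by positivity)).comp_add_const t m
  have h2 := (Real.hasDerivAt_mul_log (show t + 1 ≠ 0 by positivity)).comp_add_const t 1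
  have h3 := (h1.sub h0).sub ((h2.sub h0).const_mul m)
  refine (h3.congr_deriv (f' := _) ?_)
  have e1 : Real.log (1 + m / t) = Real.log (t + m) - Real.log t := by
    rw [← Real.log_div (by positivity) ht.ne']
    congr 1
    field_simp
  have e2 : Real.log (1 + 1 / t) = Real.log (t + 1) - Real.log t := by
    rw [← Real.log_div (by positivity) ht.ne']
    congr 1
    field_simp
  rw [e1, e2]
  ring

theorem tendsto_GG {m : ℝ} (hm : 0 ≤ m) : Filter.Tendsto (GG m) Filter.atTop (𝓝 0) := by
  have h1 := Real.tendsto_mul_log_one_add_div_atTop m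
  have h2 := Real.tendsto_log_comp_add_sub_log m
  have h3 := Real.tendsto_mul_log_one_add_div_atTop 1
  have h4 := Real.tendsto_log_comp_add_sub_log 1
  have h5 := ((h1.add (h2.const_mul m)).sub (h3.const_mul m)).sub (h4.const_mul m)
  have h6 : m + m * 0 - m * 1 - m * 0 = 0 := by ring
  rw [h6] at h5
  refine h5.congr' ?_
  filter_upwards [Filter.eventually_gt_atTop 0] with t ht
  have e1 : Real.log (1 + m / t) = Real.log (t + m) - Real.log t := by
    rw [← Real.log_div (by positivity) ht.ne']
    congr 1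
    field_simp
  have e2 : Real.log (1 + 1 / t) = Real.log (t + 1) - Real.log t := by
    rw [← Real.log_div (by positivity) ht.ne']
    congr 1
    field_simp
  rw [e1, e2, GG]
  ring

theorem integrand_nonneg {m : ℝ} (hm : 0 ≤ m) (hm1 : m ≤ 1) {t : ℝ} (ht : 0 < t) :
    0 ≤ Real.log (1 + m / t) - m * Real.log (1 + 1 / t) := by
  have h1 := rpow_one_add_le_one_add_mul_self (s := 1 / t)
    (by have : 0 ≤ 1 / t := by positivity
        linarith) hm hm1
  have h2 := Real.log_le_log (by positivity) h1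
  rw [Real.log_rpow (by positivity)] at h2
  have h3 : m * (1 / t) = m / t := by ring
  rw [h3] at h2
  linarith

theorem integrand_nonpos {m : ℝ} (hm1 : 1 ≤ m) {t : ℝ} (ht : 0 < t) :
    Real.log (1 + m / t) - m * Real.log (1 + 1 / t) ≤ 0 := by
  have hm : 0 ≤ m := by linarith
  have h1 := one_add_mul_self_le_rpow_one_add (s := 1 / t)
    (by have : 0 ≤ 1 / t := by positivity
        linarith) hm1
  have h2 := Real.log_le_log (by positivity) h1
  rw [Real.log_rpow (by positivity)] at h2
  have h3 : m * (1 / t) = m / t := by ring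
  rw [h3] at h2
  linarith

end IntRepAux

open IntRepAux

/-- B1 : `∫_0^∞ [ln(1+m/t) - m ln(1+1/t)] dt = -m ln m`. -/
theorem scal_integrable (m : ℝ) (hm : 0 ≤ m) :
    IntegrableOn (fun t : ℝ => Real.log (1 + m / t) - m * Real.log (1 + 1 / t)) (Ioi 0) := by
  rcases le_total m 1 with h1 | h1
  · exact integrableOn_Ioi_deriv_of_nonneg (continuous_GG m).continuousWithinAt
      (fun x hx => hasDerivAt_GG hm hx) (fun x hx => integrand_nonneg hm h1 hx) (tendsto_GG hm)
  · exact integrableOn_Ioi_deriv_of_nonpos (continuous_GG m).continuousWithinAt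
      (fun x hx => hasDerivAt_GG hm hx) (fun x hx => integrand_nonpos h1 hx) (tendsto_GG hm)

theorem scal_integral (m : ℝ) (hm : 0 ≤ m) :
    ∫ t in Ioi (0 : ℝ), (Real.log (1 + m / t) - m * Real.log (1 + 1 / t)) = Real.negMulLog m := by
  rw [integral_Ioi_of_hasDerivAt_of_tendsto (continuous_GG m).continuousWithinAt
    (fun x hx => hasDerivAt_GG hm hx) (scal_integrable m hm) (tendsto_GG hm), GG_zero,
    Real.negMulLog]
  ring

/-- B2 : log-determinant form. -/
theorem logdet_eq {α : Type} [Fintype α] [DecidableEq α] (M : Matrix α α ℂ) (hM : M.PosSemidef)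
    (t : ℝ) (ht : 0 < t) :
    Real.log (((t : ℂ) • (1 : Matrix α α ℂ) + M).det.re)
      = Fintype.card α * Real.log t + ∑ i, Real.log (1 + hM.1.eigenvalues i / t) := by
  obtain ⟨U, hU, hU', h⟩ := exists_diagonalization M hM.1
  have h1 : (t : ℂ) • (1 : Matrix α α ℂ) + M =
      U * diagonal (fun i => ((t + hM.1.eigenvalues i : ℝ) : ℂ)) * Uᴴ := by
    have e : diagonal (fun i => ((t + hM.1.eigenvalues i : ℝ) : ℂ)) =
        (t : ℂ) • (1 : Matrix α α ℂ) + diagonal (fun i => (hM.1.eigenvalues i : ℂ)) := by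
      rw [← diagonal_one, ← diagonal_smul, diagonal_add]
      congr 1
      funext i
      simp
    rw [e, mul_add, add_mul, ← h, mul_smul_comm, mul_one, smul_mul_assoc, hU]
  rw [h1, det_mul, det_mul, mul_right_comm, ← det_mul, hU, det_one, one_mul, det_diagonal,
    ← Complex.ofReal_prod, Complex.ofReal_re, Real.log_prod]
  · have h2 : ∀ i, Real.log (t + hM.1.eigenvalues i) =
        Real.log t + Real.log (1 + hM.1.eigenvalues i / t) := by
      intro i
      have hi := hM.eigenvalues_nonneg i
      rw [← Real.log_mul ht.ne' (by positivity)]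
      congr 1
      field_simp
    simp_rw [h2]
    rw [Finset.sum_add_distrib]
    simp
  · intro i _
    have hi := hM.eigenvalues_nonneg i
    positivity

theorem eta_integrand {α : Type} [Fintype α] [DecidableEq α] (M : Matrix α α ℂ)
    (hM : M.PosSemidef) (t : ℝ) (ht : t ∈ Ioi (0 : ℝ)) :
    Real.log (((t : ℂ) • (1 : Matrix α α ℂ) + M).det.re)
      - Fintype.card α * Real.log t - rtr M * Real.log (1 + 1 / t) =
    ∑ i, (Real.log (1 + hM.1.eigenvalues i / t) -
      hM.1.eigenvalues i * Real.log (1 + 1 / t)) := by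
  rw [logdet_eq M hM t ht, rtr_eq_sum_eigenvalues M hM.1, Finset.sum_sub_distrib, Finset.sum_mul]
  ring

theorem eta_integrable {α : Type} [Fintype α] [DecidableEq α] (M : Matrix α α ℂ)
    (hM : M.PosSemidef) :
    IntegrableOn (fun t : ℝ => Real.log (((t : ℂ) • (1 : Matrix α α ℂ) + M).det.re)
      - Fintype.card α * Real.log t - rtr M * Real.log (1 + 1 / t)) (Ioi 0) := by
  have h : IntegrableOn (fun t : ℝ => ∑ i, (Real.log (1 + hM.1.eigenvalues i / t) -
      hM.1.eigenvalues i * Real.log (1 + 1 / t))) (Ioi 0) :=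
    integrable_finsetSum _ fun i _ => scal_integrable _ (hM.eigenvalues_nonneg i)
  exact h.congr_fun (fun t ht => (eta_integrand M hM t ht).symm) measurableSet_Ioi

theorem eta_integral {α : Type} [Fintype α] [DecidableEq α] (M : Matrix α α ℂ)
    (hM : M.PosSemidef) :
    ∫ t in Ioi (0 : ℝ), (Real.log (((t : ℂ) • (1 : Matrix α α ℂ) + M).det.re)
      - Fintype.card α * Real.log t - rtr M * Real.log (1 + 1 / t)) = eta M := by
  rw [setIntegral_congr_fun measurableSet_Ioi (eta_integrand M hM),
    integral_finsetSum _ fun i _ => scal_integrable _ (hM.eigenvalues_nonneg i),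
    eta_eq_sum_eigenvalues M hM.1]
  exact Finset.sum_congr rfl fun i _ => scal_integral _ (hM.eigenvalues_nonneg i)

/-- B3 -/
theorem eta_mul_conjTranspose {α β : Type} [Fintype α] [DecidableEq α] [Fintype β] [DecidableEq β]
    (P : Matrix α β ℂ) : eta (P * Pᴴ) = eta (Pᴴ * P) := by
  rw [← eta_integral _ (posSemidef_self_mul_conjTranspose P),
    ← eta_integral _ (posSemidef_conjTranspose_mul_self P)]
  refine setIntegral_congr_fun measurableSet_Ioi fun t ht => ?_
  have ht' : (0 : ℝ) < t := ht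
  have htc : (t : ℂ) ≠ 0 := by exact_mod_cast ht'.ne'
  have hr : rtr (P * Pᴴ) = rtr (Pᴴ * P) := by
    unfold rtr
    rw [Matrix.trace_mul_comm]
  have key : ∀ {γ : Type} [Fintype γ] [DecidableEq γ] (A : Matrix γ γ ℂ),
      ((t : ℂ) • (1 : Matrix γ γ ℂ) + A).det =
        (t : ℂ) ^ Fintype.card γ * (1 + (t : ℂ)⁻¹ • A).det := by
    intro γ _ _ A
    rw [← det_smul]
    congr 1
    rw [smul_add, smul_smul, mul_inv_cancel₀ htc, one_smul]
  have hc : (1 + (t : ℂ)⁻¹ • (P * Pᴴ)).det = (1 + (t : ℂ)⁻¹ • (Pᴴ * P)).det := by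
    rw [← Matrix.smul_mul, det_one_add_mul_comm, Matrix.mul_smul]
  have hre : ∀ {γ : Type} [Fintype γ] [DecidableEq γ] (A : Matrix γ γ ℂ),
      (((t : ℂ) • (1 : Matrix γ γ ℂ) + A).det).re =
        t ^ Fintype.card γ * ((1 + (t : ℂ)⁻¹ • A).det).re := by
    intro γ _ _ A
    rw [key, ← Complex.ofReal_pow, Complex.re_ofReal_mul]
  have hpos : 0 < ((1 + (t : ℂ)⁻¹ • (P * Pᴴ)).det).re := by
    have hpd : (1 + (t : ℂ)⁻¹ • (P * Pᴴ)).PosDef := by
      refine PosDef.one.add_posSemidef ((posSemidef_self_mul_conjTranspose P).smul ?_)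
      rw [← Complex.ofReal_inv]
      exact_mod_cast (inv_pos.2 ht').le
    exact (Complex.pos_iff.1 hpd.det_pos).1
  show Real.log (((t : ℂ) • (1 : Matrix α α ℂ) + P * Pᴴ).det.re)
      - Fintype.card α * Real.log t - rtr (P * Pᴴ) * Real.log (1 + 1 / t) =
    Real.log (((t : ℂ) • (1 : Matrix β β ℂ) + Pᴴ * P).det.re)
      - Fintype.card β * Real.log t - rtr (Pᴴ * P) * Real.log (1 + 1 / t)
  rw [hre, hre, hr, ← hc, Real.log_mul (by positivity) hpos.ne', Real.log_mul (by positivity)
    hpos.ne', Real.log_pow, Real.log_pow]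
  ring

end Vale.Agent.P358
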