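import Vale.Agent.P358.MatIneq
import Vale.Agent.P358.EtaIneq
import Vale.Agent.P358.IntRep

/-!
# Amplitude damping: the determinant identity for fixed `t`
-/

open Matrix Finset
open scoped BigOperators ComplexOrder MatrixOrder

namespace Vale.Agent.P358

section
variable {R S : Type} [Fintype R] [DecidableEq R] [Fintype S] [DecidableEq S]

omit [Fintype R] in
lemma posDef_t_add (M : Matrix R R ℂ) (hM : M.PosSemidef) {t k : ℝ} (ht : 0 < t) (hk : 0 ≤ k) :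
    ((t : ℂ) • (1 : Matrix R R ℂ) + (k : ℂ) • M).PosDef := by
  have h1 : ((t : ℂ) • (1 : Matrix R R ℂ)).PosDef :=
    Matrix.PosDef.one.smul (Complex.zero_lt_real.mpr ht)
  exact h1.add_posSemidef (hM.smul (Complex.zero_le_real.mpr hk))

/-- push-through identity -/
lemma push_through (Q : Matrix R S ℂ) (t k : ℝ) (ht : 0 < t) (hk : 0 ≤ k) :
    (1 : Matrix S S ℂ) - (k : ℂ) • (Qᴴ * ((t : ℂ) • (1 : Matrix R R ℂ) + (k : ℂ) • (Q * Qᴴ))⁻¹ * Q)
      = (t : ℂ) • ((t : ℂ) • (1 : Matrix S S ℂ) + (k : ℂ) • (Qᴴ * Q))⁻¹ := by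
  set D : Matrix R R ℂ := (t : ℂ) • (1 : Matrix R R ℂ) + (k : ℂ) • (Q * Qᴴ) with hD
  set c : Matrix S S ℂ := (t : ℂ) • (1 : Matrix S S ℂ) + (k : ℂ) • (Qᴴ * Q) with hc
  have hDp : D.PosDef := posDef_t_add _ (Matrix.posSemidef_self_mul_conjTranspose Q) ht hk
  have hcp : c.PosDef := posDef_t_add _ (Matrix.posSemidef_conjTranspose_mul_self Q) ht hk
  have hDu : IsUnit D.det := (Matrix.isUnit_iff_isUnit_det _).mp hDp.isUnit
  have hcu : IsUnit c.det := (Matrix.isUnit_iff_isUnit_det _).mp hcp.isUnit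
  have hcQ : c * Qᴴ = Qᴴ * D := by
    rw [hc, hD, Matrix.add_mul, Matrix.mul_add, Matrix.smul_mul, Matrix.one_mul, Matrix.mul_smul,
      Matrix.mul_one, Matrix.smul_mul, Matrix.mul_smul, Matrix.mul_assoc]
  have h1 : c * ((1 : Matrix S S ℂ) - (k : ℂ) • (Qᴴ * D⁻¹ * Q)) = (t : ℂ) • 1 := by
    rw [Matrix.mul_sub, Matrix.mul_one, Matrix.mul_smul, ← Matrix.mul_assoc, ← Matrix.mul_assoc,
      hcQ, Matrix.mul_assoc Qᴴ D, Matrix.mul_nonsing_inv _ hDu, Matrix.mul_one, hc]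
    abel
  calc (1 : Matrix S S ℂ) - (k : ℂ) • (Qᴴ * D⁻¹ * Q)
      = c⁻¹ * (c * ((1 : Matrix S S ℂ) - (k : ℂ) • (Qᴴ * D⁻¹ * Q))) := by
        rw [← Matrix.mul_assoc, Matrix.nonsing_inv_mul _ hcu, Matrix.one_mul]
    _ = (t : ℂ) • c⁻¹ := by rw [h1, Matrix.mul_smul, Matrix.mul_one]

/-- The determinant identity. -/
theorem det_identity (P Q : Matrix R S ℂ) (t γ k κ : ℝ) (ht : 0 < t) (hγ : 0 ≤ γ) (hk : 0 ≤ k)
    (hκ : κ * κ = k) :
    (Matrix.fromBlocks ((t : ℂ) • (1 : Matrix R R ℂ) + (P * Pᴴ + (γ : ℂ) • (Q * Qᴴ)))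
        ((κ : ℂ) • (P * Qᴴ)) ((κ : ℂ) • (Q * Pᴴ))
        ((t : ℂ) • (1 : Matrix R R ℂ) + (k : ℂ) • (Q * Qᴴ))).det
      * ((t : ℂ) • (1 : Matrix S S ℂ) + (k : ℂ) • (Qᴴ * Q)).det
    = ((t : ℂ) • (1 : Matrix R R ℂ) + (k : ℂ) • (Q * Qᴴ)).det
      * ((t : ℂ) • (1 : Matrix R R ℂ) + (γ : ℂ) • (Q * Qᴴ)).det
      * (((t : ℂ) • (1 : Matrix S S ℂ) + (k : ℂ) • (Qᴴ * Q))
          + (t : ℂ) • (Pᴴ * ((t : ℂ) • (1 : Matrix R R ℂ) + (γ : ℂ) • (Q * Qᴴ))⁻¹ * P)).det := by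
  have hpush := push_through Q t k ht hk
  set D : Matrix R R ℂ := (t : ℂ) • (1 : Matrix R R ℂ) + (k : ℂ) • (Q * Qᴴ) with hD
  set c : Matrix S S ℂ := (t : ℂ) • (1 : Matrix S S ℂ) + (k : ℂ) • (Qᴴ * Q) with hc
  set b : Matrix R R ℂ := (t : ℂ) • (1 : Matrix R R ℂ) + (γ : ℂ) • (Q * Qᴴ) with hb
  have hDp : D.PosDef := posDef_t_add _ (Matrix.posSemidef_self_mul_conjTranspose Q) ht hk
  have hcp : c.PosDef := posDef_t_add _ (Matrix.posSemidef_conjTranspose_mul_self Q) ht hk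
  have hbp : b.PosDef := posDef_t_add _ (Matrix.posSemidef_self_mul_conjTranspose Q) ht hγ
  have hDu : IsUnit D.det := (Matrix.isUnit_iff_isUnit_det _).mp hDp.isUnit
  have hcu : IsUnit c.det := (Matrix.isUnit_iff_isUnit_det _).mp hcp.isUnit
  have hbu : IsUnit b.det := (Matrix.isUnit_iff_isUnit_det _).mp hbp.isUnit
  let _ : Invertible D := Matrix.invertibleOfIsUnitDet D hDu
  rw [Matrix.det_fromBlocks₂₂]
  have hinv : ⅟D = D⁻¹ := Matrix.invOf_eq_nonsing_inv D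
  rw [hinv]
  have h1 : (t : ℂ) • (1 : Matrix R R ℂ) + (P * Pᴴ + (γ : ℂ) • (Q * Qᴴ))
      - (κ : ℂ) • (P * Qᴴ) * D⁻¹ * ((κ : ℂ) • (Q * Pᴴ))
      = b + ((t : ℂ) • (P * c⁻¹)) * Pᴴ := by
    have h2 : ((κ : ℂ) • (P * Qᴴ)) * D⁻¹ * ((κ : ℂ) • (Q * Pᴴ))
        = P * ((k : ℂ) • (Qᴴ * D⁻¹ * Q)) * Pᴴ := by
      rw [Matrix.smul_mul, Matrix.smul_mul, Matrix.mul_smul, smul_smul, ← Complex.ofReal_mul, hκ,
        Matrix.mul_smul, Matrix.smul_mul]
      congr 1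
      simp only [Matrix.mul_assoc]
    have h3 : ((t : ℂ) • (P * c⁻¹)) * Pᴴ = P * ((t : ℂ) • c⁻¹) * Pᴴ := by
      rw [Matrix.mul_smul]
    rw [h2, h3, ← hpush, Matrix.mul_sub, Matrix.sub_mul, Matrix.mul_one, hb]
    abel
  rw [h1, Matrix.det_add_mul _ _ hbu]
  have h4 : (c + (t : ℂ) • (Pᴴ * b⁻¹ * P)).det
      = (1 + Pᴴ * b⁻¹ * ((t : ℂ) • (P * c⁻¹))).det * c.det := by
    rw [← Matrix.det_mul, Matrix.add_mul, Matrix.one_mul, Matrix.mul_smul, Matrix.smul_mul,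
      Matrix.mul_assoc (Pᴴ * b⁻¹) (P * c⁻¹) c, Matrix.mul_assoc P c⁻¹ c,
      Matrix.nonsing_inv_mul _ hcu, Matrix.mul_one]
  rw [h4]
  ring

omit R S in
lemma scal_term (t β ζ γ k x y q L : ℝ) (h1 : 0 < t + β * x) (h2 : 0 < t + ζ * x)
    (h3 : 0 < (t + ζ * x) + t * x / (t + β * x)) :
    (L + t / ((t + β * x) ^ 2 * ((t + ζ * x) + t * x / (t + β * x))) * (β * x ^ 2 - γ * y)
      + (1 / (t + ζ * x) - 1 / ((t + ζ * x) + t * x / (t + β * x))) * (ζ * x - k * q))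
    = (L + 2 * (t * x / ((t + β * x) * ((t + ζ * x) + t * x / (t + β * x)))))
      - (1 / ((t + β * x) ^ 2 * ((t + ζ * x) + t * x / (t + β * x)))) * (t * (t * x + γ * y))
      - (1 / (t + ζ * x) - 1 / ((t + ζ * x) + t * x / (t + β * x))) * (t + k * q) := by
  generalize hbi : t + β * x = bi at *
  generalize hci : t + ζ * x = ci at *
  generalize hn : ci + t * x / bi = n at *
  have hxt : β * x = bi - t := by rw [← hbi]; ring
  have hzt : ζ * x = ci - t := by rw [← hci]; ring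
  have hβx2 : β * x ^ 2 = (bi - t) * x := by rw [← hxt]; ring
  rw [hβx2, hzt]
  have htx : t * x = bi * (n - ci) := by rw [← hn]; field_simp; ring
  have e1 : t / (bi ^ 2 * n) * ((bi - t) * x - γ * y)
      = (t * x) * bi / (bi ^ 2 * n) - 1 / (bi ^ 2 * n) * (t * (t * x + γ * y)) := by
    field_simp; ring
  have e2 : (1 / ci - 1 / n) * (ci - t - k * q)
      = (1 / ci - 1 / n) * ci - (1 / ci - 1 / n) * (t + k * q) := by ring
  have e3 : (t * x) * bi / (bi ^ 2 * n) = t * x / (bi * n) := by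
    field_simp
  have e4 : (1 / ci - 1 / n) * ci = t * x / (bi * n) := by
    rw [htx]; field_simp
  rw [e1, e2, e3, e4]
  ring

/-- diagonal entries of the rotated `P'ᴴ b P'` -/
lemma diag_entry_b (P : Matrix R S ℂ) (Y : Matrix R R ℂ) (V : Matrix S S ℂ) (x : S → ℝ)
    (hVP : Vᴴ * (Pᴴ * P) * V = diagonal (fun i => (x i : ℂ))) (t γ : ℝ) (i : S) :
    ((Vᴴ * ((t : ℂ) • (Pᴴ * ((t : ℂ) • (1 : Matrix R R ℂ) + (γ : ℂ) • Y) * P)) * V) i i).re
      = t * (t * x i + γ * ((Vᴴ * (Pᴴ * Y * P) * V) i i).re) := by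
  have h1 : Vᴴ * ((t : ℂ) • (Pᴴ * ((t : ℂ) • (1 : Matrix R R ℂ) + (γ : ℂ) • Y) * P)) * V
      = (t : ℂ) • ((t : ℂ) • diagonal (fun i => (x i : ℂ))
        + (γ : ℂ) • (Vᴴ * (Pᴴ * Y * P) * V)) := by
    simp only [Matrix.mul_add, Matrix.add_mul, Matrix.mul_smul, Matrix.smul_mul, Matrix.mul_one,
      smul_add, ← hVP]
  rw [h1, Matrix.smul_apply, Matrix.add_apply, Matrix.smul_apply, Matrix.smul_apply,
    Matrix.diagonal_apply_eq, smul_eq_mul, smul_eq_mul, smul_eq_mul, Complex.re_ofReal_mul,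
    Complex.add_re, Complex.re_ofReal_mul, Complex.re_ofReal_mul, Complex.ofReal_re]

lemma diag_entry_c (Y : Matrix S S ℂ) (V : Matrix S S ℂ) (hV' : Vᴴ * V = 1) (t k : ℝ) (i : S) :
    ((Vᴴ * ((t : ℂ) • (1 : Matrix S S ℂ) + (k : ℂ) • Y) * V) i i).re
      = t + k * ((Vᴴ * Y * V) i i).re := by
  have h1 : Vᴴ * ((t : ℂ) • (1 : Matrix S S ℂ) + (k : ℂ) • Y) * V
      = (t : ℂ) • (1 : Matrix S S ℂ) + (k : ℂ) • (Vᴴ * Y * V) := by
    simp only [Matrix.mul_add, Matrix.add_mul, Matrix.mul_smul, Matrix.smul_mul, Matrix.mul_one,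
      hV']
  rw [h1, Matrix.add_apply, Matrix.smul_apply, Matrix.smul_apply, Matrix.one_apply_eq,
    smul_eq_mul, smul_eq_mul, Complex.add_re, Complex.re_ofReal_mul, Complex.re_ofReal_mul,
    Complex.one_re, mul_one]

/-- The log form, together with the lower bound from `matIneq`. -/
theorem logdet_lower (P Q : Matrix R S ℂ) (t γ k κ : ℝ) (ht : 0 < t) (hγ : 0 ≤ γ) (hk : 0 ≤ k)
    (hκ : κ * κ = k) (V : Matrix S S ℂ) (hV : V * Vᴴ = 1) (x : S → ℝ) (hx : ∀ i, 0 ≤ x i)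
    (hP : Pᴴ * P = V * diagonal (fun i => (x i : ℂ)) * Vᴴ) (β ζ : ℝ) (hβ : 0 ≤ β) (hζ : 0 ≤ ζ) :
    Real.log (((t : ℂ) • (1 : Matrix R R ℂ) + (k : ℂ) • (Q * Qᴴ)).det.re)
    + Real.log (((t : ℂ) • (1 : Matrix R R ℂ) + (γ : ℂ) • (Q * Qᴴ)).det.re)
    + ∑ i, (Real.log (((t + ζ * x i) + t * x i / (t + β * x i)) / (t + ζ * x i))
      + t / ((t + β * x i) ^ 2 * ((t + ζ * x i) + t * x i / (t + β * x i)))
        * (β * x i ^ 2 - γ * ((Vᴴ * (Pᴴ * (Q * Qᴴ) * P) * V) i i).re)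
      + (1 / (t + ζ * x i) - 1 / ((t + ζ * x i) + t * x i / (t + β * x i)))
        * (ζ * x i - k * ((Vᴴ * (Qᴴ * Q) * V) i i).re))
    ≤ Real.log ((Matrix.fromBlocks ((t : ℂ) • (1 : Matrix R R ℂ) + (P * Pᴴ + (γ : ℂ) • (Q * Qᴴ)))
        ((κ : ℂ) • (P * Qᴴ)) ((κ : ℂ) • (Q * Pᴴ))
        ((t : ℂ) • (1 : Matrix R R ℂ) + (k : ℂ) • (Q * Qᴴ))).det.re) := by
  have hid := det_identity P Q t γ k κ ht hγ hk hκ
  have hV' : Vᴴ * V = 1 := mul_eq_one_comm.mp hV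
  set D : Matrix R R ℂ := (t : ℂ) • (1 : Matrix R R ℂ) + (k : ℂ) • (Q * Qᴴ) with hD
  set c : Matrix S S ℂ := (t : ℂ) • (1 : Matrix S S ℂ) + (k : ℂ) • (Qᴴ * Q) with hc
  set b : Matrix R R ℂ := (t : ℂ) • (1 : Matrix R R ℂ) + (γ : ℂ) • (Q * Qᴴ) with hb
  set T := (Matrix.fromBlocks ((t : ℂ) • (1 : Matrix R R ℂ) + (P * Pᴴ + (γ : ℂ) • (Q * Qᴴ)))
        ((κ : ℂ) • (P * Qᴴ)) ((κ : ℂ) • (Q * Pᴴ)) D) with hT
  have hDp : D.PosDef := posDef_t_add _ (Matrix.posSemidef_self_mul_conjTranspose Q) ht hk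
  have hcp : c.PosDef := posDef_t_add _ (Matrix.posSemidef_conjTranspose_mul_self Q) ht hk
  have hbp : b.PosDef := posDef_t_add _ (Matrix.posSemidef_self_mul_conjTranspose Q) ht hγ
  -- scaled P
  set P' : Matrix R S ℂ := ((Real.sqrt t : ℝ) : ℂ) • P with hP'
  have hst : Real.sqrt t * Real.sqrt t = t := Real.mul_self_sqrt ht.le
  have hscale : ∀ B : Matrix R R ℂ, P'ᴴ * B * P' = (t : ℂ) • (Pᴴ * B * P) := by
    intro B
    rw [hP', Matrix.conjTranspose_smul, Matrix.smul_mul, Matrix.smul_mul, Matrix.mul_smul,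
      smul_smul]
    congr 1
    rw [← hst]
    simp
  have hP'P : P'ᴴ * P' = V * diagonal (fun i => ((t * x i : ℝ) : ℂ)) * Vᴴ := by
    have h1 := hscale 1
    rw [Matrix.mul_one, Matrix.mul_one, hP] at h1
    rw [h1, ← Matrix.smul_mul, ← Matrix.mul_smul]
    congr 2
    ext i j
    by_cases hij : i = j
    · subst hij; simp
    · simp [hij]
  have hβi : ∀ i, 0 < t + β * x i := fun i => by have := hx i; positivity
  have hζi : ∀ i, 0 < t + ζ * x i := fun i => by have := hx i; positivity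
  have hmat := matIneq P' b c hbp hcp V hV (fun i => t * x i)
    (fun i => mul_nonneg ht.le (hx i)) hP'P (fun i => t + β * x i) (fun i => t + ζ * x i) hβi hζi
  rw [hscale b⁻¹] at hmat
  -- positivity of the last determinant
  have hNp : (c + (t : ℂ) • (Pᴴ * b⁻¹ * P)).PosDef := by
    rw [← hscale]
    exact hcp.add_posSemidef (hbp.inv.posSemidef.conjTranspose_mul_mul_same _)
  -- T's determinant
  have hTdet : T.det.re = D.det.re * b.det.re * (c + (t : ℂ) • (Pᴴ * b⁻¹ * P)).det.re / c.det.re := by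
    have hc0 : (c.det.re) ≠ 0 := (PosDef.re_det_pos hcp).ne'
    rw [PosDef.det_eq_re hcp, PosDef.det_eq_re hDp, PosDef.det_eq_re hbp, PosDef.det_eq_re hNp,
      ← Complex.ofReal_mul, ← Complex.ofReal_mul] at hid
    have := congrArg Complex.re hid
    rw [Complex.re_mul_ofReal, Complex.ofReal_re] at this
    rw [eq_div_iff hc0]
    exact this
  have hDpos := PosDef.re_det_pos hDp
  have hbpos := PosDef.re_det_pos hbp
  have hcpos := PosDef.re_det_pos hcp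
  have hNpos := PosDef.re_det_pos hNp
  rw [hTdet, Real.log_div (by positivity) hcpos.ne', Real.log_mul (by positivity) hNpos.ne',
    Real.log_mul hDpos.ne' hbpos.ne']
  -- diagonal entries
  have hVP : Vᴴ * (Pᴴ * P) * V = diagonal (fun i => (x i : ℂ)) := by
    rw [hP, ← Matrix.mul_assoc, ← Matrix.mul_assoc, hV', Matrix.one_mul, Matrix.mul_assoc, hV',
      Matrix.mul_one]
  have hdb : ∀ i, ((Vᴴ * (P'ᴴ * b * P') * V) i i).re
      = t * (t * x i + γ * ((Vᴴ * (Pᴴ * (Q * Qᴴ) * P) * V) i i).re) := by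
    intro i
    rw [hscale, hb]
    exact diag_entry_b P (Q * Qᴴ) V x hVP t γ i
  have hdc : ∀ i, ((Vᴴ * c * V) i i).re = t + k * ((Vᴴ * (Qᴴ * Q) * V) i i).re := by
    intro i
    rw [hc]
    exact diag_entry_c (Qᴴ * Q) V hV' t k i
  have hfinal : ∑ i, (Real.log (((t + ζ * x i) + t * x i / (t + β * x i)) / (t + ζ * x i))
      + t / ((t + β * x i) ^ 2 * ((t + ζ * x i) + t * x i / (t + β * x i)))
        * (β * x i ^ 2 - γ * ((Vᴴ * (Pᴴ * (Q * Qᴴ) * P) * V) i i).re)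
      + (1 / (t + ζ * x i) - 1 / ((t + ζ * x i) + t * x i / (t + β * x i)))
        * (ζ * x i - k * ((Vᴴ * (Qᴴ * Q) * V) i i).re))
      = ∑ i, (Real.log (((t + ζ * x i) + t * x i / (t + β * x i)) / (t + ζ * x i))
          + 2 * (t * x i / ((t + β * x i) * ((t + ζ * x i) + t * x i / (t + β * x i)))))
      - ∑ i, (1 / ((t + β * x i) ^ 2 * ((t + ζ * x i) + t * x i / (t + β * x i))))
          * ((Vᴴ * (P'ᴴ * b * P') * V) i i).re
      - ∑ i, (1 / (t + ζ * x i) - 1 / ((t + ζ * x i) + t * x i / (t + β * x i)))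
          * ((Vᴴ * c * V) i i).re := by
    rw [← Finset.sum_sub_distrib, ← Finset.sum_sub_distrib]
    apply Finset.sum_congr rfl
    intro i _
    rw [hdb, hdc]
    have h1 := hβi i
    have h2 := hζi i
    have h3 : 0 < (t + ζ * x i) + t * x i / (t + β * x i) := by
      have := hx i
      positivity
    exact scal_term t β ζ γ k (x i) _ _ _ h1 h2 h3
  rw [hfinal]
  linarith

end

end Vale.Agent.P358
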