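import Vale.Agent.P358.ADScalarDefs

/-!
# P358, pieces J1, J2
-/

open Matrix Finset MeasureTheory Set
open scoped BigOperators ComplexOrder Topology

namespace Vale.Agent.P358

namespace ADScalarAux

theorem integrableOn_inv_sq {a : ℝ} (ha : 0 < a) (x : ℝ) :
    IntegrableOn (fun t : ℝ => x / (t + a) ^ 2) (Ioi 0) := by
  have h1 : IntegrableOn (fun t : ℝ => 1 / (t + a) ^ 2) (Ioi 0) := by
    refine integrableOn_Ioi_deriv_of_nonneg' (g := fun t : ℝ => -(t + a)⁻¹) (l := 0) ?_ ?_ ?_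
    · intro t ht
      have ht0 : 0 ≤ t := ht
      have h2 : HasDerivAt (fun t : ℝ => t + a) 1 t := (hasDerivAt_id t).add_const a
      have h3 := (h2.inv (by positivity : t + a ≠ 0)).neg
      refine h3.congr_deriv (f' := _) ?_
      field_simp
    · intro t ht
      positivity
    · have h4 : Filter.Tendsto (fun t : ℝ => t + a) Filter.atTop Filter.atTop :=
        Filter.tendsto_atTop_add_const_right _ _ Filter.tendsto_id
      simpa using (tendsto_inv_atTop_zero.comp h4).neg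
  have h2 : IntegrableOn (fun t : ℝ => x * (1 / (t + a) ^ 2)) (Ioi 0) := h1.const_mul x
  refine h2.congr_fun (fun t _ => ?_) measurableSet_Ioi
  simp only []
  ring

theorem alphaF_nonneg {β ζ x t : ℝ} (hβ : 0 ≤ β) (hζ : 0 ≤ ζ) (hx : 0 < x) (ht : 0 < t) :
    0 ≤ alphaF β ζ x t := by
  unfold alphaF
  positivity

theorem alphaF_le {β ζ x t : ℝ} (hβ : 0 < β) (hζ : 0 ≤ ζ) (hx : 0 < x) (ht : 0 < t) :
    alphaF β ζ x t ≤ x / (t + β * x) ^ 2 := by
  unfold alphaF
  rw [div_le_div_iff₀ (by positivity) (by positivity)]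
  have h1 : 0 ≤ t * x / (t + β * x) := by positivity
  have h2 : 0 ≤ ζ * x := by positivity
  have h3 : t * x * (t + β * x) ^ 2 ≤ x * ((t + β * x) ^ 2 * (t + ζ * x + t * x / (t + β * x))) := by
    have h4 : x * (t + β * x) ^ 2 * t ≤
        x * (t + β * x) ^ 2 * (t + ζ * x + t * x / (t + β * x)) :=
      mul_le_mul_of_nonneg_left (by linarith) (by positivity)
    linarith
  exact h3

theorem chiF_eq {β ζ x t : ℝ} (hβ : 0 ≤ β) (hζ : 0 < ζ) (hx : 0 < x) (ht : 0 < t) :
    chiF β ζ x t = (t * x / (t + β * x)) /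
      ((t + ζ * x) * ((t + ζ * x) + t * x / (t + β * x))) := by
  unfold chiF
  have h1 : 0 ≤ t * x / (t + β * x) := by positivity
  have h2 : 0 < t + ζ * x := by positivity
  have h3 : 0 < t + ζ * x + t * x / (t + β * x) := by positivity
  rw [div_sub_div _ _ h2.ne' h3.ne']
  congr 1
  ring

theorem chiF_nonneg {β ζ x t : ℝ} (hβ : 0 ≤ β) (hζ : 0 < ζ) (hx : 0 < x) (ht : 0 < t) :
    0 ≤ chiF β ζ x t := by
  rw [chiF_eq hβ hζ hx ht]
  positivity

theorem chiF_le {β ζ x t : ℝ} (hβ : 0 ≤ β) (hζ : 0 < ζ) (hx : 0 < x) (ht : 0 < t) :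
    chiF β ζ x t ≤ x / (t + ζ * x) ^ 2 := by
  rw [chiF_eq hβ hζ hx ht]
  have h1 : 0 ≤ t * x / (t + β * x) := by positivity
  have h4 : t * x / (t + β * x) ≤ x := by
    rw [div_le_iff₀ (by positivity)]
    nlinarith [mul_nonneg hβ hx.le, mul_nonneg (mul_nonneg hβ hx.le) hx.le]
  have h2 : 0 < t + ζ * x := by positivity
  refine div_le_div₀ hx.le h4 (by positivity) ?_
  rw [sq]
  exact mul_le_mul_of_nonneg_left (by linarith) h2.le

theorem measurable_alphaF (β ζ x : ℝ) : Measurable (alphaF β ζ x) := by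
  unfold alphaF
  fun_prop

theorem measurable_chiF (β ζ x : ℝ) : Measurable (chiF β ζ x) := by
  unfold chiF
  fun_prop

end ADScalarAux

open ADScalarAux

/-- J1 -/
theorem alphaF_integrable {β ζ x : ℝ} (hβ : 0 < β) (hζ : 0 ≤ ζ) (hx : 0 < x) :
    IntegrableOn (alphaF β ζ x) (Ioi 0) := by
  refine Integrable.mono' (integrableOn_inv_sq (show 0 < β * x by positivity) x)
    (measurable_alphaF β ζ x).aestronglyMeasurable ?_
  refine (ae_restrict_iff' measurableSet_Ioi).2 (Filter.Eventually.of_forall fun t ht => ?_)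
  rw [Real.norm_of_nonneg (alphaF_nonneg hβ.le hζ hx ht)]
  exact alphaF_le hβ hζ hx ht

theorem alphaF_integral {β ζ x : ℝ} (hβ : 0 < β) (hζ : 0 ≤ ζ) (hx : 0 < x) :
    ∫ t in Ioi (0 : ℝ), alphaF β ζ x t = ∫ t in Ioi (0 : ℝ), alphaF β ζ 1 t := by
  have h1 := integral_comp_mul_left_Ioi (fun t => alphaF β ζ x t) 0 hx
  rw [mul_zero] at h1
  have h2 : ∫ t in Ioi (0 : ℝ), alphaF β ζ x (x * t) =
      ∫ t in Ioi (0 : ℝ), x⁻¹ * alphaF β ζ 1 t := by
    refine setIntegral_congr_fun measurableSet_Ioi fun t ht => ?_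
    have ht' : (0 : ℝ) < t := ht
    simp only [alphaF]
    have h3 : (t + β) ≠ 0 := by positivity
    have h4 : x * t * x / (x * t + β * x) = x * (t * 1 / (t + β * 1)) := by
      have : x * t + β * x = x * (t + β) := by ring
      rw [this]
      field_simp
    rw [h4]
    have h5 : 0 < (t + ζ * 1 + t * 1 / (t + β * 1)) := by positivity
    have h6 : x * t + ζ * x + x * (t * 1 / (t + β * 1)) =
        x * (t + ζ * 1 + t * 1 / (t + β * 1)) := by ring
    have h7 : x * t + β * x = x * (t + β * 1) := by ring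
    rw [h6, h7]
    have h8 : 0 < t + β * 1 := by positivity
    set u := t + ζ * 1 + t * 1 / (t + β * 1)
    set v := t + β * 1
    field_simp
  rw [h2, integral_const_mul, smul_eq_mul] at h1
  exact (mul_left_cancel₀ (inv_ne_zero hx.ne') h1).symm

theorem alphaF_integral_nonneg {β ζ : ℝ} (hβ : 0 < β) (hζ : 0 ≤ ζ) :
    0 ≤ ∫ t in Ioi (0 : ℝ), alphaF β ζ 1 t :=
  setIntegral_nonneg measurableSet_Ioi fun _ ht => alphaF_nonneg hβ.le hζ one_pos ht

/-- J2 -/
theorem chiF_integrable {β ζ x : ℝ} (hβ : 0 ≤ β) (hζ : 0 < ζ) (hx : 0 < x) :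
    IntegrableOn (chiF β ζ x) (Ioi 0) := by
  refine Integrable.mono' (integrableOn_inv_sq (show 0 < ζ * x by positivity) x)
    (measurable_chiF β ζ x).aestronglyMeasurable ?_
  refine (ae_restrict_iff' measurableSet_Ioi).2 (Filter.Eventually.of_forall fun t ht => ?_)
  rw [Real.norm_of_nonneg (chiF_nonneg hβ hζ hx ht)]
  exact chiF_le hβ hζ hx ht

theorem chiF_integral {β ζ x : ℝ} (hβ : 0 ≤ β) (hζ : 0 < ζ) (hx : 0 < x) :
    ∫ t in Ioi (0 : ℝ), chiF β ζ x t = ∫ t in Ioi (0 : ℝ), chiF β ζ 1 t := by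
  have h1 := integral_comp_mul_left_Ioi (fun t => chiF β ζ x t) 0 hx
  rw [mul_zero] at h1
  have h2 : ∫ t in Ioi (0 : ℝ), chiF β ζ x (x * t) =
      ∫ t in Ioi (0 : ℝ), x⁻¹ * chiF β ζ 1 t := by
    refine setIntegral_congr_fun measurableSet_Ioi fun t ht => ?_
    have ht' : (0 : ℝ) < t := ht
    simp only [chiF]
    have h3 : (t + β) ≠ 0 := by positivity
    have h4 : x * t * x / (x * t + β * x) = x * (t * 1 / (t + β * 1)) := by
      have : x * t + β * x = x * (t + β) := by ring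
      rw [this]
      field_simp
    rw [h4]
    have h5 : 0 < (t + ζ * 1 + t * 1 / (t + β * 1)) := by positivity
    have h6 : x * t + ζ * x + x * (t * 1 / (t + β * 1)) =
        x * (t + ζ * 1 + t * 1 / (t + β * 1)) := by ring
    have h7 : x * t + ζ * x = x * (t + ζ * 1) := by ring
    rw [h6, h7]
    have h8 : 0 < t + ζ * 1 := by positivity
    set u := t + ζ * 1 + t * 1 / (t + β * 1)
    set v := t + ζ * 1
    field_simp
  rw [h2, integral_const_mul, smul_eq_mul] at h1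
  exact (mul_left_cancel₀ (inv_ne_zero hx.ne') h1).symm

theorem chiF_integral_nonneg {β ζ : ℝ} (hβ : 0 ≤ β) (hζ : 0 < ζ) :
    0 ≤ ∫ t in Ioi (0 : ℝ), chiF β ζ 1 t :=
  setIntegral_nonneg measurableSet_Ioi fun _ ht => chiF_nonneg hβ hζ one_pos ht

end Vale.Agent.P358
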