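import Vale.Agent.P358.ADScalarDefs

/-!
# P358, pieces J3, J4
-/

open Matrix Finset MeasureTheory Set
open scoped BigOperators ComplexOrder Topology

namespace Vale.Agent.P358

namespace ADScalarAux

theorem disc_nonneg {β ζ : ℝ} (hβ : 0 ≤ β) (hζ : 0 ≤ ζ) : 0 ≤ (β + ζ + 1) ^ 2 - 4 * β * ζ := by
  nlinarith [sq_nonneg (β - ζ)]

theorem rootP_add_rootM (β ζ : ℝ) : rootP β ζ + rootM β ζ = β + ζ + 1 := by
  unfold rootP rootM
  ring

theorem rootP_mul_rootM {β ζ : ℝ} (hβ : 0 ≤ β) (hζ : 0 ≤ ζ) :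
    rootP β ζ * rootM β ζ = β * ζ := by
  unfold rootP rootM
  have h := Real.mul_self_sqrt (disc_nonneg hβ hζ)
  linear_combination (-1 / 4 : ℝ) * h

theorem rootP_nonneg {β ζ : ℝ} (hβ : 0 ≤ β) (hζ : 0 ≤ ζ) : 0 ≤ rootP β ζ := by
  unfold rootP
  positivity

theorem rootM_nonneg {β ζ : ℝ} (hβ : 0 ≤ β) (hζ : 0 ≤ ζ) : 0 ≤ rootM β ζ := by
  unfold rootM
  have h : Real.sqrt ((β + ζ + 1) ^ 2 - 4 * β * ζ) ≤ β + ζ + 1 := by
    apply Real.sqrt_le_iff.2
    refine ⟨by positivity, ?_⟩
    nlinarith [mul_nonneg hβ hζ]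
  linarith

theorem logF_integrand {β ζ x : ℝ} (hβ : 0 ≤ β) (hζ : 0 ≤ ζ) (hx : 0 ≤ x) (t : ℝ)
    (ht : t ∈ Ioi (0 : ℝ)) :
    Real.log (((t + ζ * x) + t * x / (t + β * x)) / (t + ζ * x)) - x * Real.log (1 + 1 / t) =
      ((Real.log (1 + (rootP β ζ * x) / t) - (rootP β ζ * x) * Real.log (1 + 1 / t)) +
        (Real.log (1 + (rootM β ζ * x) / t) - (rootM β ζ * x) * Real.log (1 + 1 / t))) -
      ((Real.log (1 + (β * x) / t) - (β * x) * Real.log (1 + 1 / t)) +
        (Real.log (1 + (ζ * x) / t) - (ζ * x) * Real.log (1 + 1 / t))) := by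
  have ht' : (0 : ℝ) < t := ht
  have hP := rootP_nonneg hβ hζ
  have hM := rootM_nonneg hβ hζ
  have hs := rootP_add_rootM β ζ
  have hp := rootP_mul_rootM hβ hζ
  set P := rootP β ζ
  set M := rootM β ζ
  have hlog : ∀ m : ℝ, 0 ≤ m → Real.log (1 + m * x / t) = Real.log (t + m * x) - Real.log t := by
    intro m hm
    rw [← Real.log_div (by positivity) ht'.ne']
    congr 1
    field_simp
  rw [hlog P hP, hlog M hM, hlog β hβ, hlog ζ hζ]
  have h1 : ((t + ζ * x) + t * x / (t + β * x)) / (t + ζ * x) =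
      ((t + P * x) * (t + M * x)) / ((t + β * x) * (t + ζ * x)) := by
    have e1 : 0 < t + β * x := by positivity
    have e2 : 0 < t + ζ * x := by positivity
    have e3 : (t + P * x) * (t + M * x) = (t + β * x) * (t + ζ * x) + t * x := by
      linear_combination t * x * hs + x ^ 2 * hp
    rw [e3]
    field_simp
  rw [h1, Real.log_div (by positivity) (by positivity), Real.log_mul (by positivity) (by positivity),
    Real.log_mul (by positivity) (by positivity)]
  have h2 : x = P * x + M * x - β * x - ζ * x := by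
    linear_combination (-x) * hs
  have h3 : x * Real.log (1 + 1 / t) = P * x * Real.log (1 + 1 / t) +
      M * x * Real.log (1 + 1 / t) - β * x * Real.log (1 + 1 / t) -
      ζ * x * Real.log (1 + 1 / t) := by
    linear_combination Real.log (1 + 1 / t) * h2
  rw [h3]
  ring

end ADScalarAux

open ADScalarAux

/-- J3 -/
theorem logF_integrable {β ζ x : ℝ} (hβ : 0 ≤ β) (hζ : 0 ≤ ζ) (hx : 0 ≤ x) :
    IntegrableOn (fun t : ℝ => Real.log (((t + ζ * x) + t * x / (t + β * x)) / (t + ζ * x))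
      - x * Real.log (1 + 1 / t)) (Ioi 0) := by
  have h1 := scal_integrable (rootP β ζ * x) (mul_nonneg (rootP_nonneg hβ hζ) hx)
  have h2 := scal_integrable (rootM β ζ * x) (mul_nonneg (rootM_nonneg hβ hζ) hx)
  have h3 := scal_integrable (β * x) (mul_nonneg hβ hx)
  have h4 := scal_integrable (ζ * x) (mul_nonneg hζ hx)
  have h5 : IntegrableOn (fun t : ℝ =>
      ((Real.log (1 + (rootP β ζ * x) / t) - (rootP β ζ * x) * Real.log (1 + 1 / t)) +
        (Real.log (1 + (rootM β ζ * x) / t) - (rootM β ζ * x) * Real.log (1 + 1 / t))) -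
      ((Real.log (1 + (β * x) / t) - (β * x) * Real.log (1 + 1 / t)) +
        (Real.log (1 + (ζ * x) / t) - (ζ * x) * Real.log (1 + 1 / t)))) (Ioi 0) :=
    (h1.add h2).sub (h3.add h4)
  exact h5.congr_fun (fun t ht => (logF_integrand hβ hζ hx t ht).symm) measurableSet_Ioi

theorem logF_integral {β ζ x : ℝ} (hβ : 0 ≤ β) (hζ : 0 ≤ ζ) (hx : 0 ≤ x) :
    ∫ t in Ioi (0 : ℝ), (Real.log (((t + ζ * x) + t * x / (t + β * x)) / (t + ζ * x))
      - x * Real.log (1 + 1 / t)) = x * Lam β ζ + Real.negMulLog x := by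
  have hP0 := mul_nonneg (rootP_nonneg hβ hζ) hx
  have hM0 := mul_nonneg (rootM_nonneg hβ hζ) hx
  have h1 := scal_integrable (rootP β ζ * x) hP0
  have h2 := scal_integrable (rootM β ζ * x) hM0
  have h3 := scal_integrable (β * x) (mul_nonneg hβ hx)
  have h4 := scal_integrable (ζ * x) (mul_nonneg hζ hx)
  have h12 : IntegrableOn (fun t : ℝ =>
      (Real.log (1 + (rootP β ζ * x) / t) - (rootP β ζ * x) * Real.log (1 + 1 / t)) +
        (Real.log (1 + (rootM β ζ * x) / t) - (rootM β ζ * x) * Real.log (1 + 1 / t))) (Ioi 0) :=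
    h1.add h2
  have h34 : IntegrableOn (fun t : ℝ =>
      (Real.log (1 + (β * x) / t) - (β * x) * Real.log (1 + 1 / t)) +
        (Real.log (1 + (ζ * x) / t) - (ζ * x) * Real.log (1 + 1 / t))) (Ioi 0) :=
    h3.add h4
  rw [setIntegral_congr_fun measurableSet_Ioi (logF_integrand hβ hζ hx)]
  rw [integral_sub h12 h34, integral_add h1 h2, integral_add h3 h4,
    scal_integral _ hP0, scal_integral _ hM0, scal_integral _ (mul_nonneg hβ hx),
    scal_integral _ (mul_nonneg hζ hx), Real.negMulLog_mul, Real.negMulLog_mul,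
    Real.negMulLog_mul, Real.negMulLog_mul, Lam]
  linear_combination Real.negMulLog x * rootP_add_rootM β ζ

/-- J4 -/
theorem FF_gadc_zero {γ x y : ℝ} (hγ0 : 0 ≤ γ) (hγ1 : γ ≤ 1) (hx : 0 < x) (hy : 0 ≤ y) :
    FF (gadc γ 0) x y = x * Lam (γ * y / x) ((1 - γ) * y / x) + Real.negMulLog x
      + Real.negMulLog (γ * y) + Real.negMulLog ((1 - γ) * y) := by
  have hγ2 : 0 ≤ 1 - γ := by linarith
  have hβ : 0 ≤ γ * y / x := by positivity
  have hζ : 0 ≤ (1 - γ) * y / x := by positivity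
  have hs := rootP_add_rootM (γ * y / x) ((1 - γ) * y / x)
  have hp := rootP_mul_rootM hβ hζ
  set P := rootP (γ * y / x) ((1 - γ) * y / x) with hP
  set M := rootM (γ * y / x) ((1 - γ) * y / x) with hM
  have hxs : x * P + x * M = x + y := by
    rw [← mul_add, hs]
    field_simp
    ring
  have hxp : (x * P) * (x * M) = γ * (1 - γ) * y ^ 2 := by
    have : (x * P) * (x * M) = x ^ 2 * (P * M) := by ring
    rw [this, hp]
    field_simp
  -- the output matrix
  have hsq : Real.sqrt (1 - γ) * Real.sqrt (1 - γ) = 1 - γ := Real.mul_self_sqrt hγ2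
  have hsq2 : Real.sqrt (x * y) * Real.sqrt (x * y) = x * y :=
    Real.mul_self_sqrt (by positivity)
  set m := gadc γ 0 (psi x y) with hm
  have m00 : m 0 0 = ((x + γ * y : ℝ) : ℂ) := by
    simp [hm, gadc, psi]
    ring
  have m01 : m 0 1 = ((Real.sqrt (1 - γ) * Real.sqrt (x * y) : ℝ) : ℂ) := by
    simp [hm, gadc, psi]
  have m10 : m 1 0 = ((Real.sqrt (1 - γ) * Real.sqrt (x * y) : ℝ) : ℂ) := by
    simp [hm, gadc, psi]
  have m11 : m 1 1 = (((1 - γ) * y : ℝ) : ℂ) := by
    simp [hm, gadc, psi]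
  have hherm : m.IsHermitian := by
    ext i j
    rw [Matrix.conjTranspose_apply]
    fin_cases i <;> fin_cases j
    · show star (m 0 0) = m 0 0
      rw [m00]; exact Complex.conj_ofReal _
    · show star (m 1 0) = m 0 1
      rw [m10, m01]; exact Complex.conj_ofReal _
    · show star (m 0 1) = m 1 0
      rw [m10, m01]; exact Complex.conj_ofReal _
    · show star (m 1 1) = m 1 1
      rw [m11]; exact Complex.conj_ofReal _
  have hD : (diagonal (fun i => ((![x * P, x * M] i : ℝ) : ℂ)) :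
      Matrix (Fin 2) (Fin 2) ℂ).IsHermitian := by
    apply isHermitian_diagonal_of_self_adjoint
    rw [isSelfAdjoint_iff]
    funext i
    simp
  have hch : m.charpoly = (diagonal (fun i => ((![x * P, x * M] i : ℝ) : ℂ)) :
      Matrix (Fin 2) (Fin 2) ℂ).charpoly := by
    rw [Matrix.charpoly_fin_two, Matrix.charpoly_fin_two]
    have t1 : m.trace = (diagonal (fun i => ((![x * P, x * M] i : ℝ) : ℂ)) :
        Matrix (Fin 2) (Fin 2) ℂ).trace := by
      rw [Matrix.trace_fin_two, Matrix.trace_fin_two, m00, m11]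
      simp only [diagonal_apply_eq, Matrix.cons_val_zero, Matrix.cons_val_one]
      rw [← Complex.ofReal_add, ← Complex.ofReal_add, hxs]
      congr 1
      ring
    have t2 : m.det = (diagonal (fun i => ((![x * P, x * M] i : ℝ) : ℂ)) :
        Matrix (Fin 2) (Fin 2) ℂ).det := by
      rw [Matrix.det_fin_two, Matrix.det_diagonal, Fin.prod_univ_two, m00, m01, m10, m11]
      simp only [Matrix.cons_val_zero, Matrix.cons_val_one]
      rw [← Complex.ofReal_mul, ← Complex.ofReal_mul, ← Complex.ofReal_mul, ← Complex.ofReal_sub,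
        hxp]
      congr 1
      have : Real.sqrt (1 - γ) * Real.sqrt (x * y) * (Real.sqrt (1 - γ) * Real.sqrt (x * y)) =
          (Real.sqrt (1 - γ) * Real.sqrt (1 - γ)) * (Real.sqrt (x * y) * Real.sqrt (x * y)) := by
        ring
      rw [this, hsq, hsq2]
      ring
    rw [t1, t2]
  have h1 : FF (gadc γ 0) x y = Real.negMulLog (x * P) + Real.negMulLog (x * M) := by
    unfold FF
    rw [← hm, eta_eq_of_charpoly_eq _ _ hherm hD hch, eta_diagonal, Fin.sum_univ_two]
    simp
  have e1 : γ * y = x * (γ * y / x) := by field_simp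
  have e2 : (1 - γ) * y = x * ((1 - γ) * y / x) := by field_simp
  have e3 : Real.negMulLog (γ * y) = Real.negMulLog (x * (γ * y / x)) := by rw [← e1]
  have e4 : Real.negMulLog ((1 - γ) * y) = Real.negMulLog (x * ((1 - γ) * y / x)) := by
    rw [← e2]
  rw [h1, e3, e4, Real.negMulLog_mul, Real.negMulLog_mul, Real.negMulLog_mul, Real.negMulLog_mul,
    Lam, ← hP, ← hM]
  linear_combination Real.negMulLog x * hs

theorem FF_gadc_zero' {γ y : ℝ} (hγ0 : 0 ≤ γ) (hγ1 : γ ≤ 1) (hy : 0 ≤ y) :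
    FF (gadc γ 0) 0 y = Real.negMulLog (γ * y) + Real.negMulLog ((1 - γ) * y) := by
  have h1 : gadc γ 0 (psi 0 y) =
      diagonal (fun i => ((![γ * y, (1 - γ) * y] i : ℝ) : ℂ)) := by
    ext i j
    fin_cases i <;> fin_cases j <;> simp [gadc, psi]
    ring
  unfold FF
  rw [h1, eta_diagonal, Fin.sum_univ_two]
  simp

end Vale.Agent.P358
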