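import Vale.Agent.P358.EtaBasic

/-!
# P358 : the amplitude-damping channels
-/

open Matrix Finset
open scoped BigOperators ComplexOrder

namespace Vale.Agent.P358

/-- the stochastic matrix of the channel -/
noncomputable def Wg (γ ν : ℝ) : Fin 2 → Fin 2 → ℝ :=
  ![![1 - γ * ν, γ * (1 - ν)], ![γ * ν, 1 - γ * (1 - ν)]]

namespace ChanAux

/-- `(K ⊗ 1) M (K ⊗ 1)†` -/
noncomputable def kr {R : Type} (K : Matrix (Fin 2) (Fin 2) ℂ)
    (M : Matrix (Fin 2 × R) (Fin 2 × R) ℂ) : Matrix (Fin 2 × R) (Fin 2 × R) ℂ :=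
  Matrix.of fun x y => ∑ a, ∑ b, K x.1 a * M (a, x.2) (b, y.2) * star (K y.1 b)

lemma kr_psd {R : Type} [Fintype R] [DecidableEq R] (K : Matrix (Fin 2) (Fin 2) ℂ)
    {M : Matrix (Fin 2 × R) (Fin 2 × R) ℂ} (hM : M.PosSemidef) : (kr K M).PosSemidef := by
  set X : Matrix (Fin 2 × R) (Fin 2 × R) ℂ :=
    Matrix.of fun x y => if x.2 = y.2 then K x.1 y.1 else 0 with hX
  have h : kr K M = X * M * Xᴴ := by
    ext ⟨i, r⟩ ⟨j, s⟩
    simp only [kr, hX, mul_apply, conjTranspose_apply, of_apply, Fintype.sum_prod_type]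
    have h1 : ∀ (b : Fin 2) (s' : R),
        (∑ a : Fin 2, ∑ r' : R, (if r = r' then K i a else 0) * M (a, r') (b, s')) =
          ∑ a : Fin 2, K i a * M (a, r) (b, s') := by
      intro b s'
      apply Finset.sum_congr rfl
      intro a _
      rw [Finset.sum_eq_single r]
      · simp
      · intro r' _ hr'
        rw [if_neg (Ne.symm hr')]; simp
      · intro h; exact absurd (mem_univ _) h
    simp only [h1]
    have h2 : ∀ b : Fin 2, (∑ s' : R, (∑ a : Fin 2, K i a * M (a, r) (b, s')) *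
        star (if s = s' then K j b else 0)) =
          (∑ a : Fin 2, K i a * M (a, r) (b, s)) * star (K j b) := by
      intro b
      rw [Finset.sum_eq_single s]
      · simp
      · intro s' _ hs'
        rw [if_neg (Ne.symm hs')]; simp
      · intro h; exact absurd (mem_univ _) h
    simp only [h2]
    rw [Finset.sum_comm]
    apply Finset.sum_congr rfl
    intro b _
    rw [Finset.sum_mul]
  rw [h]
  exact hM.mul_mul_conjTranspose_same X

end ChanAux

open ChanAux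

/-- G1. Kraus operators: `√(1-ν) diag(1,κ)`, `√(γ(1-ν)) |0><1|`, `√ν diag(κ,1)`, `√(γν) |1><0|`. -/
theorem diagChan_gadc (γ ν : ℝ) (hγ0 : 0 ≤ γ) (hγ1 : γ ≤ 1) (hν0 : 0 ≤ ν) (hν1 : ν ≤ 1) :
    DiagChan (gadc γ ν) (Wg γ ν) (Real.sqrt (1 - γ)) := by
  have hk : (((Real.sqrt (1 - γ) : ℝ) : ℂ)) ^ 2 = 1 - (γ : ℂ) := by
    have := Real.sq_sqrt (show 0 ≤ 1 - γ by linarith)
    exact_mod_cast congrArg (fun x : ℝ => (x : ℂ)) this
  have h1 : (((Real.sqrt (1 - ν) : ℝ) : ℂ)) ^ 2 = 1 - (ν : ℂ) := by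
    have := Real.sq_sqrt (show 0 ≤ 1 - ν by linarith)
    exact_mod_cast congrArg (fun x : ℝ => (x : ℂ)) this
  have h2 : (((Real.sqrt (γ * (1 - ν)) : ℝ) : ℂ)) ^ 2 = (γ : ℂ) * (1 - (ν : ℂ)) := by
    have := Real.sq_sqrt (show 0 ≤ γ * (1 - ν) from mul_nonneg hγ0 (by linarith))
    exact_mod_cast congrArg (fun x : ℝ => (x : ℂ)) this
  have h3 : (((Real.sqrt ν : ℝ) : ℂ)) ^ 2 = (ν : ℂ) := by
    have := Real.sq_sqrt hν0
    exact_mod_cast congrArg (fun x : ℝ => (x : ℂ)) this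
  have h4 : (((Real.sqrt (γ * ν) : ℝ) : ℂ)) ^ 2 = (γ : ℂ) * (ν : ℂ) := by
    have := Real.sq_sqrt (show 0 ≤ γ * ν from mul_nonneg hγ0 hν0)
    exact_mod_cast congrArg (fun x : ℝ => (x : ℂ)) this
  refine ⟨?_, ?_, ?_, ?_, ?_, ?_⟩
  · intro R _ _ M hM
    set κ : ℂ := ((Real.sqrt (1 - γ) : ℝ) : ℂ) with hκ
    set a1 : ℂ := ((Real.sqrt (1 - ν) : ℝ) : ℂ) with ha1
    set a2 : ℂ := ((Real.sqrt (γ * (1 - ν)) : ℝ) : ℂ) with ha2
    set a3 : ℂ := ((Real.sqrt ν : ℝ) : ℂ) with ha3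
    set a4 : ℂ := ((Real.sqrt (γ * ν) : ℝ) : ℂ) with ha4
    have sκ : star κ = κ := by rw [hκ]; exact Complex.conj_ofReal _
    have s1 : star a1 = a1 := by rw [ha1]; exact Complex.conj_ofReal _
    have s2 : star a2 = a2 := by rw [ha2]; exact Complex.conj_ofReal _
    have s3 : star a3 = a3 := by rw [ha3]; exact Complex.conj_ofReal _
    have s4 : star a4 = a4 := by rw [ha4]; exact Complex.conj_ofReal _
    have h : actL (gadc γ ν) M = kr !![a1, 0; 0, a1 * κ] M + kr !![0, a2; 0, 0] M +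
        kr !![a3 * κ, 0; 0, a3] M + kr !![0, 0; a4, 0] M := by
      ext ⟨i, r⟩ ⟨j, s⟩
      simp only [actL, kr, gadc, LinearMap.coe_mk, AddHom.coe_mk, Matrix.of_apply,
        Matrix.add_apply, Fin.sum_univ_two]
      fin_cases i <;> fin_cases j <;>
        simp [star_mul', sκ, s1, s2, s3, s4, ← hκ, -Complex.star_def, -RCLike.star_def]
      · linear_combination (-M (0, r) (0, s)) * h1 - (M (1, r) (1, s)) * h2 -
          (M (0, r) (0, s)) * (κ ^ 2 * h3 + ν * hk)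
      · linear_combination (-κ * M (0, r) (1, s)) * h1 - (κ * M (0, r) (1, s)) * h3
      · linear_combination (-κ * M (1, r) (0, s)) * h1 - (κ * M (1, r) (0, s)) * h3
      · linear_combination (-(M (1, r) (1, s))) * (κ ^ 2 * h1 + (1 - ν) * hk) -
          (M (1, r) (1, s)) * h3 - (M (0, r) (0, s)) * h4
    rw [h]
    exact (((kr_psd _ hM).add (kr_psd _ hM)).add (kr_psd _ hM)).add (kr_psd _ hM)
  · intro M b
    fin_cases b <;> simp [gadc, Wg, Fin.sum_univ_two] <;> ring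
  · intro M
    simp [gadc]
  · intro M
    simp [gadc]
  · intro b a
    fin_cases b <;> fin_cases a <;> simp [Wg]
    · nlinarith
    · exact mul_nonneg hγ0 (by linarith)
    · exact mul_nonneg hγ0 hν0
    · nlinarith
  · intro a
    fin_cases a <;> simp [Wg, Fin.sum_univ_two]

/-- G2. `𝒜_{γ,1}` is `𝒜_{γ,0}` conjugated by the swap of the two basis vectors. -/
theorem star_gadc_one (γ : ℝ) (hγ0 : 0 ≤ γ) (hγ1 : γ ≤ 1) (h : Star (gadc γ 0)) :
    Star (gadc γ 1) := by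
  intro R _ _ M hM
  set e : Fin 2 × R ≃ Fin 2 × R := (Equiv.swap (0 : Fin 2) 1).prodCongr (Equiv.refl R) with he
  set M' : Matrix (Fin 2 × R) (Fin 2 × R) ℂ := M.submatrix e e with hM'
  have hM'p : M'.PosSemidef := hM.submatrix e
  have key := h R M' hM'p
  have e0 : blk 0 M' = blk 1 M := by
    ext r s; simp [blk, hM', he]
  have e1 : blk 1 M' = blk 0 M := by
    ext r s; simp [blk, hM', he]
  have e2 : actL (gadc γ 1) M = (actL (gadc γ 0) M').submatrix e e := by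
    ext ⟨i, r⟩ ⟨j, s⟩
    fin_cases i <;> fin_cases j <;> simp [actL, gadc, hM', he] <;> ring
  have e3 : ∀ x y, FF (gadc γ 1) x y = FF (gadc γ 0) y x := by
    intro x y
    unfold FF
    have : gadc γ 1 (psi x y) = (gadc γ 0 (psi y x)).submatrix (Equiv.swap (0 : Fin 2) 1)
        (Equiv.swap (0 : Fin 2) 1) := by
      ext i j
      fin_cases i <;> fin_cases j <;> simp [gadc, psi, mul_comm x y] <;> ring
    rw [this, eta_submatrix_equiv]
  rw [e0, e1] at key
  rw [e2, eta_submatrix_equiv, e3]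
  linarith

end Vale.Agent.P358
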