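import Vale.Agent.P358.ADAlg
import Vale.Agent.P358.ADScalarA
import Vale.Agent.P358.ADScalarB
import Vale.Agent.P358.Chan

/-!
# The key entropy inequality for amplitude damping
-/

open Matrix Finset MeasureTheory Set
open scoped BigOperators ComplexOrder MatrixOrder

namespace Vale.Agent.P358

section
variable {R S : Type} [Fintype R] [DecidableEq R] [Fintype S] [DecidableEq S]

omit [DecidableEq S] in
lemma alpha_part {β ζ : ℝ} (hβ : 0 ≤ β) (hζ : 0 ≤ ζ) (x A : S → ℝ) (hx : ∀ i, 0 ≤ x i)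
    (hA0 : β = 0 → ∀ i, A i = 0) (hAx : ∀ i, x i = 0 → A i = 0) (hsum : 0 ≤ ∑ i, A i) :
    (∀ i, IntegrableOn (fun t => alphaF β ζ (x i) t * A i) (Ioi 0)) ∧
      0 ≤ ∑ i, ∫ t in Ioi (0 : ℝ), alphaF β ζ (x i) t * A i := by
  rcases hβ.eq_or_lt with h0 | hpos
  · have hA := hA0 h0.symm
    constructor
    · intro i; simp [hA i]
    · simp [hA]
  · constructor
    · intro i
      by_cases hi : x i = 0
      · simp [hAx i hi]
      · exact (alphaF_integrable hpos hζ (lt_of_le_of_ne (hx i) (Ne.symm hi))).mul_const _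
    · have h1 : ∀ i, ∫ t in Ioi (0 : ℝ), alphaF β ζ (x i) t * A i
          = (∫ t in Ioi (0 : ℝ), alphaF β ζ 1 t) * A i := by
        intro i
        by_cases hi : x i = 0
        · simp [hAx i hi]
        · rw [integral_mul_const, alphaF_integral hpos hζ (lt_of_le_of_ne (hx i) (Ne.symm hi))]
      rw [Finset.sum_congr rfl fun i _ => h1 i, ← Finset.mul_sum]
      exact mul_nonneg (alphaF_integral_nonneg hpos hζ) hsum

omit [DecidableEq S] in
lemma chi_part {β ζ : ℝ} (hβ : 0 ≤ β) (hζ : 0 ≤ ζ) (x A : S → ℝ) (hx : ∀ i, 0 ≤ x i)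
    (hA0 : ζ = 0 → ∀ i, A i = 0) (hAx : ∀ i, x i = 0 → A i = 0) (hsum : 0 ≤ ∑ i, A i) :
    (∀ i, IntegrableOn (fun t => chiF β ζ (x i) t * A i) (Ioi 0)) ∧
      0 ≤ ∑ i, ∫ t in Ioi (0 : ℝ), chiF β ζ (x i) t * A i := by
  rcases hζ.eq_or_lt with h0 | hpos
  · have hA := hA0 h0.symm
    constructor
    · intro i; simp [hA i]
    · simp [hA]
  · constructor
    · intro i
      by_cases hi : x i = 0
      · simp [hAx i hi]
      · exact (chiF_integrable hβ hpos (lt_of_le_of_ne (hx i) (Ne.symm hi))).mul_const _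
    · have h1 : ∀ i, ∫ t in Ioi (0 : ℝ), chiF β ζ (x i) t * A i
          = (∫ t in Ioi (0 : ℝ), chiF β ζ 1 t) * A i := by
        intro i
        by_cases hi : x i = 0
        · simp [hAx i hi]
        · rw [integral_mul_const, chiF_integral hβ hpos (lt_of_le_of_ne (hx i) (Ne.symm hi))]
      rw [Finset.sum_congr rfl fun i _ => h1 i, ← Finset.mul_sum]
      exact mul_nonneg (chiF_integral_nonneg hβ hpos) hsum

/-- The block matrix of the output. -/
noncomputable def outBlk (P Q : Matrix R S ℂ) (γ k κ : ℝ) : Matrix (R ⊕ R) (R ⊕ R) ℂ :=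
  Matrix.fromBlocks (P * Pᴴ + (γ : ℂ) • (Q * Qᴴ)) ((κ : ℂ) • (P * Qᴴ)) ((κ : ℂ) • (Q * Pᴴ))
    ((k : ℂ) • (Q * Qᴴ))

omit [Fintype R] [DecidableEq S] in
lemma outBlk_add (P Q : Matrix R S ℂ) (γ k κ t : ℝ) :
    (t : ℂ) • (1 : Matrix (R ⊕ R) (R ⊕ R) ℂ) + outBlk P Q γ k κ =
      Matrix.fromBlocks ((t : ℂ) • (1 : Matrix R R ℂ) + (P * Pᴴ + (γ : ℂ) • (Q * Qᴴ)))
        ((κ : ℂ) • (P * Qᴴ)) ((κ : ℂ) • (Q * Pᴴ))
        ((t : ℂ) • (1 : Matrix R R ℂ) + (k : ℂ) • (Q * Qᴴ)) := by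
  rw [outBlk, ← Matrix.fromBlocks_one, Matrix.fromBlocks_smul, Matrix.fromBlocks_add]
  simp

omit [DecidableEq R] in
lemma rtr_add (A B : Matrix R R ℂ) : rtr (A + B) = rtr A + rtr B := by
  unfold rtr; rw [Matrix.trace_add, Complex.add_re]

omit [DecidableEq R] in
lemma rtr_smul (c : ℝ) (A : Matrix R R ℂ) : rtr ((c : ℂ) • A) = c * rtr A := by
  unfold rtr; rw [Matrix.trace_smul, smul_eq_mul, Complex.re_ofReal_mul]

omit [DecidableEq R] [DecidableEq S] in
lemma rtr_outBlk (P Q : Matrix R S ℂ) (γ k κ : ℝ) (hk : γ + k = 1) :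
    rtr (outBlk P Q γ k κ) = rtr (P * Pᴴ) + rtr (Q * Qᴴ) := by
  have h1 : rtr (outBlk P Q γ k κ) = rtr (P * Pᴴ + (γ : ℂ) • (Q * Qᴴ)) + rtr ((k : ℂ) • (Q * Qᴴ)) := by
    unfold rtr outBlk
    simp [Matrix.trace, Fintype.sum_sum_type]
  rw [h1, rtr_add, rtr_smul, rtr_smul]
  have : k = 1 - γ := by linarith
  rw [this]; ring

/-- Main estimate: entropy of the output. -/
theorem eta_outBlk_ge (P Q : Matrix R S ℂ) (γ k κ : ℝ) (hγ : 0 ≤ γ) (hk : 0 ≤ k) (hγk : γ + k = 1)
    (hκ : κ * κ = k) (hT : (outBlk P Q γ k κ).PosSemidef)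
    (V : Matrix S S ℂ) (hV : V * Vᴴ = 1) (x : S → ℝ) (hx : ∀ i, 0 ≤ x i)
    (hP : Pᴴ * P = V * diagonal (fun i => (x i : ℂ)) * Vᴴ) :
    eta ((k : ℂ) • (Q * Qᴴ)) + eta ((γ : ℂ) • (Q * Qᴴ))
      + rtr (P * Pᴴ) * Lam (γ * rtr (Q * Qᴴ) / rtr (P * Pᴴ)) (k * rtr (Q * Qᴴ) / rtr (P * Pᴴ))
      + ∑ i, Real.negMulLog (x i) ≤ eta (outBlk P Q γ k κ) := by
  have hV' : Vᴴ * V = 1 := mul_eq_one_comm.mp hV
  have hVP : Vᴴ * (Pᴴ * P) * V = diagonal (fun i => (x i : ℂ)) := by
    rw [hP, ← Matrix.mul_assoc, ← Matrix.mul_assoc, hV', Matrix.one_mul, Matrix.mul_assoc, hV',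
      Matrix.mul_one]
  have hQQ : (Q * Qᴴ).PosSemidef := Matrix.posSemidef_self_mul_conjTranspose Q
  have hPP : (P * Pᴴ).PosSemidef := Matrix.posSemidef_self_mul_conjTranspose P
  set X := rtr (P * Pᴴ) with hX
  set Y := rtr (Q * Qᴴ) with hY
  have hX0 : 0 ≤ X := rtr_nonneg _ hPP
  have hY0 : 0 ≤ Y := rtr_nonneg _ hQQ
  have hsumx : ∑ i, x i = X := by
    have h1 : rtr (Vᴴ * (Pᴴ * P) * V) = X := by
      rw [rtr_conj _ _ hV, hX]
      unfold rtr
      rw [Matrix.trace_mul_comm]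
    rw [← h1, hVP, rtr_eq_sum]
    simp
  set β := γ * Y / X with hβdef
  set ζ := k * Y / X with hζdef
  have hβ : 0 ≤ β := by positivity
  have hζ : 0 ≤ ζ := by positivity
  -- coefficients
  set yy : S → ℝ := fun i => ((Vᴴ * (Pᴴ * (Q * Qᴴ) * P) * V) i i).re with hyy
  set qq : S → ℝ := fun i => ((Vᴴ * (Qᴴ * Q) * V) i i).re with hqq
  have hqq0 : ∀ i, 0 ≤ qq i := fun i =>
    diag_entry_nonneg _ ((Matrix.posSemidef_conjTranspose_mul_self Q).conjTranspose_mul_mul_same V) i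
  have hqqsum : ∑ i, qq i = Y := by
    have h1 : rtr (Vᴴ * (Qᴴ * Q) * V) = Y := by
      rw [rtr_conj _ _ hV, hY]
      unfold rtr
      rw [Matrix.trace_mul_comm]
    rw [← h1, rtr_eq_sum]
  have hyyx : ∀ i, x i = 0 → yy i = 0 := fun i hi => diag_entry_zero P (Q * Qᴴ) V x hVP i hi
  have hyysum : ∑ i, (if x i = 0 then 0 else yy i / x i) ≤ Y := sum_div_le P Q V x hx hVP
  have hQzero : Y = 0 → Q = 0 := by
    intro h
    have h1 : (Q * Qᴴ).trace = 0 := by
      have h2 : 0 ≤ (Q * Qᴴ).trace := hQQ.trace_nonneg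
      apply Complex.ext
      · exact h
      · exact (Complex.nonneg_iff.mp h2).2.symm
    exact Matrix.trace_mul_conjTranspose_self_eq_zero_iff.mp h1
  -- A and C coefficients
  set A : S → ℝ := fun i => if x i = 0 then 0 else β * x i - γ * (yy i / x i) with hA
  set C : S → ℝ := fun i => if x i = 0 then 0 else ζ * x i - k * qq i with hC
  have hXzero : X = 0 → ∀ i, x i = 0 := by
    intro h i
    have h1 : ∑ i, x i = 0 := by rw [hsumx, h]
    exact (Finset.sum_eq_zero_iff_of_nonneg fun i _ => hx i).mp h1 i (Finset.mem_univ i)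
  have hβX : β * X = if X = 0 then 0 else γ * Y := by
    by_cases h : X = 0
    · simp [h]
    · rw [if_neg h, hβdef]; field_simp
  have hζX : ζ * X = if X = 0 then 0 else k * Y := by
    by_cases h : X = 0
    · simp [h]
    · rw [if_neg h, hζdef]; field_simp
  have hAsum : 0 ≤ ∑ i, A i := by
    by_cases h : X = 0
    · have := hXzero h
      simp [hA, this]
    · have h1 : ∑ i, A i = β * X - γ * ∑ i, (if x i = 0 then 0 else yy i / x i) := by
        rw [← hsumx, Finset.mul_sum, Finset.mul_sum, ← Finset.sum_sub_distrib]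
        apply Finset.sum_congr rfl
        intro i _
        simp only [hA]
        by_cases hi : x i = 0 <;> simp [hi]
      rw [h1, hβX, if_neg h]
      have := mul_le_mul_of_nonneg_left hyysum hγ
      linarith
  have hCsum : 0 ≤ ∑ i, C i := by
    by_cases h : X = 0
    · have := hXzero h
      simp [hC, this]
    · have h1 : ∑ i, C i = ζ * X - k * ∑ i, (if x i = 0 then 0 else qq i) := by
        rw [← hsumx, Finset.mul_sum, Finset.mul_sum, ← Finset.sum_sub_distrib]
        apply Finset.sum_congr rfl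
        intro i _
        simp only [hC]
        by_cases hi : x i = 0 <;> simp [hi]
      rw [h1, hζX, if_neg h]
      have h2 : ∑ i, (if x i = 0 then 0 else qq i) ≤ Y := by
        rw [← hqqsum]
        apply Finset.sum_le_sum
        intro i _
        split_ifs
        · exact hqq0 i
        · exact le_refl _
      have := mul_le_mul_of_nonneg_left h2 hk
      linarith
  have hA0 : β = 0 → ∀ i, A i = 0 := by
    intro h i
    simp only [hA]
    by_cases hi : x i = 0
    · simp [hi]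
    · have hXne : X ≠ 0 := fun hX' => hi (hXzero hX' i)
      rw [if_neg hi, h, zero_mul, zero_sub, neg_eq_zero]
      have h1 : γ * Y = 0 := by
        have := hβX
        rw [h, zero_mul, if_neg hXne] at this
        exact this.symm
      rcases mul_eq_zero.mp h1 with h2 | h2
      · rw [h2, zero_mul]
      · have hQ := hQzero h2
        have : yy i = 0 := by simp [hyy, hQ]
        rw [this]; simp
  have hC0 : ζ = 0 → ∀ i, C i = 0 := by
    intro h i
    simp only [hC]
    by_cases hi : x i = 0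
    · simp [hi]
    · have hXne : X ≠ 0 := fun hX' => hi (hXzero hX' i)
      rw [if_neg hi, h, zero_mul, zero_sub, neg_eq_zero]
      have h1 : k * Y = 0 := by
        have := hζX
        rw [h, zero_mul, if_neg hXne] at this
        exact this.symm
      rcases mul_eq_zero.mp h1 with h2 | h2
      · rw [h2, zero_mul]
      · have hQ := hQzero h2
        have : qq i = 0 := by simp [hqq, hQ]
        rw [this]; simp
  obtain ⟨hαint, hαsum⟩ := alpha_part hβ hζ x A hx hA0 (fun i hi => by simp [hA, hi]) hAsum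
  obtain ⟨hχint, hχsum⟩ := chi_part hβ hζ x C hx hC0 (fun i hi => by simp [hC, hi]) hCsum
  -- integrals
  have hkQ : ((k : ℂ) • (Q * Qᴴ)).PosSemidef := hQQ.smul (Complex.zero_le_real.mpr hk)
  have hγQ : ((γ : ℂ) • (Q * Qᴴ)).PosSemidef := hQQ.smul (Complex.zero_le_real.mpr hγ)
  have I0 := eta_integrable _ hT
  have I1 := eta_integrable _ hkQ
  have I2 := eta_integrable _ hγQ
  have I3 : ∀ i, IntegrableOn (fun t : ℝ => Real.log (((t + ζ * x i) + t * x i / (t + β * x i))
      / (t + ζ * x i)) - x i * Real.log (1 + 1 / t)) (Ioi 0) := fun i =>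
    logF_integrable hβ hζ (hx i)
  set f0 : ℝ → ℝ := fun t => Real.log (((t : ℂ) • (1 : Matrix (R ⊕ R) (R ⊕ R) ℂ)
    + outBlk P Q γ k κ).det.re) - Fintype.card (R ⊕ R) * Real.log t
    - rtr (outBlk P Q γ k κ) * Real.log (1 + 1 / t) with hf0
  set f1 : ℝ → ℝ := fun t => Real.log (((t : ℂ) • (1 : Matrix R R ℂ)
    + (k : ℂ) • (Q * Qᴴ)).det.re) - Fintype.card R * Real.log t
    - rtr ((k : ℂ) • (Q * Qᴴ)) * Real.log (1 + 1 / t) with hf1
  set f2 : ℝ → ℝ := fun t => Real.log (((t : ℂ) • (1 : Matrix R R ℂ)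
    + (γ : ℂ) • (Q * Qᴴ)).det.re) - Fintype.card R * Real.log t
    - rtr ((γ : ℂ) • (Q * Qᴴ)) * Real.log (1 + 1 / t) with hf2
  set f3 : S → ℝ → ℝ := fun i t => Real.log (((t + ζ * x i) + t * x i / (t + β * x i))
      / (t + ζ * x i)) - x i * Real.log (1 + 1 / t) with hf3
  set f4 : S → ℝ → ℝ := fun i t => alphaF β ζ (x i) t * A i with hf4
  set f5 : S → ℝ → ℝ := fun i t => chiF β ζ (x i) t * C i with hf5
  have J3 : IntegrableOn (fun t => ∑ i, f3 i t) (Ioi 0) :=
    integrable_finsetSum _ fun i _ => I3 i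
  have J4 : IntegrableOn (fun t => ∑ i, f4 i t) (Ioi 0) :=
    integrable_finsetSum _ fun i _ => hαint i
  have J5 : IntegrableOn (fun t => ∑ i, f5 i t) (Ioi 0) :=
    integrable_finsetSum _ fun i _ => hχint i
  have hpt : ∀ t ∈ Ioi (0 : ℝ), (f1 t + f2 t) + (∑ i, f3 i t) + (∑ i, f4 i t) + (∑ i, f5 i t)
      ≤ f0 t := by
    intro t ht
    have ht' : 0 < t := ht
    have hmain := logdet_lower P Q t γ k κ ht' hγ hk hκ V hV x hx hP β ζ hβ hζ
    rw [← outBlk_add] at hmain
    have hcard : (Fintype.card (R ⊕ R) : ℝ) = Fintype.card R + Fintype.card R := by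
      rw [Fintype.card_sum]; push_cast; rfl
    have hterm : ∀ i, (Real.log (((t + ζ * x i) + t * x i / (t + β * x i)) / (t + ζ * x i))
        + t / ((t + β * x i) ^ 2 * ((t + ζ * x i) + t * x i / (t + β * x i)))
          * (β * x i ^ 2 - γ * yy i)
        + (1 / (t + ζ * x i) - 1 / ((t + ζ * x i) + t * x i / (t + β * x i)))
          * (ζ * x i - k * qq i)) = f3 i t + x i * Real.log (1 + 1 / t) + f4 i t + f5 i t := by
      intro i
      simp only [hf3, hf4, hf5]
      by_cases hi : x i = 0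
      · have hy := hyyx i hi
        simp [hi, hy, hA, hC]
      · have e1 : alphaF β ζ (x i) t * A i
            = t / ((t + β * x i) ^ 2 * ((t + ζ * x i) + t * x i / (t + β * x i)))
              * (β * x i ^ 2 - γ * yy i) := by
          simp only [alphaF, hA, if_neg hi]
          rw [mul_div_right_comm, mul_assoc]
          congr 1
          field_simp
        have e2 : chiF β ζ (x i) t * C i
            = (1 / (t + ζ * x i) - 1 / ((t + ζ * x i) + t * x i / (t + β * x i)))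
              * (ζ * x i - k * qq i) := by
          simp only [chiF, hC, if_neg hi]
        rw [e1, e2]
        ring
    rw [Finset.sum_congr rfl fun i _ => hterm i] at hmain
    rw [Finset.sum_add_distrib, Finset.sum_add_distrib, Finset.sum_add_distrib,
      ← Finset.sum_mul, hsumx] at hmain
    simp only [hf0, hf1, hf2]
    rw [rtr_outBlk P Q γ k κ hγk, rtr_smul, rtr_smul, hcard, ← hX, ← hY]
    have hk' : k = 1 - γ := by linarith
    have e3 : k * Y * Real.log (1 + 1 / t) + γ * Y * Real.log (1 + 1 / t)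
        = Y * Real.log (1 + 1 / t) := by rw [hk']; ring
    linarith
  have K2 : IntegrableOn (fun t => f1 t + f2 t) (Ioi 0) := I1.add I2
  have K3 : IntegrableOn (fun t => (f1 t + f2 t) + (∑ i, f3 i t)) (Ioi 0) := K2.add J3
  have K4 : IntegrableOn (fun t => (f1 t + f2 t) + (∑ i, f3 i t) + (∑ i, f4 i t)) (Ioi 0) :=
    K3.add J4
  have K5 : IntegrableOn (fun t => (f1 t + f2 t) + (∑ i, f3 i t) + (∑ i, f4 i t)
      + (∑ i, f5 i t)) (Ioi 0) := K4.add J5
  have hint := setIntegral_mono_on K5 I0 measurableSet_Ioi hpt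
  rw [eta_integral _ hT] at hint
  have hsplit : ∫ t in Ioi (0 : ℝ), ((f1 t + f2 t) + (∑ i, f3 i t) + (∑ i, f4 i t)
      + (∑ i, f5 i t)) = eta ((k : ℂ) • (Q * Qᴴ)) + eta ((γ : ℂ) • (Q * Qᴴ))
      + (X * Lam β ζ + ∑ i, Real.negMulLog (x i)) + (∑ i, ∫ t in Ioi (0 : ℝ), f4 i t)
      + (∑ i, ∫ t in Ioi (0 : ℝ), f5 i t) := by
    rw [integral_add K4 J5, integral_add K3 J4, integral_add K2 J3, integral_add I1 I2, eta_integral _ hkQ, eta_integral _ hγQ,
      integral_finsetSum _ (fun i _ => I3 i), integral_finsetSum _ (fun i _ => hαint i),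
      integral_finsetSum _ (fun i _ => hχint i)]
    congr 3
    rw [Finset.sum_congr rfl fun i _ => logF_integral hβ hζ (hx i), Finset.sum_add_distrib,
      ← Finset.sum_mul, hsumx]
  have hint' : ∫ t in Ioi (0 : ℝ), ((f1 t + f2 t) + (∑ i, f3 i t) + (∑ i, f4 i t)
      + (∑ i, f5 i t)) ≤ eta (outBlk P Q γ k κ) := hint
  rw [hsplit] at hint'
  linarith

end

/-- `R ⊕ R ≃ Fin 2 × R` -/
def sumEquiv (R : Type) : R ⊕ R ≃ Fin 2 × R where
  toFun := Sum.elim (fun r => (0, r)) (fun r => (1, r))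
  invFun := fun x => if x.1 = 0 then Sum.inl x.2 else Sum.inr x.2
  left_inv := by rintro (r | r) <;> simp
  right_inv := by
    rintro ⟨i, r⟩
    fin_cases i <;> simp

/-- The key entropy inequality for amplitude damping. -/
theorem star_gadc_zero (γ : ℝ) (hγ0 : 0 ≤ γ) (hγ1 : γ ≤ 1) : Star (gadc γ 0) := by
  intro R _ _ M hM
  obtain ⟨a, ha⟩ := CStarAlgebra.nonneg_iff_eq_star_mul_self.mp hM.nonneg
  set P : Matrix R (Fin 2 × R) ℂ := Matrix.of fun r s => aᴴ (0, r) s with hP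
  set Q : Matrix R (Fin 2 × R) ℂ := Matrix.of fun r s => aᴴ (1, r) s with hQ
  have hentry : ∀ u v, M u v = ∑ s, aᴴ u s * a s v := by
    intro u v
    rw [ha, Matrix.star_eq_conjTranspose, Matrix.mul_apply]
  have h00 : ∀ r r', M (0, r) (0, r') = (P * Pᴴ) r r' := by
    intro r r'
    rw [hentry, Matrix.mul_apply]
    apply Finset.sum_congr rfl
    intro s _
    simp [hP, Matrix.conjTranspose_apply]
  have h01 : ∀ r r', M (0, r) (1, r') = (P * Qᴴ) r r' := by
    intro r r'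
    rw [hentry, Matrix.mul_apply]
    apply Finset.sum_congr rfl
    intro s _
    simp [hP, hQ, Matrix.conjTranspose_apply]
  have h10 : ∀ r r', M (1, r) (0, r') = (Q * Pᴴ) r r' := by
    intro r r'
    rw [hentry, Matrix.mul_apply]
    apply Finset.sum_congr rfl
    intro s _
    simp [hP, hQ, Matrix.conjTranspose_apply]
  have h11 : ∀ r r', M (1, r) (1, r') = (Q * Qᴴ) r r' := by
    intro r r'
    rw [hentry, Matrix.mul_apply]
    apply Finset.sum_congr rfl
    intro s _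
    simp [hQ, Matrix.conjTranspose_apply]
  have hb0 : blk 0 M = P * Pᴴ := by
    ext r r'; exact h00 r r'
  have hb1 : blk 1 M = Q * Qᴴ := by
    ext r r'; exact h11 r r'
  have hout : (actL (gadc γ 0) M).submatrix (sumEquiv R) (sumEquiv R)
      = outBlk P Q γ (1 - γ) (Real.sqrt (1 - γ)) := by
    ext u v
    rcases u with r | r <;> rcases v with r' | r'
    · simp only [outBlk, sumEquiv, Matrix.submatrix_apply, Equiv.coe_fn_mk, Sum.elim_inl, actL,
        Matrix.of_apply, gadc, LinearMap.coe_mk, AddHom.coe_mk, Matrix.fromBlocks_apply₁₁,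
        Matrix.add_apply, Matrix.smul_apply, smul_eq_mul]
      simp [h00, h11]
      ring
    · simp only [outBlk, sumEquiv, Matrix.submatrix_apply, Equiv.coe_fn_mk, Sum.elim_inl,
        Sum.elim_inr, actL,
        Matrix.of_apply, gadc, LinearMap.coe_mk, AddHom.coe_mk, Matrix.fromBlocks_apply₁₂,
        Matrix.smul_apply, smul_eq_mul]
      simp [h01]
    · simp only [outBlk, sumEquiv, Matrix.submatrix_apply, Equiv.coe_fn_mk, Sum.elim_inl,
        Sum.elim_inr, actL,
        Matrix.of_apply, gadc, LinearMap.coe_mk, AddHom.coe_mk, Matrix.fromBlocks_apply₂₁,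
        Matrix.smul_apply, smul_eq_mul]
      simp [h10]
    · simp only [outBlk, sumEquiv, Matrix.submatrix_apply, Equiv.coe_fn_mk,
        Sum.elim_inr, actL,
        Matrix.of_apply, gadc, LinearMap.coe_mk, AddHom.coe_mk, Matrix.fromBlocks_apply₂₂,
        Matrix.smul_apply, smul_eq_mul]
      simp [h11]
  have hcp := (diagChan_gadc γ 0 hγ0 hγ1 le_rfl zero_le_one).cp R M hM
  have hT : (outBlk P Q γ (1 - γ) (Real.sqrt (1 - γ))).PosSemidef := by
    rw [← hout]; exact hcp.submatrix _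
  have heta : eta (actL (gadc γ 0) M) = eta (outBlk P Q γ (1 - γ) (Real.sqrt (1 - γ))) := by
    rw [← hout, eta_submatrix_equiv]
  have hPPpsd : (Pᴴ * P).PosSemidef := Matrix.posSemidef_conjTranspose_mul_self P
  obtain ⟨V, hV, hV2, hPx⟩ := exists_diagonalization (Pᴴ * P) hPPpsd.1
  set x : Fin 2 × R → ℝ := hPPpsd.1.eigenvalues with hx
  have hx0 : ∀ i, 0 ≤ x i := hPPpsd.eigenvalues_nonneg
  have hk0 : 0 ≤ 1 - γ := by linarith
  have hmain := eta_outBlk_ge P Q γ (1 - γ) (Real.sqrt (1 - γ)) hγ0 hk0 (by ring)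
    (Real.mul_self_sqrt hk0) hT V hV x hx0 hPx
  have hetaX : eta (P * Pᴴ) = ∑ i, Real.negMulLog (x i) := by
    rw [eta_mul_conjTranspose, eta_of_diagonalization _ V hV x hPx]
  have hQQ : (Q * Qᴴ).PosSemidef := Matrix.posSemidef_self_mul_conjTranspose Q
  have hPP : (P * Pᴴ).PosSemidef := Matrix.posSemidef_self_mul_conjTranspose P
  have hX0 : 0 ≤ rtr (P * Pᴴ) := rtr_nonneg _ hPP
  have hY0 : 0 ≤ rtr (Q * Qᴴ) := rtr_nonneg _ hQQ
  rw [hb0, hb1, heta, hetaX]
  rw [eta_smul _ _ hQQ.1, eta_smul _ _ hQQ.1] at hmain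
  have hFF : FF (gadc γ 0) (rtr (P * Pᴴ)) (rtr (Q * Qᴴ))
      = rtr (P * Pᴴ) * Lam (γ * rtr (Q * Qᴴ) / rtr (P * Pᴴ))
          ((1 - γ) * rtr (Q * Qᴴ) / rtr (P * Pᴴ)) + Real.negMulLog (rtr (P * Pᴴ))
        + Real.negMulLog (γ * rtr (Q * Qᴴ)) + Real.negMulLog ((1 - γ) * rtr (Q * Qᴴ)) := by
    rcases hX0.eq_or_lt with h0 | hpos
    · rw [← h0, FF_gadc_zero' hγ0 hγ1 hY0]
      simp
    · exact FF_gadc_zero hγ0 hγ1 hpos hY0
  rw [hFF, Real.negMulLog_mul, Real.negMulLog_mul]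
  nlinarith [hmain]

end Vale.Agent.P358
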