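import Vale.Agent.P358.Defs

/-!
# P358 : internal notions used in the proofs
-/

open Matrix Finset
open scoped BigOperators ComplexOrder

namespace Vale.Agent.P358

/-! ### Internal notions -/

/-- Unnormalized entropy with natural logarithm, `η(M) = -Tr M ln M`. -/
noncomputable def eta {α : Type} [Fintype α] [DecidableEq α] (M : Matrix α α ℂ) : ℝ :=
  if h : M.IsHermitian then ∑ i, Real.negMulLog (h.eigenvalues i) else 0

/-- real trace -/
noncomputable def rtr {α : Type} [Fintype α] (M : Matrix α α ℂ) : ℝ := (M.trace).re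

/-- The diagonal block of index `z` of a matrix on `Z × R`. -/
def blk {Z R : Type} (z : Z) (M : Matrix (Z × R) (Z × R) ℂ) : Matrix R R ℂ :=
  M.submatrix (fun r => (z, r)) (fun r => (z, r))

/-- `Φ ⊗ id_R`. -/
def actL {α β R : Type} (Φ : Matrix α α ℂ →ₗ[ℂ] Matrix β β ℂ)
    (M : Matrix (α × R) (α × R) ℂ) : Matrix (β × R) (β × R) ℂ :=
  Matrix.of fun x y => Φ (Matrix.of fun a a' => M (a, x.2) (a', y.2)) x.1 y.1

/-- The pure-state input `[[x, √(xy)], [√(xy), y]]`. -/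
noncomputable def psi (x y : ℝ) : Matrix (Fin 2) (Fin 2) ℂ :=
  !![(x : ℂ), ((Real.sqrt (x * y) : ℝ) : ℂ); ((Real.sqrt (x * y) : ℝ) : ℂ), (y : ℂ)]

/-- `F(x,y) = η(Φ(psi x y))`. -/
noncomputable def FF (Φ : Matrix (Fin 2) (Fin 2) ℂ →ₗ[ℂ] Matrix (Fin 2) (Fin 2) ℂ) (x y : ℝ) : ℝ :=
  eta (Φ (psi x y))

/-- The key entropy inequality. -/
def Star (Φ : Matrix (Fin 2) (Fin 2) ℂ →ₗ[ℂ] Matrix (Fin 2) (Fin 2) ℂ) : Prop :=
  ∀ (R : Type) [Fintype R] [DecidableEq R] (M : Matrix (Fin 2 × R) (Fin 2 × R) ℂ), M.PosSemidef →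
    eta (blk 0 M) + eta (blk 1 M) - Real.negMulLog (rtr (blk 0 M)) - Real.negMulLog (rtr (blk 1 M))
      + FF Φ (rtr (blk 0 M)) (rtr (blk 1 M)) ≤ eta (actL Φ M)

/-- correction term: `C_0 = 0`, `C_{n+1}(p) = C_n(p̄) + ∑_z [F(p(0z),p(1z)) - η(p(0z)) - η(p(1z))]`. -/
noncomputable def CC (F : ℝ → ℝ → ℝ) : (n : ℕ) → ((Fin n → Fin 2) → ℝ) → ℝ
  | 0, _ => 0
  | n + 1, p => CC F n (fun z => p (Fin.cons 0 z) + p (Fin.cons 1 z))
      + ∑ z : Fin n → Fin 2, (F (p (Fin.cons 0 z)) (p (Fin.cons 1 z))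
          - Real.negMulLog (p (Fin.cons 0 z)) - Real.negMulLog (p (Fin.cons 1 z)))

/-- The class of qubit channels used in the reduction: completely positive maps whose output
diagonal is a stochastic image `W` of the input diagonal and whose off-diagonal entries are
multiplied by the real number `κ`. -/
structure DiagChan (Φ : Matrix (Fin 2) (Fin 2) ℂ →ₗ[ℂ] Matrix (Fin 2) (Fin 2) ℂ)
    (W : Fin 2 → Fin 2 → ℝ) (κ : ℝ) : Prop where
  cp : ∀ (R : Type) [Fintype R] [DecidableEq R] (M : Matrix (Fin 2 × R) (Fin 2 × R) ℂ),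
    M.PosSemidef → (actL Φ M).PosSemidef
  diag : ∀ (M : Matrix (Fin 2) (Fin 2) ℂ) (b : Fin 2), Φ M b b = ∑ a, (W b a : ℂ) * M a a
  off01 : ∀ M : Matrix (Fin 2) (Fin 2) ℂ, Φ M 0 1 = (κ : ℂ) * M 0 1
  off10 : ∀ M : Matrix (Fin 2) (Fin 2) ℂ, Φ M 1 0 = (κ : ℂ) * M 1 0
  nonneg : ∀ b a, 0 ≤ W b a
  sum_one : ∀ a, ∑ b, W b a = 1

end Vale.Agent.P358
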