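import Vale.Agent.P358.Basic

/-!
# P358, piece D : the purely classical induction
-/

open Matrix Finset
open scoped BigOperators ComplexOrder

namespace Vale.Agent.P358

namespace ClassicalAux

theorem gibbs_term (p u v : ℝ) (hp : 0 ≤ p) (hu : 0 ≤ u) (hv : 0 ≤ v)
    (hpu : p ≤ u) (hpv : p ≤ v) :
    Real.negMulLog p ≤ -(p * Real.log u) - p * Real.log v + u * v - p := by
  rcases hp.eq_or_lt with rfl | hp'
  · simp [Real.negMulLog]
    positivity
  · have hu' : 0 < u := hp'.trans_le hpu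
    have hv' : 0 < v := hp'.trans_le hpv
    have h1 := Real.log_le_sub_one_of_pos (show 0 < u * v / p by positivity)
    rw [Real.log_div (by positivity) hp'.ne', Real.log_mul hu'.ne' hv'.ne'] at h1
    have h2 := mul_le_mul_of_nonneg_left h1 hp
    have h3 : p * (u * v / p - 1) = u * v - p := by
      field_simp
    rw [h3] at h2
    unfold Real.negMulLog
    nlinarith

theorem sum_fin_cons {M : Type*} [AddCommMonoid M] {n : ℕ} (f : (Fin (n + 1) → Fin 2) → M) :
    ∑ z : Fin (n + 1) → Fin 2, f z =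
      ∑ a : Fin 2, ∑ z : Fin n → Fin 2, f (Fin.cons a z) := by
  rw [← Fintype.sum_prod_type' (fun (a : Fin 2) (z : Fin n → Fin 2) => f (Fin.cons a z))]
  exact ((Fin.consEquiv (fun _ : Fin (n + 1) => Fin 2)).sum_comp f).symm

theorem sum_prod_W {n : ℕ} (W : Fin 2 → Fin 2 → ℝ) (hW1 : ∀ a, ∑ b, W b a = 1)
    (z : Fin n → Fin 2) : ∑ y : Fin n → Fin 2, ∏ m, W (y m) (z m) = 1 := by
  have h := Finset.prod_univ_sum (fun _ : Fin n => (Finset.univ : Finset (Fin 2)))
    (fun m c => W c (z m))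
  rw [Fintype.piFinset_univ] at h
  rw [← h]
  simp [hW1]

end ClassicalAux

open ClassicalAux

/-- D1 : classical subadditivity of entropy. -/
theorem entropy_subadd {α β : Type} [Fintype α] [Fintype β] (p : α → β → ℝ)
    (hp : ∀ a b, 0 ≤ p a b) (h1 : ∑ a, ∑ b, p a b = 1) :
    ∑ a, ∑ b, Real.negMulLog (p a b) ≤
      ∑ a, Real.negMulLog (∑ b, p a b) + ∑ b, Real.negMulLog (∑ a, p a b) := by
  set u : α → ℝ := fun a => ∑ b, p a b with hu
  set v : β → ℝ := fun b => ∑ a, p a b with hv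
  have hu0 : ∀ a, 0 ≤ u a := fun a => Finset.sum_nonneg fun b _ => hp a b
  have hv0 : ∀ b, 0 ≤ v b := fun b => Finset.sum_nonneg fun a _ => hp a b
  have hpu : ∀ a b, p a b ≤ u a := fun a b =>
    Finset.single_le_sum (f := fun b => p a b) (fun b _ => hp a b) (Finset.mem_univ b)
  have hpv : ∀ a b, p a b ≤ v b := fun a b =>
    Finset.single_le_sum (f := fun a => p a b) (fun a _ => hp a b) (Finset.mem_univ a)
  have hu1 : ∑ a, u a = 1 := h1
  have hv1 : ∑ b, v b = 1 := by rw [hv]; simp only []; rw [Finset.sum_comm]; exact h1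
  calc ∑ a, ∑ b, Real.negMulLog (p a b)
      ≤ ∑ a, ∑ b, (-(p a b * Real.log (u a)) - p a b * Real.log (v b) + u a * v b - p a b) :=
        Finset.sum_le_sum fun a _ => Finset.sum_le_sum fun b _ =>
          gibbs_term _ _ _ (hp a b) (hu0 a) (hv0 b) (hpu a b) (hpv a b)
    _ = ∑ a, ∑ b, -(p a b * Real.log (u a)) + ∑ a, ∑ b, -(p a b * Real.log (v b))
          + (∑ a, u a) * (∑ b, v b) - ∑ a, ∑ b, p a b := by
        rw [Finset.sum_mul_sum, ← Finset.sum_add_distrib, ← Finset.sum_add_distrib,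
          ← Finset.sum_sub_distrib]
        refine Finset.sum_congr rfl fun a _ => ?_
        rw [← Finset.sum_add_distrib, ← Finset.sum_add_distrib, ← Finset.sum_sub_distrib]
        refine Finset.sum_congr rfl fun b _ => ?_
        ring
    _ = ∑ a, Real.negMulLog (u a) + ∑ b, Real.negMulLog (v b) := by
        rw [hu1, hv1]
        have h3 : ∑ a, ∑ b, -(p a b * Real.log (u a)) = ∑ a, Real.negMulLog (u a) := by
          refine Finset.sum_congr rfl fun a _ => ?_
          rw [Finset.sum_neg_distrib, ← Finset.sum_mul, Real.negMulLog, neg_mul]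
        have h4 : ∑ a, ∑ b, -(p a b * Real.log (v b)) = ∑ b, Real.negMulLog (v b) := by
          rw [Finset.sum_comm]
          refine Finset.sum_congr rfl fun b _ => ?_
          rw [Finset.sum_neg_distrib, ← Finset.sum_mul, Real.negMulLog, neg_mul]
        rw [h3, h4]
        ring

/-- D2 : the `n`-letter upper bound from the single-letter bound. -/
theorem upper_classical (W : Fin 2 → Fin 2 → ℝ) (hW0 : ∀ b a, 0 ≤ W b a)
    (hW1 : ∀ a, ∑ b, W b a = 1) (F : ℝ → ℝ → ℝ) (χ : ℝ)
    (hSL : ∀ (ι : Type) [Fintype ι] (x y : ι → ℝ), (∀ b, 0 ≤ x b) → (∀ b, 0 ≤ y b) →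
      ∑ b, (x b + y b) = 1 →
      ∑ c, Real.negMulLog (W c 0 * ∑ b, x b + W c 1 * ∑ b, y b)
        - ∑ b, (F (x b) (y b) - Real.negMulLog (x b + y b)) ≤ χ)
    (n : ℕ) (ι : Type) [Fintype ι] (p : ι → (Fin n → Fin 2) → ℝ) (hp : ∀ a z, 0 ≤ p a z)
    (hp1 : ∑ a, ∑ z, p a z = 1) :
    ∑ y : Fin n → Fin 2, Real.negMulLog (∑ z, (∏ m, W (y m) (z m)) * ∑ a, p a z)
      - ∑ a, (∑ z, Real.negMulLog (p a z) + CC F n (p a) - Real.negMulLog (∑ z, p a z))
      ≤ n * χ := by
  induction n with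
  | zero =>
    have h0 : ∀ f : (Fin 0 → Fin 2) → ℝ, ∑ z, f z = f (fun i => i.elim0) := by
      intro f
      rw [Fintype.sum_unique]
      congr 1
    simp only [h0] at hp1
    simp only [h0, CC, Finset.univ_eq_empty, Finset.prod_empty, one_mul, hp1, add_zero, sub_self,
      Finset.sum_const_zero, Real.negMulLog_one, Nat.cast_zero, zero_mul, le_refl]
  | succ n ih =>
    set p' : ι → (Fin n → Fin 2) → ℝ := fun a z => p a (Fin.cons 0 z) + p a (Fin.cons 1 z)
      with hp'
    have hp'0 : ∀ a z, 0 ≤ p' a z := fun a z => add_nonneg (hp _ _) (hp _ _)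
    have hp'1 : ∀ a, ∑ z, p' a z = ∑ z, p a z := by
      intro a
      rw [sum_fin_cons, Fin.sum_univ_two, ← Finset.sum_add_distrib]
    have ih' := ih p' hp'0 (by simp_rw [hp'1]; exact hp1)
    have hsl := hSL (ι × (Fin n → Fin 2)) (fun b => p b.1 (Fin.cons 0 b.2))
      (fun b => p b.1 (Fin.cons 1 b.2)) (fun b => hp _ _) (fun b => hp _ _) (by
        rw [Fintype.sum_prod_type]
        show ∑ a, ∑ z, p' a z = 1
        simp_rw [hp'1]; exact hp1)
    -- output distribution
    set P : Fin 2 → (Fin n → Fin 2) → ℝ := fun c y =>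
      ∑ z : Fin (n + 1) → Fin 2, (∏ m, W ((Fin.cons c y : Fin (n + 1) → Fin 2) m) (z m)) *
        ∑ a, p a z with hP
    have hPe : ∀ c y, P c y = W c 0 * (∑ z : Fin n → Fin 2, (∏ m, W (y m) (z m)) *
          ∑ a, p a (Fin.cons 0 z)) + W c 1 * (∑ z : Fin n → Fin 2, (∏ m, W (y m) (z m)) *
          ∑ a, p a (Fin.cons 1 z)) := by
      intro c y
      simp only [hP]
      rw [sum_fin_cons, Fin.sum_univ_two, Finset.mul_sum, Finset.mul_sum]
      congr 1
      · refine Finset.sum_congr rfl fun z _ => ?_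
        rw [Fin.prod_univ_succ]
        simp only [Fin.cons_zero, Fin.cons_succ]
        ring
      · refine Finset.sum_congr rfl fun z _ => ?_
        rw [Fin.prod_univ_succ]
        simp only [Fin.cons_zero, Fin.cons_succ]
        ring
    have hP0 : ∀ c y, 0 ≤ P c y := by
      intro c y
      simp only [hP]
      refine Finset.sum_nonneg fun z _ => mul_nonneg (Finset.prod_nonneg fun m _ => hW0 _ _)
        (Finset.sum_nonneg fun a _ => hp _ _)
    -- marginals
    have hm1 : ∀ c, ∑ y, P c y = W c 0 * ∑ b : ι × (Fin n → Fin 2), p b.1 (Fin.cons 0 b.2) +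
        W c 1 * ∑ b : ι × (Fin n → Fin 2), p b.1 (Fin.cons 1 b.2) := by
      intro c
      have hk : ∀ f : (Fin n → Fin 2) → ℝ,
          ∑ y : Fin n → Fin 2, ∑ z : Fin n → Fin 2, (∏ m, W (y m) (z m)) * f z = ∑ z, f z := by
        intro f
        rw [Finset.sum_comm]
        refine Finset.sum_congr rfl fun z _ => ?_
        rw [← Finset.sum_mul, sum_prod_W W hW1, one_mul]
      simp_rw [hPe]
      rw [Finset.sum_add_distrib, ← Finset.mul_sum, ← Finset.mul_sum, hk, hk,
        Fintype.sum_prod_type_right, Fintype.sum_prod_type_right]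
    have hm2 : ∀ y, ∑ c, P c y = ∑ z : Fin n → Fin 2, (∏ m, W (y m) (z m)) * ∑ a, p' a z := by
      intro y
      simp_rw [hPe]
      rw [Finset.sum_add_distrib, ← Finset.sum_mul, ← Finset.sum_mul, hW1, hW1, one_mul, one_mul,
        ← Finset.sum_add_distrib]
      refine Finset.sum_congr rfl fun z _ => ?_
      rw [← mul_add, ← Finset.sum_add_distrib]
    have htot : ∑ c, ∑ y, P c y = 1 := by
      simp_rw [hm1]
      rw [Finset.sum_add_distrib, ← Finset.sum_mul, ← Finset.sum_mul, hW1, hW1, one_mul, one_mul,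
        ← Finset.sum_add_distrib, Fintype.sum_prod_type]
      show ∑ a, ∑ z, p' a z = 1
      simp_rw [hp'1]; exact hp1
    have hsub := entropy_subadd P hP0 htot
    have hout : ∑ y : Fin (n + 1) → Fin 2,
        Real.negMulLog (∑ z, (∏ m, W (y m) (z m)) * ∑ a, p a z) =
        ∑ c, ∑ y, Real.negMulLog (P c y) := by
      rw [sum_fin_cons]
    rw [hout]
    simp_rw [hm1, hm2] at hsub
    have hcc : ∑ a, (∑ z, Real.negMulLog (p a z) + CC F (n + 1) (p a) -
          Real.negMulLog (∑ z, p a z)) =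
        ∑ a, (∑ z, Real.negMulLog (p' a z) + CC F n (p' a) - Real.negMulLog (∑ z, p' a z)) +
        ∑ b : ι × (Fin n → Fin 2), (F (p b.1 (Fin.cons 0 b.2)) (p b.1 (Fin.cons 1 b.2)) -
          Real.negMulLog (p b.1 (Fin.cons 0 b.2) + p b.1 (Fin.cons 1 b.2))) := by
      rw [Fintype.sum_prod_type, ← Finset.sum_add_distrib]
      refine Finset.sum_congr rfl fun a _ => ?_
      rw [hp'1, sum_fin_cons, Fin.sum_univ_two]
      simp only [CC]
      have e1 : ∑ z : Fin n → Fin 2, (F (p a (Fin.cons 0 z)) (p a (Fin.cons 1 z)) -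
          Real.negMulLog (p a (Fin.cons 0 z)) - Real.negMulLog (p a (Fin.cons 1 z))) =
          ∑ z : Fin n → Fin 2, F (p a (Fin.cons 0 z)) (p a (Fin.cons 1 z)) -
          ∑ z : Fin n → Fin 2, Real.negMulLog (p a (Fin.cons 0 z)) -
          ∑ z : Fin n → Fin 2, Real.negMulLog (p a (Fin.cons 1 z)) := by
        rw [Finset.sum_sub_distrib, Finset.sum_sub_distrib]
      have e2 : ∑ z : Fin n → Fin 2, (F (p a (Fin.cons 0 z)) (p a (Fin.cons 1 z)) -
          Real.negMulLog (p a (Fin.cons 0 z) + p a (Fin.cons 1 z))) =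
          ∑ z : Fin n → Fin 2, F (p a (Fin.cons 0 z)) (p a (Fin.cons 1 z)) -
          ∑ z : Fin n → Fin 2, Real.negMulLog (p' a z) := by
        rw [Finset.sum_sub_distrib]
      rw [e1, e2]
      ring
    rw [hcc]
    push_cast
    linarith
end Vale.Agent.P358
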