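import Mathlib

/-!
# P358 : definitions

Density matrices, von Neumann entropy, the generalized amplitude-damping channel, tensor powers,
Holevo capacity and classical capacity.
-/

open Matrix Finset
open scoped BigOperators ComplexOrder

namespace Vale.Agent.P358

/-- A state (density matrix): a positive semidefinite complex matrix of trace one. -/
def IsState {α : Type} [Fintype α] (ρ : Matrix α α ℂ) : Prop :=
  ρ.PosSemidef ∧ ρ.trace = 1

/-- The von Neumann entropy `S(ρ) = -∑ λ log₂ λ` in bits, the sum over the eigenvalues of `ρ`. -/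
noncomputable def vonNeumann {α : Type} [Fintype α] [DecidableEq α] (ρ : Matrix α α ℂ) : ℝ :=
  if h : ρ.IsHermitian then (∑ i, Real.negMulLog (h.eigenvalues i)) / Real.log 2 else 0

/-- The generalized amplitude-damping channel `𝒜_{γ,ν}`, extended linearly to all matrices:
`[[a, b], [c, d]] ↦ [[(a+d) - t, √(1-γ) b], [√(1-γ) c, t]]` with `t = (1-γ) d + γ ν (a+d)`. -/
noncomputable def gadc (γ ν : ℝ) :
    Matrix (Fin 2) (Fin 2) ℂ →ₗ[ℂ] Matrix (Fin 2) (Fin 2) ℂ where
  toFun M := !![(M 0 0 + M 1 1) - ((1 - (γ : ℂ)) * M 1 1 + (γ : ℂ) * (ν : ℂ) * (M 0 0 + M 1 1)),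
                  ((Real.sqrt (1 - γ) : ℝ) : ℂ) * M 0 1;
                ((Real.sqrt (1 - γ) : ℝ) : ℂ) * M 1 0,
                  (1 - (γ : ℂ)) * M 1 1 + (γ : ℂ) * (ν : ℂ) * (M 0 0 + M 1 1)]
  map_add' M N := by
    ext i j
    fin_cases i <;> fin_cases j <;> simp <;> ring
  map_smul' c M := by
    ext i j
    fin_cases i <;> fin_cases j <;> simp <;> ring

/-- The `n`-fold tensor power `Φ^{⊗n}` of a linear map between matrix spaces, acting on matrices
whose rows and columns are indexed by words of length `n`. -/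
noncomputable def tensorPow {α β : Type} [Fintype α] [DecidableEq α]
    (Φ : Matrix α α ℂ →ₗ[ℂ] Matrix β β ℂ) (n : ℕ) :
    Matrix (Fin n → α) (Fin n → α) ℂ →ₗ[ℂ] Matrix (Fin n → β) (Fin n → β) ℂ where
  toFun M := Matrix.of fun i j =>
    ∑ k : Fin n → α, ∑ l : Fin n → α,
      (∏ m, Φ (Matrix.single (k m) (l m) 1) (i m) (j m)) * M k l
  map_add' M N := by
    ext i j
    simp [mul_add, Finset.sum_add_distrib]
  map_smul' c M := by
    ext i j
    simp only [Matrix.smul_apply, Matrix.of_apply, smul_eq_mul, RingHom.id_apply, Finset.mul_sum]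
    refine Finset.sum_congr rfl fun k _ => Finset.sum_congr rfl fun l _ => ?_
    ring

/-- The set of Holevo quantities `S(∑ q_a 𝒩(ρ_a)) - ∑ q_a S(𝒩(ρ_a))` over finite ensembles
`(q_a, ρ_a)` of input states. -/
def holevoSet {α β : Type} [Fintype α] [Fintype β] [DecidableEq β]
    (N : Matrix α α ℂ →ₗ[ℂ] Matrix β β ℂ) : Set ℝ :=
  {x | ∃ (m : ℕ) (q : Fin m → ℝ) (ρ : Fin m → Matrix α α ℂ),
    (∀ a, 0 ≤ q a) ∧ ∑ a, q a = 1 ∧ (∀ a, IsState (ρ a)) ∧
    x = vonNeumann (∑ a, (q a : ℂ) • N (ρ a)) - ∑ a, q a * vonNeumann (N (ρ a))}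

/-- The Holevo capacity `χ(𝒩)`. -/
noncomputable def holevo {α β : Type} [Fintype α] [Fintype β] [DecidableEq β]
    (N : Matrix α α ℂ →ₗ[ℂ] Matrix β β ℂ) : ℝ :=
  sSup (holevoSet N)

/-- The classical capacity `C(𝒩) = sup_{n ≥ 1} χ(𝒩^{⊗n}) / n`. -/
noncomputable def capacity {α β : Type} [Fintype α] [DecidableEq α] [Fintype β] [DecidableEq β]
    (N : Matrix α α ℂ →ₗ[ℂ] Matrix β β ℂ) : ℝ :=
  sSup {x : ℝ | ∃ n : ℕ, 1 ≤ n ∧ x = holevo (tensorPow N n) / n}

end Vale.Agent.P358
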