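import Vale.Agent.P358.Basic

/-!
# P358 : basic properties of `eta`
-/

open Matrix Finset
open scoped BigOperators ComplexOrder

namespace Vale.Agent.P358

section A
variable {α β : Type} [Fintype α] [DecidableEq α] [Fintype β] [DecidableEq β]

theorem vonNeumann_eq (M : Matrix α α ℂ) : vonNeumann M = eta M / Real.log 2 := by
  unfold vonNeumann eta
  split_ifs <;> simp

theorem rtr_eq_sum (M : Matrix α α ℂ) : rtr M = ∑ i, (M i i).re := by
  unfold rtr Matrix.trace
  simp [Matrix.diag]

theorem rtr_nonneg (M : Matrix α α ℂ) (hM : M.PosSemidef) : 0 ≤ rtr M := by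
  have h : 0 ≤ M.trace := hM.trace_nonneg
  exact (Complex.le_def.mp h).1

theorem eta_eq_sum_eigenvalues (M : Matrix α α ℂ) (hM : M.IsHermitian) :
    eta M = ∑ i, Real.negMulLog (hM.eigenvalues i) := by
  unfold eta
  rw [dif_pos hM]

/-- A1 -/
theorem eta_eq_sum_roots (M : Matrix α α ℂ) (hM : M.IsHermitian) :
    eta M = (M.charpoly.roots.map (fun z => Real.negMulLog z.re)).sum := by
  rw [eta_eq_sum_eigenvalues M hM, hM.roots_charpoly_eq_eigenvalues, Multiset.map_map]
  show (univ.val.map fun i => Real.negMulLog (hM.eigenvalues i)).sum = _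
  congr 1

/-- A2 -/
theorem eta_eq_of_charpoly_eq (M : Matrix α α ℂ) (N : Matrix β β ℂ) (hM : M.IsHermitian)
    (hN : N.IsHermitian) (h : M.charpoly = N.charpoly) : eta M = eta N := by
  rw [eta_eq_sum_roots M hM, eta_eq_sum_roots N hN, h]

/-- A3 (note: no hermitian hypothesis) -/
theorem eta_submatrix_equiv (e : β ≃ α) (M : Matrix α α ℂ) : eta (M.submatrix e e) = eta M := by
  by_cases hM : M.IsHermitian
  · have hN : (M.submatrix e e).IsHermitian := (isHermitian_submatrix_equiv e).mpr hM
    apply eta_eq_of_charpoly_eq _ _ hN hM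
    have := charpoly_reindex e.symm M
    simpa [Matrix.reindex_apply] using this
  · have hN : ¬ (M.submatrix e e).IsHermitian := fun h => hM ((isHermitian_submatrix_equiv e).mp h)
    unfold eta
    rw [dif_neg hM, dif_neg hN]

/-- A4 -/
theorem eta_of_diagonalization (M U : Matrix α α ℂ) (hU : U * Uᴴ = 1) (d : α → ℝ)
    (h : M = U * diagonal (fun i => (d i : ℂ)) * Uᴴ) : eta M = ∑ i, Real.negMulLog (d i) := by
  have hD : (diagonal (fun i => (d i : ℂ)) : Matrix α α ℂ).IsHermitian := by
    apply isHermitian_diagonal_of_self_adjoint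
    rw [isSelfAdjoint_iff]
    funext i
    simp
  have hM : M.IsHermitian := by
    rw [h]
    exact isHermitian_mul_mul_conjTranspose U hD
  have hU' : Uᴴ * U = 1 := mul_eq_one_comm.mp hU
  have hc : M.charpoly = (diagonal (fun i => (d i : ℂ)) : Matrix α α ℂ).charpoly := by
    rw [h, Matrix.charpoly_mul_comm, ← mul_assoc, hU', one_mul]
  rw [eta_eq_sum_roots M hM, hc, charpoly_diagonal, Polynomial.roots_prod]
  · simp only [Polynomial.roots_X_sub_C, Multiset.bind_singleton, Multiset.map_map]
    show _ = (univ.val.map fun i => Real.negMulLog (d i)).sum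
    congr 1
  · simp [Finset.prod_ne_zero_iff, Polynomial.X_sub_C_ne_zero]

/-- A5 -/
theorem eta_diagonal (d : α → ℝ) :
    eta (diagonal (fun i => (d i : ℂ)) : Matrix α α ℂ) = ∑ i, Real.negMulLog (d i) := by
  apply eta_of_diagonalization _ 1 (by simp) d
  simp

/-- A6 -/
theorem eta_conj (M U : Matrix α α ℂ) (hU : U * Uᴴ = 1) : eta (U * M * Uᴴ) = eta M := by
  have hU' : Uᴴ * U = 1 := mul_eq_one_comm.mp hU
  by_cases hM : M.IsHermitian
  · have hN : (U * M * Uᴴ).IsHermitian := isHermitian_mul_mul_conjTranspose U hM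
    apply eta_eq_of_charpoly_eq _ _ hN hM
    rw [Matrix.charpoly_mul_comm, ← mul_assoc, hU', one_mul]
  · have hN : ¬ (U * M * Uᴴ).IsHermitian := by
      intro h
      apply hM
      have h2 := isHermitian_mul_mul_conjTranspose Uᴴ h
      have e : Uᴴ * (U * M * Uᴴ) * Uᴴᴴ = M := by
        rw [conjTranspose_conjTranspose]
        calc Uᴴ * (U * M * Uᴴ) * U = (Uᴴ * U) * M * (Uᴴ * U) := by simp only [mul_assoc]
          _ = M := by rw [hU', one_mul, mul_one]
      rwa [e] at h2
    unfold eta
    rw [dif_neg hM, dif_neg hN]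

/-- spectral decomposition in matrix form -/
theorem exists_diagonalization (M : Matrix α α ℂ) (hM : M.IsHermitian) :
    ∃ U : Matrix α α ℂ, U * Uᴴ = 1 ∧ Uᴴ * U = 1 ∧
      M = U * diagonal (fun i => (hM.eigenvalues i : ℂ)) * Uᴴ := by
  refine ⟨hM.eigenvectorUnitary, ?_, ?_, ?_⟩
  · rw [← star_eq_conjTranspose]
    exact Unitary.coe_mul_star_self hM.eigenvectorUnitary
  · rw [← star_eq_conjTranspose]
    exact Unitary.coe_star_mul_self hM.eigenvectorUnitary
  · conv_lhs => rw [hM.spectral_theorem, Unitary.conjStarAlgAut_apply]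
    rfl

theorem rtr_eq_sum_eigenvalues (M : Matrix α α ℂ) (hM : M.IsHermitian) :
    rtr M = ∑ i, hM.eigenvalues i := by
  unfold rtr
  rw [hM.trace_eq_sum_eigenvalues]
  simp

/-- A7 -/
theorem eta_smul (c : ℝ) (M : Matrix α α ℂ) (hM : M.IsHermitian) :
    eta ((c : ℂ) • M) = c * eta M + Real.negMulLog c * rtr M := by
  obtain ⟨U, hU, _, h⟩ := exists_diagonalization M hM
  have h2 : (c : ℂ) • M = U * diagonal (fun i => ((c * hM.eigenvalues i : ℝ) : ℂ)) * Uᴴ := by
    have e : diagonal (fun i => ((c * hM.eigenvalues i : ℝ) : ℂ)) =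
        (c : ℂ) • diagonal (fun i => (hM.eigenvalues i : ℂ)) := by
      rw [← diagonal_smul]
      congr 1
      funext i
      simp
    rw [e, Matrix.mul_smul, Matrix.smul_mul, ← h]
  rw [eta_of_diagonalization _ U hU _ h2, eta_eq_sum_eigenvalues M hM,
    rtr_eq_sum_eigenvalues M hM, Finset.mul_sum, Finset.mul_sum, ← Finset.sum_add_distrib]
  apply Finset.sum_congr rfl
  intro i _
  rw [Real.negMulLog_mul]
  ring

/-- A8 -/
theorem eta_zero : eta (0 : Matrix α α ℂ) = 0 := by
  have := eta_diagonal (α := α) (fun _ => (0:ℝ))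
  simpa using this

/-- A9 -/
theorem eta_unique [Unique α] (M : Matrix α α ℂ) (hM : M.IsHermitian) :
    eta M = Real.negMulLog (M default default).re := by
  have h : M = diagonal (fun i => (((M i i).re : ℝ) : ℂ)) := by
    ext i j
    rw [Subsingleton.elim j i, diagonal_apply_eq]
    exact (hM.coe_re_apply_self i).symm
  have h2 := eta_diagonal (α := α) (fun i => (M i i).re)
  rw [← h] at h2
  rw [h2]
  simp

end A

end Vale.Agent.P358
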