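import Vale.Agent.P358.Defs

/-!
# P358: the scalar function in the capacity formula
-/

open Matrix Finset Set
open scoped BigOperators ComplexOrder

namespace Vale.Agent.P358

/-- The binary entropy in bits. -/
noncomputable def h2 (p : ℝ) : ℝ := Real.binEntropy p / Real.log 2

/-- The scalar function whose maximum over `q ∈ [0,1]` is the capacity:
`h₂((1-γ)q + γν) - h₂((1 + √(1 - 4γ((1-γ)(q-ν)² + ν(1-ν))))/2)`. -/
noncomputable def capFun (γ ν q : ℝ) : ℝ :=
  h2 ((1 - γ) * q + γ * ν)
    - h2 ((1 + Real.sqrt (1 - 4 * γ * ((1 - γ) * (q - ν) ^ 2 + ν * (1 - ν)))) / 2)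

end Vale.Agent.P358
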