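import Vale.Agent.P358.GDefs

/-!
# P358, piece N1: concavity of `gf4`, `gf3` and tangent lines
-/

open Matrix Finset MeasureTheory Set
open scoped BigOperators ComplexOrder MatrixOrder

namespace Vale.Agent.P358

namespace GConc

noncomputable def cn (x y c s : ℝ) : ℝ := 1 + y * s + x * s / (1 + c * s)

noncomputable def cn1 (x y c s : ℝ) : ℝ := y + x / (1 + c * s) ^ 2

noncomputable def cn2 (x c s : ℝ) : ℝ := -(2 * c * x) / (1 + c * s) ^ 3

theorem cn_hasDerivAt {x y c s : ℝ} (h : 1 + c * s ≠ 0) :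
    HasDerivAt (cn x y c) (cn1 x y c s) s := by
  have h1 : HasDerivAt (fun s : ℝ => y * s) y s := by
    simpa using (hasDerivAt_id s).const_mul y
  have h2 : HasDerivAt (fun s : ℝ => 1 + c * s) c s := by
    simpa using ((hasDerivAt_id s).const_mul c).const_add 1
  have h3 : HasDerivAt (fun s : ℝ => x * s) x s := by
    simpa using (hasDerivAt_id s).const_mul x
  have h4 := (h1.const_add 1).add (h3.div h2 h)
  have h5 : HasDerivAt (cn x y c) (y + (x * (1 + c * s) - x * s * c) / (1 + c * s) ^ 2) s := by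
    exact h4
  convert h5 using 1
  unfold cn1
  congr 1
  congr 1
  ring

theorem cn1_hasDerivAt {x y c s : ℝ} (h : 1 + c * s ≠ 0) :
    HasDerivAt (cn1 x y c) (cn2 x c s) s := by
  have h2 : HasDerivAt (fun s : ℝ => 1 + c * s) c s := by
    simpa using ((hasDerivAt_id s).const_mul c).const_add 1
  have h3 : HasDerivAt (fun s : ℝ => (1 + c * s) ^ 2) (((2 : ℕ) : ℝ) * (1 + c * s) ^ (2 - 1) * c) s :=
    h2.fun_pow 2
  have h4 := ((hasDerivAt_const s x).div h3 (pow_ne_zero 2 h)).const_add y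
  have h5 : HasDerivAt (cn1 x y c) ((0 * ((1 + c * s) ^ 2)
      - x * (((2 : ℕ) : ℝ) * (1 + c * s) ^ (2 - 1) * c)) / ((1 + c * s) ^ 2) ^ 2) s := h4
  refine h5.congr_deriv ?_
  unfold cn2
  norm_num
  field_simp

theorem cn_one_le {x y c s : ℝ} (hx : 0 ≤ x) (hy : 0 ≤ y) (hc : 0 ≤ c) (hs : 0 ≤ s) :
    1 ≤ cn x y c s := by
  unfold cn
  have : 0 ≤ y * s := mul_nonneg hy hs
  have : 0 ≤ x * s / (1 + c * s) := by positivity
  linarith

/-- key inequality -/
theorem key {x y c s : ℝ} (hx : 0 ≤ x) (hy : 0 ≤ y) (hc : 0 ≤ c) (hs : 0 ≤ s) :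
    s * cn1 x y c s ^ 2 ≤ (cn x y c s - 1) * (cn1 x y c s + s * cn2 x c s / 2) := by
  have hpos : 0 < 1 + c * s := by positivity
  set l : ℝ := 1 / (1 + c * s) with hl
  have hl0 : 0 < l := by positivity
  have hcl : c * s * l = 1 - l := by
    rw [hl]; field_simp; ring
  have e1 : cn1 x y c s = y + x * l ^ 2 := by
    unfold cn1; rw [hl]; field_simp
  have e2 : cn1 x y c s + s * cn2 x c s / 2 = y + x * l ^ 3 := by
    have : s * cn2 x c s / 2 = - (c * s * l) * x * l ^ 2 := by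
      unfold cn2; rw [hl]; field_simp
    rw [this, e1, hcl]; ring
  have e3 : cn x y c s - 1 = s * (y + x * l) := by
    unfold cn; rw [hl]; field_simp; ring
  rw [e2, e3, e1]
  have : (y + x * l ^ 2) ^ 2 ≤ (y + x * l) * (y + x * l ^ 3) := by
    have h : 0 ≤ y * x * l * (1 - l) ^ 2 := by positivity
    nlinarith [h]
  calc s * (y + x * l ^ 2) ^ 2 ≤ s * ((y + x * l) * (y + x * l ^ 3)) :=
        mul_le_mul_of_nonneg_left this hs
    _ = _ := by ring

theorem kappa_nonneg {x y c s : ℝ} (hx : 0 ≤ x) (hy : 0 ≤ y) (hc : 0 ≤ c) (hs : 0 ≤ s) :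
    0 ≤ cn1 x y c s + s * cn2 x c s / 2 := by
  have hpos : 0 < 1 + c * s := by positivity
  have e2 : cn1 x y c s + s * cn2 x c s / 2 = y + x / (1 + c * s) ^ 3 := by
    unfold cn1 cn2; field_simp; ring
  rw [e2]; positivity

theorem sqrt_hasDerivAt {x y c s : ℝ} (hx : 0 ≤ x) (hy : 0 ≤ y) (hc : 0 ≤ c) (hs : 0 ≤ s) :
    HasDerivAt (fun s => Real.sqrt (cn x y c s))
      (cn1 x y c s / (2 * Real.sqrt (cn x y c s))) s := by
  have h1 := cn_one_le hx hy hc hs
  have hpos : (1 + c * s) ≠ 0 := by positivity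
  exact (cn_hasDerivAt hpos).sqrt (by linarith)

theorem core_concave {x y c : ℝ} (hx : 0 ≤ x) (hy : 0 ≤ y) (hc : 0 ≤ c) (φ φ1 φ2 : ℝ → ℝ)
    (h1 : ∀ N, 0 < N → HasDerivAt φ (φ1 N) N) (h2 : ∀ N, 0 < N → HasDerivAt φ1 (φ2 N) N)
    (hpos : ∀ N, 1 ≤ N → 0 ≤ N * φ2 N - φ1 N)
    (hkey : ∀ N, 1 ≤ N → (N ^ 2 - 1) * (N * φ2 N - φ1 N) ≤ -4 * N ^ 2 * φ1 N) :
    ConcaveOn ℝ (Ici 0) (fun s => s * φ (Real.sqrt (cn x y c s))) := by
  have hN : ∀ s, 0 ≤ s → 1 ≤ Real.sqrt (cn x y c s) := fun s hs => by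
    rw [Real.one_le_sqrt]; exact cn_one_le hx hy hc hs
  have hd : ∀ s, 0 ≤ s → HasDerivAt (fun s => s * φ (Real.sqrt (cn x y c s)))
      (φ (Real.sqrt (cn x y c s)) + s * (φ1 (Real.sqrt (cn x y c s)) *
        (cn1 x y c s / (2 * Real.sqrt (cn x y c s))))) s := by
    intro s hs
    have a := sqrt_hasDerivAt hx hy hc hs
    have b := (h1 _ (lt_of_lt_of_le one_pos (hN s hs))).comp s a
    have d := (hasDerivAt_id s).mul b
    exact d.congr_deriv (by simp)
  refine concaveOn_of_hasDerivWithinAt2_nonpos (convex_Ici 0) (f' := fun s =>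
      φ (Real.sqrt (cn x y c s)) + s * (φ1 (Real.sqrt (cn x y c s)) *
        (cn1 x y c s / (2 * Real.sqrt (cn x y c s)))))
    (f'' := fun s => φ1 (Real.sqrt (cn x y c s)) * (cn1 x y c s / (2 * Real.sqrt (cn x y c s)))
      + (1 * (φ1 (Real.sqrt (cn x y c s)) * (cn1 x y c s / (2 * Real.sqrt (cn x y c s))))
      + s * (φ2 (Real.sqrt (cn x y c s)) * (cn1 x y c s / (2 * Real.sqrt (cn x y c s)))
          * (cn1 x y c s / (2 * Real.sqrt (cn x y c s)))
        + φ1 (Real.sqrt (cn x y c s)) *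
          ((cn2 x c s * (2 * Real.sqrt (cn x y c s))
            - cn1 x y c s * (2 * (cn1 x y c s / (2 * Real.sqrt (cn x y c s)))))
            / (2 * Real.sqrt (cn x y c s)) ^ 2)))) ?_ ?_ ?_ ?_
  · intro s hs
    exact (hd s hs).continuousAt.continuousWithinAt
  · intro s hs
    rw [interior_Ici] at hs
    exact (hd s (le_of_lt hs)).hasDerivWithinAt
  · intro s hs
    rw [interior_Ici] at hs
    have hs0 : (0 : ℝ) ≤ s := le_of_lt hs
    have a := sqrt_hasDerivAt hx hy hc hs0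
    have hNpos := lt_of_lt_of_le one_pos (hN s hs0)
    have b := (h1 _ hNpos).comp s a
    have b1 := (h2 _ hNpos).comp s a
    have hne : (1 + c * s) ≠ 0 := by positivity
    have d := cn1_hasDerivAt (x := x) (y := y) hne
    have a2 : HasDerivAt (fun s => 2 * Real.sqrt (cn x y c s))
        (2 * (cn1 x y c s / (2 * Real.sqrt (cn x y c s)))) s := a.const_mul 2
    have e := d.div a2 (by positivity)
    have f := b1.mul e
    have g := (hasDerivAt_id s).mul f
    have b1' := b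
    have h := b1'.add g
    exact HasDerivAt.hasDerivWithinAt h
  · intro s hs
    rw [interior_Ici] at hs
    have hs0 : (0 : ℝ) ≤ s := le_of_lt hs
    have hNN := hN s hs0
    have hsq : Real.sqrt (cn x y c s) ^ 2 = cn x y c s :=
      Real.sq_sqrt (by linarith [cn_one_le (c := c) hx hy hc hs0])
    have k1 := key (c := c) hx hy hc hs0
    have k2 := kappa_nonneg (c := c) hx hy hc hs0
    set N := Real.sqrt (cn x y c s) with hNdef
    set n1 := cn1 x y c s with hn1
    set n2 := cn2 x c s with hn2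
    have hN0 : 0 < N := lt_of_lt_of_le one_pos hNN
    have p1 := hpos N hNN
    have p2 := hkey N hNN
    have expand : φ1 N * (n1 / (2 * N)) + (1 * (φ1 N * (n1 / (2 * N)))
      + s * (φ2 N * (n1 / (2 * N)) * (n1 / (2 * N)) + φ1 N *
          ((n2 * (2 * N) - n1 * (2 * (n1 / (2 * N)))) / (2 * N) ^ 2)))
        = (4 * N ^ 2 * φ1 N * (n1 + s * n2 / 2) + s * n1 ^ 2 * (N * φ2 N - φ1 N))
          / (4 * N ^ 3) := by
      field_simp
      ring
    rw [expand]
    apply div_nonpos_of_nonpos_of_nonneg _ (by positivity)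
    rw [← hsq] at k1
    have q1 : s * n1 ^ 2 * (N * φ2 N - φ1 N) ≤
        ((N ^ 2 - 1) * (n1 + s * n2 / 2)) * (N * φ2 N - φ1 N) :=
      mul_le_mul_of_nonneg_right k1 p1
    have q2 : ((N ^ 2 - 1) * (N * φ2 N - φ1 N)) * (n1 + s * n2 / 2) ≤
        (-4 * N ^ 2 * φ1 N) * (n1 + s * n2 / 2) := mul_le_mul_of_nonneg_right p2 k2
    nlinarith [q1, q2]

theorem F4_concave {x y c : ℝ} (hx : 0 ≤ x) (hy : 0 ≤ y) (hc : 0 ≤ c) :
    ConcaveOn ℝ (Ici 0) (fun s => y * s / (Real.sqrt (cn x y c s) + 1)) := by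
  have h := core_concave hx hy hc (fun N => 1 / (N + 1)) (fun N => -1 / (N + 1) ^ 2)
    (fun N => 2 / (N + 1) ^ 3) ?_ ?_ ?_ ?_
  · have h' := h.smul hy
    refine h'.congr ?_
    intro s _
    simp only [smul_eq_mul]
    ring
  · intro N hN
    have a : HasDerivAt (fun N : ℝ => N + 1) 1 N := (hasDerivAt_id N).add_const 1
    have b := (hasDerivAt_const N (1 : ℝ)).div a (by positivity)
    exact b.congr_deriv (by ring)
  · intro N hN
    have a : HasDerivAt (fun N : ℝ => N + 1) 1 N := (hasDerivAt_id N).add_const 1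
    have b := (hasDerivAt_const N (-1 : ℝ)).div (a.fun_pow 2) (by positivity)
    refine b.congr_deriv ?_
    norm_num
    field_simp
  · intro N hN
    have hN0 : 0 < N := by linarith
    have : N * (2 / (N + 1) ^ 3) - -1 / (N + 1) ^ 2 = (3 * N + 1) / (N + 1) ^ 3 := by
      field_simp
      ring
    rw [this]
    positivity
  · intro N hN
    have hN0 : 0 < N := by linarith
    have e1 : N * (2 / (N + 1) ^ 3) - -1 / (N + 1) ^ 2 = (3 * N + 1) / (N + 1) ^ 3 := by
      field_simp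
      ring
    rw [e1]
    have e2 : -4 * N ^ 2 * (-1 / (N + 1) ^ 2) - (N ^ 2 - 1) * ((3 * N + 1) / (N + 1) ^ 3)
        = (N + 1) ^ 2 / (N + 1) ^ 2 := by
      field_simp
      ring
    have e3 : 0 ≤ (N + 1) ^ 2 / (N + 1) ^ 2 := by positivity
    linarith

theorem F3_concave {x y c : ℝ} (hx : 0 ≤ x) (hy : 0 ≤ y) (hc : 0 ≤ c) :
    ConcaveOn ℝ (Ici 0) (fun s => y * s /
      (Real.sqrt (cn x y c s) * (Real.sqrt (cn x y c s) + 1))) := by
  have h := core_concave hx hy hc (fun N => 1 / (N * (N + 1)))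
    (fun N => -(2 * N + 1) / (N * (N + 1)) ^ 2)
    (fun N => 2 * (3 * N ^ 2 + 3 * N + 1) / (N * (N + 1)) ^ 3) ?_ ?_ ?_ ?_
  · have h' := h.smul hy
    refine h'.congr ?_
    intro s _
    simp only [smul_eq_mul]
    ring
  · intro N hN
    have a : HasDerivAt (fun N : ℝ => N * (N + 1)) (1 * (N + 1) + N * 1) N :=
      (hasDerivAt_id N).mul ((hasDerivAt_id N).add_const 1)
    have b := (hasDerivAt_const N (1 : ℝ)).div a (by positivity)
    exact b.congr_deriv (by ring)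
  · intro N hN
    have a : HasDerivAt (fun N : ℝ => N * (N + 1)) (1 * (N + 1) + N * 1) N :=
      (hasDerivAt_id N).mul ((hasDerivAt_id N).add_const 1)
    have a2 : HasDerivAt (fun N : ℝ => -(2 * N + 1)) (-2) N := by
      have h0 : HasDerivAt (fun N : ℝ => -(2 * N + 1)) (-(2 * 1)) N :=
        (((hasDerivAt_id N).const_mul 2).add_const 1).neg
      exact h0.congr_deriv (by norm_num)
    have b := a2.div (a.fun_pow 2) (by positivity)
    refine b.congr_deriv ?_
    norm_num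
    field_simp
    ring
  · intro N hN
    have hN0 : 0 < N := by linarith
    have : N * (2 * (3 * N ^ 2 + 3 * N + 1) / (N * (N + 1)) ^ 3)
        - -(2 * N + 1) / (N * (N + 1)) ^ 2 = (8 * N ^ 2 + 9 * N + 3) / (N ^ 2 * (N + 1) ^ 3) := by
      field_simp
      ring
    rw [this]
    positivity
  · intro N hN
    have hN0 : 0 < N := by linarith
    have e1 : N * (2 * (3 * N ^ 2 + 3 * N + 1) / (N * (N + 1)) ^ 3)
        - -(2 * N + 1) / (N * (N + 1)) ^ 2 = (8 * N ^ 2 + 9 * N + 3) / (N ^ 2 * (N + 1) ^ 3) := by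
      field_simp
      ring
    rw [e1]
    have e2 : -4 * N ^ 2 * (-(2 * N + 1) / (N * (N + 1)) ^ 2)
        - (N ^ 2 - 1) * ((8 * N ^ 2 + 9 * N + 3) / (N ^ 2 * (N + 1) ^ 3))
        = 3 * (N + 1) ^ 2 / (N ^ 2 * (N + 1) ^ 2) := by
      field_simp
      ring
    have e3 : 0 ≤ 3 * (N + 1) ^ 2 / (N ^ 2 * (N + 1) ^ 2) := by positivity
    linarith

theorem monotone_of_nonneg {f : ℝ → ℝ} (hf : ConcaveOn ℝ (Ici 0) f)
    (h0 : ∀ r, 0 ≤ r → 0 ≤ f r) : MonotoneOn f (Ici 0) := by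
  intro a ha b hb hab
  by_contra hlt
  push Not at hlt
  have hab' : a < b := lt_of_le_of_ne hab (fun h => by rw [h] at hlt; exact lt_irrefl _ hlt)
  have ha' : (0 : ℝ) ≤ a := ha
  have hd : 0 < f a - f b := by linarith
  -- take `z` far on the right
  set z : ℝ := b + (b - a) * (f b + 1) / (f a - f b) with hz
  have hfb := h0 b (le_trans ha' hab)
  have hbz : b < z := by
    have : 0 < (b - a) * (f b + 1) / (f a - f b) := by
      have : 0 < b - a := by linarith
      positivity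
    linarith
  have hz0 : (0 : ℝ) ≤ z := by linarith [le_trans ha' hab]
  have hs := hf.slope_anti_adjacent ha hz0 hab' hbz
  have hfz := h0 z hz0
  have h1 : (f z - f b) / (z - b) ≤ (f b - f a) / (b - a) := hs
  have hzb : z - b = (b - a) * (f b + 1) / (f a - f b) := by rw [hz]; ring
  have hba : 0 < b - a := by linarith
  have hzb0 : 0 < z - b := by linarith
  rw [div_le_iff₀ hzb0] at h1
  have h2 : (f b - f a) / (b - a) * (z - b) = -(f b + 1) := by
    rw [hzb]
    field_simp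
    ring
  rw [h2] at h1
  linarith

theorem rho_concave {C : ℝ} (hC : 0 ≤ C) : ConcaveOn ℝ (Ici 0) (fun r : ℝ => r / (1 + C * r)) := by
  refine concaveOn_of_hasDerivWithinAt2_nonpos (convex_Ici 0) (f' := fun r => 1 / (1 + C * r) ^ 2)
    (f'' := fun r => -(2 * C) / (1 + C * r) ^ 3) ?_ ?_ ?_ ?_
  · intro r hr
    have hr0 : (0 : ℝ) ≤ r := hr
    have hpos : (1 + C * r) ≠ 0 := by positivity
    apply ContinuousAt.continuousWithinAt
    exact ContinuousAt.div continuousAt_id (by fun_prop) hpos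
  · intro r hr
    rw [interior_Ici] at hr
    have hr0 : (0 : ℝ) ≤ r := le_of_lt hr
    have hpos : (1 + C * r) ≠ 0 := by positivity
    have a : HasDerivAt (fun s : ℝ => 1 + C * s) C r := by
      simpa using ((hasDerivAt_id r).const_mul C).const_add 1
    have b := (hasDerivAt_id r).div a hpos
    have c : HasDerivAt (fun r : ℝ => r / (1 + C * r)) (1 / (1 + C * r) ^ 2) r := by
      refine b.congr_deriv ?_
      simp only [id]
      ring
    exact c.hasDerivWithinAt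
  · intro r hr
    rw [interior_Ici] at hr
    have hr0 : (0 : ℝ) ≤ r := le_of_lt hr
    have hpos : (1 + C * r) ≠ 0 := by positivity
    have a : HasDerivAt (fun s : ℝ => 1 + C * s) C r := by
      simpa using ((hasDerivAt_id r).const_mul C).const_add 1
    have b := (hasDerivAt_const r (1 : ℝ)).div (a.fun_pow 2) (pow_ne_zero 2 hpos)
    have c : HasDerivAt (fun r : ℝ => 1 / (1 + C * r) ^ 2) (-(2 * C) / (1 + C * r) ^ 3) r := by
      refine b.congr_deriv ?_
      norm_num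
      field_simp
    exact c.hasDerivWithinAt
  · intro r hr
    rw [interior_Ici] at hr
    have hr0 : (0 : ℝ) ≤ r := le_of_lt hr
    have : 0 ≤ (2 * C) / (1 + C * r) ^ 3 := by positivity
    simp only [neg_div]
    linarith

theorem comp_concave {F ρ : ℝ → ℝ} (hF : ConcaveOn ℝ (Ici 0) F) (hm : MonotoneOn F (Ici 0))
    (hρ : ConcaveOn ℝ (Ici 0) ρ) (h0 : ∀ r, 0 ≤ r → 0 ≤ ρ r) :
    ConcaveOn ℝ (Ici 0) (fun r => F (ρ r)) := by
  refine ⟨convex_Ici 0, ?_⟩
  intro u hu v hv a b ha hb hab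
  have hu0 : (0 : ℝ) ≤ u := hu
  have hv0 : (0 : ℝ) ≤ v := hv
  have h1 := hF.2 (h0 u hu0) (h0 v hv0) ha hb hab
  have h2 := hρ.2 hu hv ha hb hab
  simp only [smul_eq_mul] at h1 h2 ⊢
  refine h1.trans (hm ?_ ?_ h2)
  · have := h0 u hu0
    have := h0 v hv0
    simp only [Set.mem_Ici]
    positivity
  · apply h0
    positivity

theorem gn_eq {x y B C r : ℝ} (hC : 0 ≤ C) (hBC : C ≤ B) (hr : 0 ≤ r) :
    gn x y B C r = cn x y (B - C) (r / (1 + C * r)) := by
  unfold gn cn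
  have hB : 0 ≤ B := hC.trans hBC
  have h1 : 0 < 1 + C * r := by positivity
  have h2 : 0 < 1 + B * r := by positivity
  have h3 : 1 + (B - C) * (r / (1 + C * r)) = (1 + B * r) / (1 + C * r) := by
    field_simp
    ring
  rw [h3]
  field_simp
  ring

theorem gn_one_le {x y B C r : ℝ} (hx : 0 ≤ x) (hy : 0 ≤ y) (hB : 0 ≤ B) (hC : 0 ≤ C)
    (hr : 0 ≤ r) : 1 ≤ gn x y B C r := by
  unfold gn
  have : 0 ≤ x * r / (1 + B * r) := by positivity
  have : 0 ≤ y * r / (1 + C * r) := by positivity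
  linarith

theorem gN_one_le {x y B C r : ℝ} (hx : 0 ≤ x) (hy : 0 ≤ y) (hB : 0 ≤ B) (hC : 0 ≤ C)
    (hr : 0 ≤ r) : 1 ≤ gN x y B C r := by
  unfold gN
  rw [Real.one_le_sqrt]
  exact gn_one_le hx hy hB hC hr

theorem gf4_nonneg {x y B C r : ℝ} (hx : 0 ≤ x) (hy : 0 ≤ y) (hB : 0 ≤ B) (hC : 0 ≤ C)
    (hr : 0 ≤ r) : 0 ≤ gf4 x y B C r := by
  have := gN_one_le hx hy hB hC hr
  unfold gf4
  positivity

theorem gf3_nonneg {x y B C r : ℝ} (hx : 0 ≤ x) (hy : 0 ≤ y) (hB : 0 ≤ B) (hC : 0 ≤ C)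
    (hr : 0 ≤ r) : 0 ≤ gf3 x y B C r := by
  have := gN_one_le hx hy hB hC hr
  have h0 : 0 < gN x y B C r := by linarith
  unfold gf3
  positivity

theorem gn_differentiableAt {x y B C r : ℝ} (hB : 0 ≤ B) (hC : 0 ≤ C)
    (hr : 0 ≤ r) : DifferentiableAt ℝ (gn x y B C) r := by
  have h1 : (1 + B * r) ≠ 0 := by positivity
  have h2 : (1 + C * r) ≠ 0 := by positivity
  unfold gn
  fun_prop (disch := assumption)

theorem gN_differentiableAt {x y B C r : ℝ} (hx : 0 ≤ x) (hy : 0 ≤ y) (hB : 0 ≤ B) (hC : 0 ≤ C)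
    (hr : 0 ≤ r) : DifferentiableAt ℝ (gN x y B C) r := by
  have h := gn_one_le hx hy hB hC hr
  exact (gn_differentiableAt hB hC hr).sqrt (by linarith)

theorem gf4_differentiableAt {x y B C r : ℝ} (hx : 0 ≤ x) (hy : 0 ≤ y) (hB : 0 ≤ B)
    (hC : 0 ≤ C) (hr : 0 ≤ r) : DifferentiableAt ℝ (gf4 x y B C) r := by
  have h := gN_one_le hx hy hB hC hr
  have h2 : (1 + C * r) ≠ 0 := by positivity
  have hN := gN_differentiableAt hx hy hB hC hr
  have hq : DifferentiableAt ℝ (fun r => y * r / (1 + C * r)) r := by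
    fun_prop (disch := assumption)
  exact hq.div (hN.add_const 1) (by linarith)

theorem gf3_differentiableAt {x y B C r : ℝ} (hx : 0 ≤ x) (hy : 0 ≤ y) (hB : 0 ≤ B)
    (hC : 0 ≤ C) (hr : 0 ≤ r) : DifferentiableAt ℝ (gf3 x y B C) r := by
  have h := gN_one_le hx hy hB hC hr
  have h0 : 0 < gN x y B C r := by linarith
  have h2 : (1 + C * r) ≠ 0 := by positivity
  have hN := gN_differentiableAt hx hy hB hC hr
  have hq : DifferentiableAt ℝ (fun r => y * r / (1 + C * r)) r := by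
    fun_prop (disch := assumption)
  exact hq.div (hN.mul (hN.add_const 1)) (by positivity)

theorem tangent_of_concave {f : ℝ → ℝ} (hf : ConcaveOn ℝ (Ici 0) f)
    (h0 : ∀ r, 0 ≤ r → 0 ≤ f r) (hz : f 0 = 0) {r : ℝ} (hr : 0 < r)
    (hd : DifferentiableAt ℝ f r) :
    (∀ r' : ℝ, 0 ≤ r' → f r' ≤ f r + deriv f r * (r' - r)) ∧
      0 ≤ deriv f r ∧ r * deriv f r ≤ f r := by
  have ht : ∀ r' : ℝ, 0 ≤ r' → f r' ≤ f r + deriv f r * (r' - r) := by
    intro r' hr'
    rcases lt_trichotomy r' r with h | h | h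
    · have h1 := hf.deriv_le_slope (x := r') (y := r) hr' (le_of_lt hr) h hd
      rw [slope_def_field, le_div_iff₀ (by linarith)] at h1
      nlinarith [h1]
    · rw [h]; simp
    · have h1 := hf.slope_le_deriv (x := r) (y := r') (le_of_lt hr) hr' h hd
      rw [slope_def_field, div_le_iff₀ (by linarith)] at h1
      nlinarith [h1]
  refine ⟨ht, ?_, ?_⟩
  · by_contra hneg
    push Not at hneg
    set z : ℝ := r + (f r + 1) / (-(deriv f r)) with hzdef
    have hfr := h0 r (le_of_lt hr)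
    have hpos : 0 < (f r + 1) / (-(deriv f r)) := by
      apply div_pos (by linarith) (by linarith)
    have hz0 : (0 : ℝ) ≤ z := by linarith
    have h1 := ht z hz0
    have h2 := h0 z hz0
    have h3 : deriv f r * (z - r) = -(f r + 1) := by
      have : z - r = (f r + 1) / (-(deriv f r)) := by rw [hzdef]; ring
      rw [this]
      have : deriv f r ≠ 0 := ne_of_lt hneg
      field_simp
    linarith
  · have h1 := ht 0 le_rfl
    rw [hz] at h1
    nlinarith [h1]

end GConc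

open GConc

/-- N1a -/
theorem gf4_concave {x y B C : ℝ} (hx : 0 < x) (hy : 0 < y) (hC : 0 ≤ C) (hBC : C ≤ B) :
    ConcaveOn ℝ (Ici 0) (gf4 x y B C) := by
  have hc : 0 ≤ B - C := by linarith
  have h1 := F4_concave (c := B - C) hx.le hy.le hc
  have h2 := monotone_of_nonneg h1 (fun s hs => by
    have := cn_one_le (c := B - C) hx.le hy.le hc hs
    have h3 : 0 ≤ Real.sqrt (cn x y (B - C) s) := Real.sqrt_nonneg _
    positivity)
  have h3 := comp_concave h1 h2 (rho_concave hC) (fun r hr => by positivity)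
  refine h3.congr ?_
  intro r hr
  have hr0 : (0 : ℝ) ≤ r := hr
  simp only []
  unfold gf4 gN
  rw [gn_eq hC hBC hr0]
  ring

/-- N1b -/
theorem gf3_concave {x y B C : ℝ} (hx : 0 < x) (hy : 0 < y) (hC : 0 ≤ C) (hBC : C ≤ B) :
    ConcaveOn ℝ (Ici 0) (gf3 x y B C) := by
  have hc : 0 ≤ B - C := by linarith
  have h1 := F3_concave (c := B - C) hx.le hy.le hc
  have h2 := monotone_of_nonneg h1 (fun s hs => by
    have := cn_one_le (c := B - C) hx.le hy.le hc hs
    have h3 : 0 ≤ Real.sqrt (cn x y (B - C) s) := Real.sqrt_nonneg _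
    positivity)
  have h3 := comp_concave h1 h2 (rho_concave hC) (fun r hr => by positivity)
  refine h3.congr ?_
  intro r hr
  have hr0 : (0 : ℝ) ≤ r := hr
  simp only []
  unfold gf3 gN
  rw [gn_eq hC hBC hr0]
  ring

/-- N1c (from N1a, differentiability, `gf4 ≥ 0`, `gf4 0 = 0`) -/
theorem gf4_tangent {x y B C : ℝ} (hx : 0 < x) (hy : 0 < y) (hC : 0 ≤ C) (hBC : C ≤ B)
    {r : ℝ} (hr : 0 < r) :
    (∀ r' : ℝ, 0 ≤ r' → gf4 x y B C r' ≤ gf4 x y B C r + gs4 x y B C r * (r' - r)) ∧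
      0 ≤ gs4 x y B C r ∧ r * gs4 x y B C r ≤ gf4 x y B C r := by
  have hB : 0 ≤ B := hC.trans hBC
  exact tangent_of_concave (gf4_concave hx hy hC hBC)
    (fun r hr => gf4_nonneg hx.le hy.le hB hC hr) (by simp [gf4]) hr
    (gf4_differentiableAt hx.le hy.le hB hC hr.le)

/-- N1d -/
theorem gf3_tangent {x y B C : ℝ} (hx : 0 < x) (hy : 0 < y) (hC : 0 ≤ C) (hBC : C ≤ B)
    {r : ℝ} (hr : 0 < r) :
    (∀ r' : ℝ, 0 ≤ r' → gf3 x y B C r' ≤ gf3 x y B C r + gs3 x y B C r * (r' - r)) ∧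
      0 ≤ gs3 x y B C r ∧ r * gs3 x y B C r ≤ gf3 x y B C r := by
  have hB : 0 ≤ B := hC.trans hBC
  exact tangent_of_concave (gf3_concave hx hy hC hBC)
    (fun r hr => gf3_nonneg hx.le hy.le hB hC hr) (by simp [gf3]) hr
    (gf3_differentiableAt hx.le hy.le hB hC hr.le)

end Vale.Agent.P358
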