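import Vale.Agent.P358.ADStar

/-!
# P358, general `ν`: scalar functions

`gn` is `n(r) = 1 + p + q` with `p = x r/(1+B r)`, `q = y r/(1+C r)`; `gN = √n`.
-/

open Matrix Finset MeasureTheory Set
open scoped BigOperators ComplexOrder MatrixOrder

namespace Vale.Agent.P358

noncomputable def gn (x y B C r : ℝ) : ℝ := 1 + x * r / (1 + B * r) + y * r / (1 + C * r)

noncomputable def gN (x y B C r : ℝ) : ℝ := Real.sqrt (gn x y B C r)

/-- `q/(N+1)` -/
noncomputable def gf4 (x y B C r : ℝ) : ℝ := (y * r / (1 + C * r)) / (gN x y B C r + 1)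

/-- `q/(N(N+1))` -/
noncomputable def gf3 (x y B C r : ℝ) : ℝ :=
  (y * r / (1 + C * r)) / (gN x y B C r * (gN x y B C r + 1))

/-- `p/(N+1)` -/
noncomputable def gp4 (x y B C r : ℝ) : ℝ := (x * r / (1 + B * r)) / (gN x y B C r + 1)

/-- `p/(N(N+1))` -/
noncomputable def gp3 (x y B C r : ℝ) : ℝ :=
  (x * r / (1 + B * r)) / (gN x y B C r * (gN x y B C r + 1))

noncomputable def gs4 (x y B C r : ℝ) : ℝ := deriv (gf4 x y B C) r

noncomputable def gs3 (x y B C r : ℝ) : ℝ := deriv (gf3 x y B C) r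

noncomputable def gS (x y B C r : ℝ) : ℝ :=
  2 * Real.log (1 + gf4 x y B C r) + 2 * gf3 x y B C r - gf3 x y B C r ^ 2

noncomputable def gD (x y B C r : ℝ) : ℝ :=
  -(2 * gp4 x y B C r * gs4 x y B C r / ((1 + gf4 x y B C r) * gN x y B C r))
    - 2 * gp3 x y B C r * gs3 x y B C r

noncomputable def gR (x y B C r r' : ℝ) : ℝ :=
  1 + 2 * Real.log (1 + gp4 x y B C r + gf4 x y B C r') - (1 - gp3 x y B C r - gf3 x y B C r') ^ 2

/-- `τ_X = p/(n(1+Br))` -/
noncomputable def gtX (x y B C r : ℝ) : ℝ := (x * r / (1 + B * r)) / (gn x y B C r * (1 + B * r))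

/-- `τ_Y = q/(n(1+Cr))` -/
noncomputable def gtY (x y B C r : ℝ) : ℝ := (y * r / (1 + C * r)) / (gn x y B C r * (1 + C * r))

noncomputable def gfX (x y B C r : ℝ) : ℝ :=
  (1 + Real.log (gn x y B C r) - 1 / gn x y B C r) - gS x y B C r - r * gD x y B C r
    - gtX x y B C r

noncomputable def gfY (x y B C r : ℝ) : ℝ := gS x y B C r - gtY x y B C r

/-- `ψ² = 1/((t(1+Br))² n(r))` at `r = u/t`, i.e. `1/((t+Bu)² n(u/t))`. -/
noncomputable def gpsi (x y B C u t : ℝ) : ℝ := 1 / ((t + B * u) ^ 2 * gn x y B C (u / t))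

/-- `φ²` -/
noncomputable def gphi (x y B C u t : ℝ) : ℝ := 1 / ((t + C * u) ^ 2 * gn x y B C (u / t))

end Vale.Agent.P358
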