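import Vale.Agent.P358.GDefs

/-!
# P358, general `ν`: log-determinant inequalities (N3, N4)
-/

open Matrix Finset MeasureTheory Set
open scoped BigOperators ComplexOrder MatrixOrder

namespace Vale.Agent.P358

section
variable {R S : Type} [Fintype R] [DecidableEq R] [Fintype S] [DecidableEq S]

lemma GDetAux.nh_posDef (P Q : Matrix R S ℂ) (b c : Matrix R R ℂ) (hb : b.PosDef)
    (hc : c.PosDef) : (1 + Pᴴ * b⁻¹ * P + Qᴴ * c⁻¹ * Q).PosDef :=
  (Matrix.PosDef.one.add_posSemidef (hb.inv.posSemidef.conjTranspose_mul_mul_same P)).add_posSemidef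
    (hc.inv.posSemidef.conjTranspose_mul_mul_same Q)

/-- N3 -/
theorem logdet_G1 (P Q : Matrix R S ℂ) (b c : Matrix R R ℂ) (hb : b.PosDef) (hc : c.PosDef)
    (W : Matrix S S ℂ) (Ψ Φ : Matrix R S ℂ) (hΘ : (W + Pᴴ * Ψ + Qᴴ * Φ).det ≠ 0) :
    Real.log (Complex.normSq (W + Pᴴ * Ψ + Qᴴ * Φ).det) + Fintype.card S
      - ((Wᴴ * W).trace).re - ((Ψᴴ * b * Ψ).trace).re - ((Φᴴ * c * Φ).trace).re
    ≤ Real.log ((1 + Pᴴ * b⁻¹ * P + Qᴴ * c⁻¹ * Q).det.re) := by
  set nh : Matrix S S ℂ := 1 + Pᴴ * b⁻¹ * P + Qᴴ * c⁻¹ * Q with hnh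
  set T : Matrix S S ℂ := W + Pᴴ * Ψ + Qᴴ * Φ with hT
  have hn : nh.PosDef := GDetAux.nh_posDef P Q b c hb hc
  have hnu : IsUnit nh.det := (Matrix.isUnit_iff_isUnit_det _).mp hn.isUnit
  have hTu : IsUnit T := (Matrix.isUnit_iff_isUnit_det _).mpr (isUnit_iff_ne_zero.mpr hΘ)
  set M : Matrix S S ℂ := nh⁻¹ * T with hM
  set K : Matrix S S ℂ := Tᴴ * nh⁻¹ * T with hK
  have hKp : K.PosDef := hn.inv.conjTranspose_mul_mul_same (Matrix.mulVec_injective_of_isUnit hTu)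
  have h1 := log_det_le K hKp
  have hdet : K.det.re = Complex.normSq T.det / nh.det.re := by
    have hne : nh.det.re ≠ 0 := (PosDef.re_det_pos hn).ne'
    have e1 : K.det = ((Complex.normSq T.det / nh.det.re : ℝ) : ℂ) := by
      rw [hK, Matrix.det_mul, Matrix.det_mul, Matrix.det_conjTranspose, Matrix.det_nonsing_inv,
        Ring.inverse_eq_inv', Complex.ofReal_div, Complex.normSq_eq_conj_mul_self,
        ← PosDef.det_eq_re hn]
      rw [div_eq_mul_inv, Complex.star_def]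
      ring
    rw [e1, Complex.ofReal_re]
  have hnsq : 0 < Complex.normSq T.det := Complex.normSq_pos.mpr hΘ
  rw [hdet, Real.log_div hnsq.ne' (PosDef.re_det_pos hn).ne'] at h1
  -- trace bound
  have hKM : K = Tᴴ * M := by rw [hK, hM, Matrix.mul_assoc]
  have hKM2 : K = Mᴴ * nh * M := by
    have hnH : (nh⁻¹)ᴴ = nh⁻¹ := hn.inv.1
    rw [hM, conjTranspose_mul, hnH, Matrix.mul_assoc (Tᴴ * nh⁻¹), ← Matrix.mul_assoc nh,
      Matrix.mul_nonsing_inv _ hnu, Matrix.one_mul]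
  have t1 := trace_ineq (1 : Matrix S S ℂ) Matrix.PosDef.one M W
  have t2 := trace_ineq b hb (P * M) Ψ
  have t3 := trace_ineq c hc (Q * M) Φ
  have s1 : (K.trace).re = ((Wᴴ * M).trace).re + ((Ψᴴ * (P * M)).trace).re
      + ((Φᴴ * (Q * M)).trace).re := by
    rw [hKM, hT, conjTranspose_add, conjTranspose_add, conjTranspose_mul, conjTranspose_mul,
      conjTranspose_conjTranspose, conjTranspose_conjTranspose, Matrix.add_mul, Matrix.add_mul,
      Matrix.trace_add, Matrix.trace_add, Complex.add_re, Complex.add_re, Matrix.mul_assoc,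
      Matrix.mul_assoc]
  have s2 : (K.trace).re = ((Mᴴ * 1⁻¹ * M).trace).re + (((P * M)ᴴ * b⁻¹ * (P * M)).trace).re
      + (((Q * M)ᴴ * c⁻¹ * (Q * M)).trace).re := by
    rw [← Complex.add_re, ← Complex.add_re, ← Matrix.trace_add, ← Matrix.trace_add]
    congr 2
    have ePM : (P * M)ᴴ = Mᴴ * Pᴴ := conjTranspose_mul _ _
    have eQM : (Q * M)ᴴ = Mᴴ * Qᴴ := conjTranspose_mul _ _
    rw [hKM2, ePM, eQM, inv_one, hnh]
    simp only [Matrix.mul_add, Matrix.add_mul, Matrix.mul_assoc, Matrix.mul_one]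
  have s3 : ((Wᴴ * 1 * W).trace).re = ((Wᴴ * W).trace).re := by rw [Matrix.mul_one]
  rw [s3] at t1
  linarith

/-- N4a -/
theorem det_blocks (P Q : Matrix R S ℂ) (b c : Matrix R R ℂ) (hb : b.PosDef) (hc : c.PosDef) :
    (Matrix.fromBlocks (b + P * Pᴴ) (P * Qᴴ) (Q * Pᴴ) (c + Q * Qᴴ)).det
      = b.det * c.det * (1 + Pᴴ * b⁻¹ * P + Qᴴ * c⁻¹ * Q).det := by
  have hbu : IsUnit b.det := (Matrix.isUnit_iff_isUnit_det _).mp hb.isUnit
  have hcu : IsUnit c.det := (Matrix.isUnit_iff_isUnit_det _).mp hc.isUnit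
  set A : Matrix (R ⊕ R) (R ⊕ R) ℂ := Matrix.fromBlocks b 0 0 c with hA
  have hAd : A.det = b.det * c.det := by rw [hA, Matrix.det_fromBlocks_zero₂₁]
  have hAu : IsUnit A.det := by rw [hAd]; exact hbu.mul hcu
  have hAi : A⁻¹ = Matrix.fromBlocks b⁻¹ 0 0 c⁻¹ := by
    apply Matrix.inv_eq_right_inv
    rw [hA, Matrix.fromBlocks_multiply]
    simp [Matrix.mul_nonsing_inv _ hbu, Matrix.mul_nonsing_inv _ hcu]
  have e1 : Matrix.fromBlocks (b + P * Pᴴ) (P * Qᴴ) (Q * Pᴴ) (c + Q * Qᴴ)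
      = A + Matrix.fromRows P Q * Matrix.fromCols Pᴴ Qᴴ := by
    rw [Matrix.fromRows_mul_fromCols, hA, Matrix.fromBlocks_add]
    simp
  rw [e1, Matrix.det_add_mul _ _ hAu, hAd, hAi, Matrix.fromCols_mul_fromBlocks,
    Matrix.fromCols_mul_fromRows]
  congr 2
  simp [add_assoc]

/-- N4b -/
theorem logdet_blocks (P Q : Matrix R S ℂ) (b c : Matrix R R ℂ) (hb : b.PosDef) (hc : c.PosDef) :
    Real.log ((Matrix.fromBlocks (b + P * Pᴴ) (P * Qᴴ) (Q * Pᴴ) (c + Q * Qᴴ)).det.re)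
      = Real.log b.det.re + Real.log c.det.re
        + Real.log ((1 + Pᴴ * b⁻¹ * P + Qᴴ * c⁻¹ * Q).det.re) := by
  have hn := GDetAux.nh_posDef P Q b c hb hc
  rw [det_blocks P Q b c hb hc, PosDef.det_eq_re hb, PosDef.det_eq_re hc, PosDef.det_eq_re hn,
    ← Complex.ofReal_mul, ← Complex.ofReal_mul]
  simp only [Complex.ofReal_re]
  rw [Real.log_mul (mul_pos (PosDef.re_det_pos hb) (PosDef.re_det_pos hc)).ne'
      (PosDef.re_det_pos hn).ne',
    Real.log_mul (PosDef.re_det_pos hb).ne' (PosDef.re_det_pos hc).ne']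

end

end Vale.Agent.P358
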