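import Vale.Agent.P358.GDefs

/-!
# P358, general `ν`, piece N5a: the frozen inequality
-/

open Matrix Finset MeasureTheory Set
open scoped BigOperators ComplexOrder MatrixOrder Topology

namespace Vale.Agent.P358

namespace GFroz

/-- tangent inequality for the convex function `a ↦ ln((a+P)/a)` -/
theorem log_tangent {a b P : ℝ} (ha : 0 < a) (hb : 0 < b) (hP : 0 ≤ P) :
    Real.log (b + P) - Real.log b - P / (b * (b + P)) * (a - b) ≤
      Real.log (a + P) - Real.log a := by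
  have h1 : Real.log (a * (b + P) / ((a + P) * b)) =
      Real.log a + Real.log (b + P) - Real.log (a + P) - Real.log b := by
    rw [Real.log_div (by positivity) (by positivity), Real.log_mul (by positivity) (by positivity),
      Real.log_mul (by positivity) (by positivity)]
    ring
  have h2 : Real.log (a * (b + P) / ((a + P) * b)) ≤ a * (b + P) / ((a + P) * b) - 1 :=
    Real.log_le_sub_one_of_pos (by positivity)
  have h3 : a * (b + P) / ((a + P) * b) - 1 ≤ P / (b * (b + P)) * (a - b) := by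
    have h4 : P / (b * (b + P)) * (a - b) - (a * (b + P) / ((a + P) * b) - 1) =
        P * (a - b) ^ 2 / (b * (b + P) * (a + P)) := by
      field_simp
      ring
    have h5 : 0 ≤ P * (a - b) ^ 2 / (b * (b + P) * (a + P)) := by positivity
    linarith
  linarith

theorem frozen_aux {x y B C : ℝ} (hx : 0 < x) (hy : 0 < y) (hC : 0 ≤ C) (hB : 0 ≤ B)
    {r r' : ℝ} (hr : 0 < r) (hr' : 0 ≤ r')
    (h4 : gf4 x y B C r' ≤ gf4 x y B C r + gs4 x y B C r * (r' - r))
    (h3 : gf3 x y B C r' ≤ gf3 x y B C r + gs3 x y B C r * (r' - r)) :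
    (1 + Real.log (gn x y B C r) - 1 / gn x y B C r) + gS x y B C r' - gS x y B C r
      + (r' - r) * gD x y B C r ≤ gR x y B C r r' := by
  obtain ⟨p, hp⟩ : ∃ p, p = x * r / (1 + B * r) := ⟨_, rfl⟩
  obtain ⟨q, hq⟩ : ∃ q, q = y * r / (1 + C * r) := ⟨_, rfl⟩
  have hp0 : 0 ≤ p := by rw [hp]; positivity
  have hq0 : 0 ≤ q := by rw [hq]; positivity
  have hn : gn x y B C r = 1 + p + q := by unfold gn; rw [hp, hq]
  obtain ⟨N, hN⟩ : ∃ N, N = gN x y B C r := ⟨_, rfl⟩
  have hNN : N ^ 2 = 1 + p + q := by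
    rw [hN, gN, hn, Real.sq_sqrt (by positivity)]
  have hN1 : 0 < N := by
    rw [hN, gN, hn]
    positivity
  have hP4 : gp4 x y B C r = p / (N + 1) := by unfold gp4; rw [← hp, ← hN]
  have hP3 : gp3 x y B C r = p / (N * (N + 1)) := by unfold gp3; rw [← hp, ← hN]
  have hF4 : gf4 x y B C r = q / (N + 1) := by unfold gf4; rw [← hq, ← hN]
  have hF3 : gf3 x y B C r = q / (N * (N + 1)) := by unfold gf3; rw [← hq, ← hN]
  obtain ⟨P4, hP4'⟩ : ∃ P4, P4 = p / (N + 1) := ⟨_, rfl⟩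
  obtain ⟨P3, hP3'⟩ : ∃ P3, P3 = p / (N * (N + 1)) := ⟨_, rfl⟩
  obtain ⟨F4, hF4'⟩ : ∃ F4, F4 = q / (N + 1) := ⟨_, rfl⟩
  obtain ⟨F3, hF3'⟩ : ∃ F3, F3 = q / (N * (N + 1)) := ⟨_, rfl⟩
  have hP40 : 0 ≤ P4 := by rw [hP4']; positivity
  have hP30 : 0 ≤ P3 := by rw [hP3']; positivity
  have hF40 : 0 ≤ F4 := by rw [hF4']; positivity
  have s4 : 1 + P4 + F4 = N := by
    rw [hP4', hF4']
    field_simp
    nlinarith
  have s3 : 1 - P3 - F3 = 1 / N := by
    rw [hP3', hF3']
    field_simp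
    nlinarith
  have hf4' : 0 ≤ gf4 x y B C r' := by
    unfold gf4
    have : 0 ≤ gN x y B C r' := Real.sqrt_nonneg _
    positivity
  have hlogn : Real.log (gn x y B C r) = 2 * Real.log N := by
    rw [hn, ← hNN, Real.log_pow]
    norm_num
  have hinvn : 1 / gn x y B C r = (1 / N) ^ 2 := by
    rw [hn, ← hNN]
    field_simp
  -- the log part
  have L := log_tangent (a := 1 + gf4 x y B C r') (b := 1 + F4) (P := P4) (by positivity)
    (by positivity) hP40
  have e1 : 1 + F4 + P4 = N := by linarith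
  rw [e1] at L
  unfold gR gS gD
  rw [hP4, hP3, hF4, hF3, ← hN, ← hP4', ← hP3', ← hF4', ← hF3', hlogn, hinvn, ← s3]
  rw [hF4, ← hF4'] at h4
  rw [hF3, ← hF3'] at h3
  have M4 : P4 / ((1 + F4) * N) * (1 + gf4 x y B C r' - (1 + F4)) ≤
      P4 / ((1 + F4) * N) * (gs4 x y B C r * (r' - r)) := by
    apply mul_le_mul_of_nonneg_left _ (by positivity)
    linarith
  have M3 : P3 * (gf3 x y B C r' - F3) ≤ P3 * (gs3 x y B C r * (r' - r)) := by
    apply mul_le_mul_of_nonneg_left _ hP30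
    linarith
  have e2 : Real.log (1 + gf4 x y B C r' + P4) = Real.log (1 + P4 + gf4 x y B C r') := by
    congr 1
    ring
  rw [e2] at L
  have e3 : 2 * P4 * gs4 x y B C r / ((1 + F4) * N) = 2 * (P4 / ((1 + F4) * N) * gs4 x y B C r) := by
    ring
  rw [e3]
  have key : ∀ K a b t4 t3 lN lF la lb : ℝ,
      lN - lF - K * (1 + a - (1 + F4)) ≤ lb - la →
      K * (1 + a - (1 + F4)) ≤ K * (t4 * (r' - r)) → P3 * (b - F3) ≤ P3 * (t3 * (r' - r)) →
      1 + 2 * lN - (1 - P3 - F3) ^ 2 + (2 * la + 2 * b - b ^ 2) - (2 * lF + 2 * F3 - F3 ^ 2) +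
        (r' - r) * (-(2 * (K * t4)) - 2 * P3 * t3) ≤ 1 + 2 * lb - (1 - P3 - b) ^ 2 := by
    intro K a b t4 t3 lN lF la lb h1 h2 h3
    linear_combination 2 * h1 + 2 * h2 + 2 * h3
  exact key _ _ _ _ _ _ _ _ _ L M4 M3

theorem frozen_zero {x y B C : ℝ} {r' : ℝ} :
    (1 + Real.log (gn x y B C 0) - 1 / gn x y B C 0) + gS x y B C r' - gS x y B C 0
      + (r' - 0) * gD x y B C 0 ≤ gR x y B C 0 r' := by
  have h1 : gn x y B C 0 = 1 := by simp [gn]
  have h2 : gp4 x y B C 0 = 0 := by simp [gp4]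
  have h3 : gp3 x y B C 0 = 0 := by simp [gp3]
  have h4 : gf4 x y B C 0 = 0 := by simp [gf4]
  have h5 : gf3 x y B C 0 = 0 := by simp [gf3]
  unfold gR gS gD
  rw [h1, h2, h3, h4, h5]
  simp only [Real.log_one, add_zero, sub_zero, mul_zero, zero_mul, zero_div]
  apply le_of_eq
  ring

end GFroz

end Vale.Agent.P358
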