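import Vale.Agent.P358.GConc
import Vale.Agent.P358.GFroz

/-!
# P358, general `ν`, piece N5a: the frozen inequality (final form)
-/

open Matrix Finset MeasureTheory Set
open scoped BigOperators ComplexOrder MatrixOrder Topology

namespace Vale.Agent.P358

/-- N5a frozen inequality -/
theorem frozen {x y B C : ℝ} (hx : 0 < x) (hy : 0 < y) (hC : 0 ≤ C) (hBC : C ≤ B)
    {r r' : ℝ} (hr : 0 ≤ r) (hr' : 0 ≤ r') :
    (1 + Real.log (gn x y B C r) - 1 / gn x y B C r) + gS x y B C r' - gS x y B C r
      + (r' - r) * gD x y B C r ≤ gR x y B C r r' := by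
  rcases hr.eq_or_lt with h0 | hpos
  · subst h0
    exact GFroz.frozen_zero
  · exact GFroz.frozen_aux hx hy hC (hC.trans hBC) hpos hr'
      ((gf4_tangent hx hy hC hBC hpos).1 r' hr') ((gf3_tangent hx hy hC hBC hpos).1 r' hr')

end Vale.Agent.P358
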