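import Vale.Agent.P358.GDefs

/-!
# P358, general `ν`, piece N6g: the pointwise identity
-/

open Matrix Finset MeasureTheory Set
open scoped BigOperators ComplexOrder MatrixOrder Topology

namespace Vale.Agent.P358

set_option linter.unusedVariables false

/-- N6g pointwise identity -/
theorem g_identity {x y B C t : ℝ} (hx : 0 < x) (hy : 0 < y) (hB : 0 ≤ B) (hC : 0 ≤ C)
    (ht : 0 < t) :
    gfX x y B C (1 / t) + gfY x y B C (1 / t) + (1 / t) * gD x y B C (1 / t)
      - x * B * gpsi x y B C 1 t - y * C * gphi x y B C 1 t
      = Real.log (gn x y B C (1 / t)) := by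
  have hBt : (0 : ℝ) < t + B := by positivity
  have hCt : (0 : ℝ) < t + C := by positivity
  have h1 : 1 + B * (1 / t) = (t + B) / t := by field_simp
  have h2 : 1 + C * (1 / t) = (t + C) / t := by field_simp
  have hn : gn x y B C (1 / t) = 1 + x / (t + B) + y / (t + C) := by
    unfold gn
    rw [h1, h2]
    congr 1
    · congr 1
      field_simp
    · field_simp
  have hnpos : 0 < 1 + x / (t + B) + y / (t + C) := by positivity
  have e1 : gtX x y B C (1 / t) + x * B * gpsi x y B C 1 t =
      (x / (t + B)) / (1 + x / (t + B) + y / (t + C)) := by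
    unfold gtX gpsi
    rw [hn, h1]
    generalize 1 + x / (t + B) + y / (t + C) = n at hnpos
    have hn' := hnpos.ne'
    field_simp
  have e2 : gtY x y B C (1 / t) + y * C * gphi x y B C 1 t =
      (y / (t + C)) / (1 + x / (t + B) + y / (t + C)) := by
    unfold gtY gphi
    rw [hn, h2]
    generalize 1 + x / (t + B) + y / (t + C) = n at hnpos
    have hn' := hnpos.ne'
    field_simp
  have e3 : 1 / gn x y B C (1 / t) + (x / (t + B)) / (1 + x / (t + B) + y / (t + C)) +
      (y / (t + C)) / (1 + x / (t + B) + y / (t + C)) = 1 := by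
    rw [hn, ← add_div, ← add_div, div_self hnpos.ne']
  unfold gfX gfY
  linear_combination -e1 - e2 - e3

end Vale.Agent.P358
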