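import Vale.Agent.P358.GIntA
import Vale.Agent.P358.GConc

/-!
# P358, pieces N6b, `gD_nonpos`, N6f
-/

open MeasureTheory Set
open scoped BigOperators ComplexOrder MatrixOrder

namespace Vale.Agent.P358

open GIntAux

namespace GIntAux

theorem measurable_gD (x y B C : ℝ) : Measurable (gD x y B C) := by
  have h1 := measurable_gp4 x y B C
  have h2 := measurable_gp3 x y B C
  have h3 := measurable_gf4 x y B C
  have h4 := measurable_gN x y B C
  have h5 : Measurable (gs4 x y B C) := measurable_deriv _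
  have h6 : Measurable (gs3 x y B C) := measurable_deriv _
  unfold gD
  fun_prop

theorem core_gD {x y r p q N f4 f3 p4 p3 s4 s3 : ℝ} (hx : 0 ≤ x) (hy : 0 ≤ y) (hr : 0 ≤ r)
    (hN : 1 ≤ N) (hp1 : p ≤ x * r) (hq1 : q ≤ y * r)
    (a1 : 0 ≤ f4) (a3 : f4 ≤ q / 2)
    (b1 : 0 ≤ f3) (b2 : f3 ≤ 1) (b3 : f3 ≤ q / 2)
    (c1 : 0 ≤ p4) (c2 : p4 ≤ N - 1) (c3 : p4 ≤ p / 2)
    (d1 : 0 ≤ p3) (d2 : p3 ≤ 1) (d3 : p3 ≤ p / 2)
    (s41 : 0 ≤ s4) (s42 : r * s4 ≤ f4) (s31 : 0 ≤ s3) (s32 : r * s3 ≤ f3) :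
    |r * (-(2 * p4 * s4 / ((1 + f4) * N)) - 2 * p3 * s3)| ≤ 4 ∧
    |r * (-(2 * p4 * s4 / ((1 + f4) * N)) - 2 * p3 * s3)| ≤ x * y * r ^ 2 := by
  have hN0 : 0 < N := by linarith
  have e : r * (-(2 * p4 * s4 / ((1 + f4) * N)) - 2 * p3 * s3) =
      -(2 * (p4 * (r * s4) / ((1 + f4) * N)) + 2 * (p3 * (r * s3))) := by ring
  have h0 : 0 ≤ r * s4 := by positivity
  have h0' : 0 ≤ r * s3 := by positivity
  have hA : 0 ≤ p4 * (r * s4) / ((1 + f4) * N) := by positivity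
  have hB : 0 ≤ p3 * (r * s3) := by positivity
  rw [e, abs_neg, abs_of_nonneg (by linarith)]
  have hA1 : p4 * (r * s4) / ((1 + f4) * N) ≤ 1 := by
    rw [div_le_one (by positivity)]
    have : p4 * (r * s4) ≤ N * (1 + f4) :=
      mul_le_mul (by linarith) (by linarith) h0 hN0.le
    linarith
  have hB1 : p3 * (r * s3) ≤ 1 := by
    have := mul_le_mul d2 (s32.trans b2) h0' zero_le_one
    linarith
  have hA2 : p4 * (r * s4) / ((1 + f4) * N) ≤ x * r / 2 * (y * r / 2) := by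
    have h1 : p4 * (r * s4) ≤ x * r / 2 * (y * r / 2) :=
      mul_le_mul (by linarith) (by linarith) h0 (by positivity)
    refine le_trans (div_le_self (by positivity) ?_) h1
    nlinarith
  have hB2 : p3 * (r * s3) ≤ x * r / 2 * (y * r / 2) :=
    mul_le_mul (by linarith) (by linarith) h0' (by positivity)
  constructor
  · linarith
  · nlinarith

theorem gD_bounds {x y B C r : ℝ} (hx : 0 < x) (hy : 0 < y) (hC : 0 ≤ C) (hBC : C ≤ B)
    (hr : 0 < r) : |r * gD x y B C r| ≤ 4 ∧ |r * gD x y B C r| ≤ x * y * r ^ 2 := by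
  have hB : 0 ≤ B := hC.trans hBC
  have hN := one_le_gN hx.le hy.le hB hC hr.le
  have hpq := pq_eq hx.le hy.le hB hC hr.le
  have hp := p_nonneg hx.le hB hr.le
  have hq := p_nonneg hy.le hC hr.le
  have hp1 := p_le hx.le hB hr.le
  have hq1 := p_le hy.le hC hr.le
  obtain ⟨a1, a2, a3, a4⟩ := quot4 hq hN (by linarith)
  obtain ⟨b1, b2, b3, b4⟩ := quot3 hq hN (by linarith)
  obtain ⟨c1, c2, c3, c4⟩ := quot4 hp hN (by linarith)
  obtain ⟨d1, d2, d3, d4⟩ := quot3 hp hN (by linarith)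
  obtain ⟨-, s41, s42⟩ := gf4_tangent hx hy hC hBC hr
  obtain ⟨-, s31, s32⟩ := gf3_tangent hx hy hC hBC hr
  exact core_gD hx.le hy.le hr.le hN hp1 hq1 a1 a3 b1 b2 b3 c1 c2 c3 d1 d2 d3 s41 s42 s31 s32

end GIntAux

theorem gD_nonpos {x y B C : ℝ} (hx : 0 < x) (hy : 0 < y) (hC : 0 ≤ C) (hBC : C ≤ B)
    {r : ℝ} (hr : 0 < r) : gD x y B C r ≤ 0 := by
  have hB : 0 ≤ B := hC.trans hBC
  have hN := one_le_gN hx.le hy.le hB hC hr.le
  have hpq := pq_eq hx.le hy.le hB hC hr.le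
  have hp := p_nonneg hx.le hB hr.le
  have hq := p_nonneg hy.le hC hr.le
  obtain ⟨a1, -⟩ := quot4 hq hN (by linarith)
  obtain ⟨c1, -⟩ := quot4 hp hN (by linarith)
  obtain ⟨d1, -⟩ := quot3 hp hN (by linarith)
  obtain ⟨-, s41, -⟩ := gf4_tangent hx hy hC hBC hr
  obtain ⟨-, s31, -⟩ := gf3_tangent hx hy hC hBC hr
  have a1' : 0 ≤ gf4 x y B C r := a1
  have c1' : 0 ≤ gp4 x y B C r := c1
  have d1' : 0 ≤ gp3 x y B C r := d1
  have h1 : 0 ≤ 2 * gp4 x y B C r * gs4 x y B C r / ((1 + gf4 x y B C r) * gN x y B C r) := by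
    have : 0 ≤ gN x y B C r := by linarith
    positivity
  have h2 : 0 ≤ 2 * gp3 x y B C r * gs3 x y B C r := by positivity
  unfold gD
  linarith

/-- N6b (uses N1c, N1d) -/
theorem gD_integrable {x y B C : ℝ} (hx : 0 < x) (hy : 0 < y) (hC : 0 ≤ C) (hBC : C ≤ B) :
    IntegrableOn (fun t : ℝ => (1 / t) * gD x y B C (1 / t)) (Ioi 0) := by
  refine integrable_of_bounds (K := 4 + x * y) ?_ ?_ ?_
  · have := measurable_gD x y B C
    have h1 : Measurable (fun t : ℝ => gD x y B C (1 / t)) := this.comp (by fun_prop)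
    fun_prop
  · intro t ht ht1
    have h1 := (gD_bounds hx hy hC hBC (show 0 < 1 / t by positivity)).1
    have h2 : 1 ≤ t ^ (-(1 / 2) : ℝ) :=
      Real.one_le_rpow_of_pos_of_le_one_of_nonpos ht ht1 (by norm_num)
    have h3 : 0 < x * y := by positivity
    nlinarith
  · intro t ht
    have ht0 : 0 < t := by linarith
    have h1 := (gD_bounds hx hy hC hBC (show 0 < 1 / t by positivity)).2
    have h2 : 0 ≤ (1 / t) ^ 2 := by positivity
    linarith

/-- N6f -/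
theorem gD_scaled {x y B C u : ℝ} (hx : 0 < x) (hy : 0 < y) (hC : 0 ≤ C) (hBC : C ≤ B)
    (hu : 0 < u) : IntegrableOn (fun t : ℝ => (1 / t) * gD x y B C (u / t)) (Ioi 0) ∧
    ∫ t in Ioi (0 : ℝ), (1 / t) * gD x y B C (u / t) =
      ∫ t in Ioi (0 : ℝ), (1 / t) * gD x y B C (1 / t) := by
  have hi := gD_integrable hx hy hC hBC
  have hu' : 0 < u⁻¹ := inv_pos.2 hu
  have e : (fun t : ℝ => (1 / t) * gD x y B C (u / t)) =
      fun t : ℝ => u⁻¹ * ((fun s : ℝ => (1 / s) * gD x y B C (1 / s)) (u⁻¹ * t)) := by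
    funext t
    have e1 : 1 / (u⁻¹ * t) = u / t := by
      rw [one_div, mul_inv, inv_inv, div_eq_mul_inv]
    simp only
    rw [e1]
    have e2 : u⁻¹ * (u / t * gD x y B C (u / t)) = (u⁻¹ * u) * (1 / t) * gD x y B C (u / t) := by
      ring
    rw [e2, inv_mul_cancel₀ hu.ne', one_mul]
  constructor
  · rw [e]
    apply Integrable.const_mul
    have := (integrableOn_Ioi_comp_mul_left_iff
      (fun s : ℝ => (1 / s) * gD x y B C (1 / s)) 0 hu').2
    rw [mul_zero] at this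
    exact this hi
  · rw [e, integral_const_mul]
    rw [integral_comp_mul_left_Ioi (fun s : ℝ => (1 / s) * gD x y B C (1 / s)) 0 hu']
    rw [mul_zero, smul_eq_mul, inv_inv, ← mul_assoc, inv_mul_cancel₀ hu.ne', one_mul]

end Vale.Agent.P358
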