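import Vale.Agent.P358.GDefs
import Vale.Agent.P358.IntRep

/-!
# P358, general `ν`, piece N6c: the integral of `ln n`
-/

open Matrix Finset MeasureTheory Set
open scoped BigOperators ComplexOrder MatrixOrder

namespace Vale.Agent.P358

namespace GIntC

/-- the `2 × 2` matrix -/
noncomputable def M2 (x y B C : ℝ) : Matrix (Fin 2) (Fin 2) ℂ :=
  !![((x + B : ℝ) : ℂ), ((Real.sqrt (x * y) : ℝ) : ℂ);
        ((Real.sqrt (x * y) : ℝ) : ℂ), ((y + C : ℝ) : ℂ)]

theorem M2_psd {x y B C : ℝ} (hx : 0 ≤ x) (hy : 0 ≤ y) (hB : 0 ≤ B) (hC : 0 ≤ C) :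
    (M2 x y B C).PosSemidef := by
  have h1 : (Matrix.diagonal ![(B : ℂ), (C : ℂ)]).PosSemidef := by
    refine Matrix.PosSemidef.diagonal ?_
    intro i
    fin_cases i
    · simpa using hB
    · simpa using hC
  have h2 := Matrix.posSemidef_vecMulVec_self_star
    (![((Real.sqrt x : ℝ) : ℂ), ((Real.sqrt y : ℝ) : ℂ)])
  have h3 : M2 x y B C = Matrix.diagonal ![(B : ℂ), (C : ℂ)] +
      Matrix.vecMulVec (![((Real.sqrt x : ℝ) : ℂ), ((Real.sqrt y : ℝ) : ℂ)])
        (star (![((Real.sqrt x : ℝ) : ℂ), ((Real.sqrt y : ℝ) : ℂ)])) := by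
    ext i j
    fin_cases i <;> fin_cases j
    · simp only [M2, Matrix.vecMulVec, Matrix.diagonal, Matrix.add_apply, Matrix.of_apply]
      simp only [Fin.zero_eta, Fin.isValue, Matrix.cons_val', Matrix.cons_val_zero,
        Matrix.cons_val_fin_one, if_true, Pi.star_apply, RCLike.star_def, Complex.conj_ofReal]
      rw [← Complex.ofReal_mul, Real.mul_self_sqrt hx, ← Complex.ofReal_add, add_comm]
    · simp only [M2, Matrix.vecMulVec, Matrix.diagonal, Matrix.add_apply, Matrix.of_apply]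
      simp only [Fin.zero_eta, Fin.isValue, Fin.mk_one, Matrix.cons_val', Matrix.cons_val_one,
        Matrix.cons_val_zero, Matrix.cons_val_fin_one, Pi.star_apply, RCLike.star_def,
        Complex.conj_ofReal]
      rw [← Complex.ofReal_mul, Real.sqrt_mul hx]
      simp
    · simp only [M2, Matrix.vecMulVec, Matrix.diagonal, Matrix.add_apply, Matrix.of_apply]
      simp only [Fin.zero_eta, Fin.isValue, Fin.mk_one, Matrix.cons_val', Matrix.cons_val_one,
        Matrix.cons_val_zero, Matrix.cons_val_fin_one, Pi.star_apply, RCLike.star_def,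
        Complex.conj_ofReal]
      rw [← Complex.ofReal_mul, Real.sqrt_mul hx, mul_comm]
      simp
    · simp only [M2, Matrix.vecMulVec, Matrix.diagonal, Matrix.add_apply, Matrix.of_apply]
      simp only [Fin.isValue, Fin.mk_one, Matrix.cons_val', Matrix.cons_val_one,
        Matrix.cons_val_fin_one, if_true, Pi.star_apply, RCLike.star_def, Complex.conj_ofReal]
      rw [← Complex.ofReal_mul, Real.mul_self_sqrt hy, ← Complex.ofReal_add, add_comm]
  rw [h3]
  exact h1.add h2

theorem M2_rtr (x y B C : ℝ) : rtr (M2 x y B C) = x + y + B + C := by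
  unfold rtr M2
  rw [Matrix.trace_fin_two]
  simp
  ring

theorem M2_det {x y B C : ℝ} (hx : 0 ≤ x) (hy : 0 ≤ y) {t : ℝ} :
    (((t : ℂ) • (1 : Matrix (Fin 2) (Fin 2) ℂ) + M2 x y B C).det).re =
      (t + B) * (t + C) + x * (t + C) + y * (t + B) := by
  have h1 : ((t : ℂ) • (1 : Matrix (Fin 2) (Fin 2) ℂ) + M2 x y B C).det =
      (((t + B) * (t + C) + x * (t + C) + y * (t + B) : ℝ) : ℂ) := by
    rw [Matrix.det_fin_two]
    simp only [M2, Matrix.add_apply, Matrix.smul_apply, Matrix.one_apply_eq, Matrix.of_apply,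
      Matrix.cons_val', Matrix.cons_val_zero, Matrix.cons_val_one, Matrix.cons_val_fin_one,
      smul_eq_mul, mul_one, ne_eq, Fin.isValue, zero_ne_one, one_ne_zero, not_false_eq_true,
      Matrix.one_apply_ne, mul_zero, zero_add]
    rw [← Complex.ofReal_mul, Real.mul_self_sqrt (mul_nonneg hx hy)]
    push_cast
    ring
  rw [h1, Complex.ofReal_re]

theorem gn_inv {x y B C t : ℝ} (hB : 0 ≤ B) (hC : 0 ≤ C) (ht : 0 < t) :
    gn x y B C (1 / t) = 1 + x / (t + B) + y / (t + C) := by
  unfold gn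
  have h1 : (0 : ℝ) < t + B := by positivity
  have h2 : (0 : ℝ) < t + C := by positivity
  have h3 : 1 + B * (1 / t) = (t + B) / t := by field_simp
  have h4 : 1 + C * (1 / t) = (t + C) / t := by field_simp
  rw [h3, h4]
  congr 1
  · congr 1
    field_simp
  · field_simp

theorem integrand_eq {x y B C : ℝ} (hx : 0 ≤ x) (hy : 0 ≤ y) (hB : 0 ≤ B) (hC : 0 ≤ C)
    (t : ℝ) (ht : t ∈ Ioi (0 : ℝ)) :
    (Real.log (((t : ℂ) • (1 : Matrix (Fin 2) (Fin 2) ℂ) + M2 x y B C).det.re)
      - Fintype.card (Fin 2) * Real.log t - rtr (M2 x y B C) * Real.log (1 + 1 / t))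
      - (Real.log (1 + B / t) - B * Real.log (1 + 1 / t))
      - (Real.log (1 + C / t) - C * Real.log (1 + 1 / t)) =
    Real.log (gn x y B C (1 / t)) - (x + y) * Real.log (1 + 1 / t) := by
  have ht' : (0 : ℝ) < t := ht
  have h1 : (0 : ℝ) < t + B := by positivity
  have h2 : (0 : ℝ) < t + C := by positivity
  rw [M2_det hx hy, M2_rtr, gn_inv hB hC ht']
  have e0 : (t + B) * (t + C) + x * (t + C) + y * (t + B) =
      (1 + x / (t + B) + y / (t + C)) * ((1 + B / t) * (1 + C / t) * t ^ 2) := by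
    field_simp
  have p0 : 0 < 1 + x / (t + B) + y / (t + C) := by positivity
  have p1 : 0 < 1 + B / t := by positivity
  have p2 : 0 < 1 + C / t := by positivity
  rw [e0, Real.log_mul p0.ne' (by positivity), Real.log_mul (by positivity) (by positivity),
    Real.log_mul p1.ne' p2.ne', Real.log_pow, Fintype.card_fin]
  push_cast
  ring

end GIntC

open GIntC

/-- N6c -/
theorem gn_integrable {x y B C : ℝ} (hx : 0 ≤ x) (hy : 0 ≤ y) (hB : 0 ≤ B) (hC : 0 ≤ C) :
    IntegrableOn (fun t : ℝ => Real.log (gn x y B C (1 / t)) - (x + y) * Real.log (1 + 1 / t))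
      (Ioi 0) := by
  have h := ((eta_integrable (M2 x y B C) (M2_psd hx hy hB hC)).sub
    (scal_integrable B hB)).sub (scal_integrable C hC)
  exact h.congr_fun (fun t ht => integrand_eq hx hy hB hC t ht) measurableSet_Ioi

theorem gn_integral {x y B C : ℝ} (hx : 0 ≤ x) (hy : 0 ≤ y) (hB : 0 ≤ B) (hC : 0 ≤ C) :
    ∫ t in Ioi (0 : ℝ), (Real.log (gn x y B C (1 / t)) - (x + y) * Real.log (1 + 1 / t)) =
      eta !![((x + B : ℝ) : ℂ), ((Real.sqrt (x * y) : ℝ) : ℂ);
        ((Real.sqrt (x * y) : ℝ) : ℂ), ((y + C : ℝ) : ℂ)]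
        - Real.negMulLog B - Real.negMulLog C := by
  rw [← setIntegral_congr_fun measurableSet_Ioi (fun t ht => integrand_eq hx hy hB hC t ht)]
  have i1 := eta_integrable (M2 x y B C) (M2_psd hx hy hB hC)
  have i2 := scal_integrable B hB
  have i3 := scal_integrable C hC
  have e1 := integral_sub (i1.sub i2) i3
  have e2 := integral_sub i1 i2
  rw [eta_integral _ (M2_psd hx hy hB hC), scal_integral B hB] at e2
  rw [scal_integral C hC] at e1
  have e3 : ∫ (a : ℝ) in Ioi 0, ((fun t : ℝ =>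
      Real.log (((t : ℂ) • (1 : Matrix (Fin 2) (Fin 2) ℂ) + M2 x y B C).det.re)
      - Fintype.card (Fin 2) * Real.log t - rtr (M2 x y B C) * Real.log (1 + 1 / t)) -
      (fun t : ℝ => Real.log (1 + B / t) - B * Real.log (1 + 1 / t))) a =
      eta (M2 x y B C) - Real.negMulLog B := e2
  rw [e3] at e1
  exact e1

end Vale.Agent.P358
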