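import Vale.Agent.P358.GDefs

/-!
# P358, general `ν`, piece N6e: the functions `gpsi`, `gphi`
-/

open Matrix Finset MeasureTheory Set
open scoped BigOperators ComplexOrder MatrixOrder Topology

namespace Vale.Agent.P358

namespace GPsi

theorem integrable_sq {a : ℝ} (ha : 0 < a) :
    IntegrableOn (fun t : ℝ => 1 / (t + a) ^ 2) (Ioi 0) := by
  have h := integrableOn_add_rpow_Ioi_of_lt (a := -2) (c := 0) (m := a) (by norm_num) (by linarith)
  refine h.congr_fun (fun t ht => ?_) measurableSet_Ioi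
  have ht' : (0 : ℝ) < t := ht
  show (t + a) ^ (-2 : ℝ) = 1 / (t + a) ^ 2
  rw [Real.rpow_neg (by positivity), one_div]
  congr 1
  exact_mod_cast Real.rpow_natCast (t + a) 2

theorem one_le_gn {x y B C r : ℝ} (hx : 0 ≤ x) (hy : 0 ≤ y) (hB : 0 ≤ B) (hC : 0 ≤ C)
    (hr : 0 ≤ r) : 1 ≤ gn x y B C r := by
  unfold gn
  have h1 : 0 ≤ x * r / (1 + B * r) := by positivity
  have h2 : 0 ≤ y * r / (1 + C * r) := by positivity
  linarith

theorem gen_integrable {x y B C u D : ℝ} (hx : 0 ≤ x) (hy : 0 ≤ y) (hB : 0 ≤ B) (hC : 0 ≤ C)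
    (hD : 0 < D) (hu : 0 < u) :
    IntegrableOn (fun t : ℝ => 1 / ((t + D * u) ^ 2 * gn x y B C (u / t))) (Ioi 0) := by
  refine Integrable.mono' (integrable_sq (mul_pos hD hu)) ?_ ?_
  · refine Measurable.aestronglyMeasurable ?_
    unfold gn
    fun_prop
  · refine (ae_restrict_mem measurableSet_Ioi).mono fun t ht => ?_
    have ht' : (0 : ℝ) < t := ht
    have h1 := one_le_gn (r := u / t) hx hy hB hC (by positivity)
    have h2 : 0 < (t + D * u) ^ 2 := by positivity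
    rw [Real.norm_of_nonneg (by positivity)]
    apply one_div_le_one_div_of_le h2
    nlinarith

theorem gen_integral {x y B C u D : ℝ} (hu : 0 < u) :
    ∫ t in Ioi (0 : ℝ), 1 / ((t + D * u) ^ 2 * gn x y B C (u / t)) =
      (1 / u) * ∫ t in Ioi (0 : ℝ), 1 / ((t + D * 1) ^ 2 * gn x y B C (1 / t)) := by
  have h := MeasureTheory.integral_comp_mul_left_Ioi
    (fun t : ℝ => 1 / ((t + D * u) ^ 2 * gn x y B C (u / t))) 0 hu
  rw [mul_zero, smul_eq_mul] at h
  have e1 : ∀ t ∈ Ioi (0 : ℝ), 1 / ((u * t + D * u) ^ 2 * gn x y B C (u / (u * t))) =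
      (1 / u ^ 2) * (1 / ((t + D * 1) ^ 2 * gn x y B C (1 / t))) := by
    intro t ht
    have ht' : (0 : ℝ) < t := ht
    have h1 : u / (u * t) = 1 / t := by
      field_simp
    have h2 : u * t + D * u = u * (t + D * 1) := by ring
    rw [h1, h2, mul_pow, mul_assoc, one_div_mul_one_div]
  rw [setIntegral_congr_fun measurableSet_Ioi e1, integral_const_mul] at h
  have h3 : ∫ t in Ioi (0 : ℝ), 1 / ((t + D * u) ^ 2 * gn x y B C (u / t)) =
      u * ((1 / u ^ 2) * ∫ t in Ioi (0 : ℝ), 1 / ((t + D * 1) ^ 2 * gn x y B C (1 / t))) := by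
    rw [h, ← mul_assoc, mul_inv_cancel₀ hu.ne', one_mul]
  rw [h3, ← mul_assoc]
  congr 1
  field_simp

end GPsi

open GPsi

set_option linter.unusedVariables false

/-- N6e -/
theorem gpsi_integrable {x y B C u : ℝ} (hx : 0 ≤ x) (hy : 0 ≤ y) (hB : 0 < B) (hC : 0 ≤ C)
    (hu : 0 < u) : IntegrableOn (gpsi x y B C u) (Ioi 0) :=
  gen_integrable hx hy hB.le hC hB hu

theorem gpsi_integral {x y B C u : ℝ} (hx : 0 ≤ x) (hy : 0 ≤ y) (hB : 0 < B) (hC : 0 ≤ C)
    (hu : 0 < u) : ∫ t in Ioi (0 : ℝ), gpsi x y B C u t =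
      (1 / u) * ∫ t in Ioi (0 : ℝ), gpsi x y B C 1 t :=
  gen_integral hu

theorem gphi_integrable {x y B C u : ℝ} (hx : 0 ≤ x) (hy : 0 ≤ y) (hB : 0 ≤ B) (hC : 0 < C)
    (hu : 0 < u) : IntegrableOn (gphi x y B C u) (Ioi 0) :=
  gen_integrable hx hy hB hC.le hC hu

theorem gphi_integral {x y B C u : ℝ} (hx : 0 ≤ x) (hy : 0 ≤ y) (hB : 0 ≤ B) (hC : 0 < C)
    (hu : 0 < u) : ∫ t in Ioi (0 : ℝ), gphi x y B C u t =
      (1 / u) * ∫ t in Ioi (0 : ℝ), gphi x y B C 1 t :=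
  gen_integral hu

end Vale.Agent.P358
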