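import Vale.Agent.P358.GIntA
import Vale.Agent.P358.GIntB
import Vale.Agent.P358.GIntC
import Vale.Agent.P358.GPsi
import Vale.Agent.P358.GIdent

/-!
# P358, general `ν`: N6h, N6i
-/

open Matrix Finset MeasureTheory Set
open scoped BigOperators ComplexOrder MatrixOrder

namespace Vale.Agent.P358

/-- `ψ`-term, integrable also for `B = 0` -/
lemma xB_gpsi_integrable {x y B C : ℝ} (hx : 0 ≤ x) (hy : 0 ≤ y) (hB : 0 ≤ B) (hC : 0 ≤ C) :
    IntegrableOn (fun t : ℝ => x * B * gpsi x y B C 1 t) (Ioi 0) := by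
  rcases hB.eq_or_lt with h | h
  · simp [← h]
  · exact (gpsi_integrable hx hy h hC one_pos).const_mul _

lemma yC_gphi_integrable {x y B C : ℝ} (hx : 0 ≤ x) (hy : 0 ≤ y) (hB : 0 ≤ B) (hC : 0 ≤ C) :
    IntegrableOn (fun t : ℝ => y * C * gphi x y B C 1 t) (Ioi 0) := by
  rcases hC.eq_or_lt with h | h
  · simp [← h]
  · exact (gphi_integrable hx hy hB h one_pos).const_mul _

lemma gfX_pointwise {x y B C t : ℝ} (hx : 0 < x) (hy : 0 < y) (hB : 0 ≤ B) (hC : 0 ≤ C)
    (ht : 0 < t) :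
    gfX x y B C (1 / t) - x * Real.log (1 + 1 / t)
      = (Real.log (gn x y B C (1 / t)) - (x + y) * Real.log (1 + 1 / t))
        - (gfY x y B C (1 / t) - y * Real.log (1 + 1 / t))
        - (1 / t) * gD x y B C (1 / t) + x * B * gpsi x y B C 1 t + y * C * gphi x y B C 1 t := by
  have h := g_identity hx hy hB hC ht
  linarith

/-- N6h -/
theorem gfX_integrable {x y B C : ℝ} (hx : 0 < x) (hy : 0 < y) (hC : 0 ≤ C) (hBC : C ≤ B) :
    IntegrableOn (fun t : ℝ => gfX x y B C (1 / t) - x * Real.log (1 + 1 / t)) (Ioi 0) := by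
  have hB : 0 ≤ B := hC.trans hBC
  have h1 : IntegrableOn (fun t : ℝ =>
      (Real.log (gn x y B C (1 / t)) - (x + y) * Real.log (1 + 1 / t))
        - (gfY x y B C (1 / t) - y * Real.log (1 + 1 / t))
        - (1 / t) * gD x y B C (1 / t) + x * B * gpsi x y B C 1 t + y * C * gphi x y B C 1 t)
      (Ioi 0) :=
    ((((gn_integrable hx.le hy.le hB hC).sub (gfY_integrable hx hy hB hC)).sub
      (gD_integrable hx hy hC hBC)).add (xB_gpsi_integrable hx.le hy.le hB hC)).add
      (yC_gphi_integrable hx.le hy.le hB hC)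
  exact h1.congr_fun (fun t ht => (gfX_pointwise hx hy hB hC ht).symm) measurableSet_Ioi

/-- N6i -/
theorem g_integral_sum {x y B C : ℝ} (hx : 0 < x) (hy : 0 < y) (hC : 0 ≤ C) (hBC : C ≤ B) :
    (∫ t in Ioi (0 : ℝ), (gfX x y B C (1 / t) - x * Real.log (1 + 1 / t)))
      + (∫ t in Ioi (0 : ℝ), (gfY x y B C (1 / t) - y * Real.log (1 + 1 / t)))
      + (∫ t in Ioi (0 : ℝ), (1 / t) * gD x y B C (1 / t))
      - x * B * (∫ t in Ioi (0 : ℝ), gpsi x y B C 1 t)
      - y * C * (∫ t in Ioi (0 : ℝ), gphi x y B C 1 t)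
      = ∫ t in Ioi (0 : ℝ), (Real.log (gn x y B C (1 / t)) - (x + y) * Real.log (1 + 1 / t)) := by
  have hB : 0 ≤ B := hC.trans hBC
  have A1 := gn_integrable hx.le hy.le hB hC
  have A2 := gfY_integrable hx hy hB hC
  have A3 := gD_integrable hx hy hC hBC
  have A4 := xB_gpsi_integrable hx.le hy.le hB hC
  have A5 := yC_gphi_integrable hx.le hy.le hB hC
  have h1 : ∫ t in Ioi (0 : ℝ), (gfX x y B C (1 / t) - x * Real.log (1 + 1 / t))
      = ∫ t in Ioi (0 : ℝ), ((Real.log (gn x y B C (1 / t)) - (x + y) * Real.log (1 + 1 / t))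
        - (gfY x y B C (1 / t) - y * Real.log (1 + 1 / t))
        - (1 / t) * gD x y B C (1 / t) + x * B * gpsi x y B C 1 t
        + y * C * gphi x y B C 1 t) :=
    setIntegral_congr_fun measurableSet_Ioi fun t ht => gfX_pointwise hx hy hB hC ht
  have B1 : IntegrableOn (fun t : ℝ =>
      (Real.log (gn x y B C (1 / t)) - (x + y) * Real.log (1 + 1 / t))
        - (gfY x y B C (1 / t) - y * Real.log (1 + 1 / t))) (Ioi 0) := A1.sub A2
  have B2 : IntegrableOn (fun t : ℝ =>
      (Real.log (gn x y B C (1 / t)) - (x + y) * Real.log (1 + 1 / t))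
        - (gfY x y B C (1 / t) - y * Real.log (1 + 1 / t))
        - (1 / t) * gD x y B C (1 / t)) (Ioi 0) := B1.sub A3
  have B3 : IntegrableOn (fun t : ℝ =>
      (Real.log (gn x y B C (1 / t)) - (x + y) * Real.log (1 + 1 / t))
        - (gfY x y B C (1 / t) - y * Real.log (1 + 1 / t))
        - (1 / t) * gD x y B C (1 / t) + x * B * gpsi x y B C 1 t) (Ioi 0) := B2.add A4
  rw [h1, integral_add B3 A5, integral_add B2 A4, integral_sub B1 A3, integral_sub A1 A2,
    integral_const_mul, integral_const_mul]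
  ring

end Vale.Agent.P358
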