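import Vale.Agent.P358.GDefs

/-!
# P358, general `ν`: the logarithmic (Golden–Thompson type) inequality (N2)

`∑ᵢⱼ |⟨vᵢ, uⱼ⟩|² log(aᵢ + bⱼ) ≤ log det (A + B)` for `A = V diag(a) V*`, `B = U diag(b) U*`.
The difference of the two sides with `A + s` in place of `A` is non-increasing in `s` and tends
to `0` at infinity.
-/

open Matrix Finset MeasureTheory Set
open scoped BigOperators ComplexOrder MatrixOrder

namespace Vale.Agent.P358

namespace GGTAux

variable {S : Type} [Fintype S] [DecidableEq S]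

omit [Fintype S] in
lemma dg_herm (a : S → ℝ) : (diagonal (fun i => (a i : ℂ)))ᴴ = diagonal (fun i => (a i : ℂ)) := by
  rw [Matrix.diagonal_conjTranspose]
  congr 1
  ext i
  simp

lemma comm_one {V : Matrix S S ℂ} (hV : V * Vᴴ = 1) : Vᴴ * V = 1 := mul_eq_one_comm.mp hV

lemma row_sum {V U : Matrix S S ℂ} (hV : V * Vᴴ = 1) (hU : U * Uᴴ = 1) (i : S) :
    ∑ j, Complex.normSq ((Vᴴ * U) i j) = 1 := by
  have h1 : (Vᴴ * U) * (Vᴴ * U)ᴴ = 1 := by
    rw [conjTranspose_mul, conjTranspose_conjTranspose, Matrix.mul_assoc, ← Matrix.mul_assoc U,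
      hU, Matrix.one_mul, comm_one hV]
  have h2 := congrFun (congrFun h1 i) i
  rw [Matrix.mul_apply, Matrix.one_apply_eq] at h2
  have h3 : ((∑ j, Complex.normSq ((Vᴴ * U) i j) : ℝ) : ℂ) = 1 := by
    rw [← h2, Complex.ofReal_sum]
    refine Finset.sum_congr rfl fun j _ => ?_
    rw [conjTranspose_apply, Complex.star_def, Complex.mul_conj]
  exact_mod_cast h3

/-- product in the same frame -/
lemma frame_mul {V : Matrix S S ℂ} (hV : V * Vᴴ = 1) (D E : Matrix S S ℂ) :
    V * D * Vᴴ * (V * E * Vᴴ) = V * (D * E) * Vᴴ := by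
  calc V * D * Vᴴ * (V * E * Vᴴ) = V * D * (Vᴴ * V) * E * Vᴴ := by simp only [Matrix.mul_assoc]
    _ = _ := by rw [comm_one hV, Matrix.mul_one]; simp only [Matrix.mul_assoc]

lemma trace_frame {V : Matrix S S ℂ} (hV : V * Vᴴ = 1) (D : Matrix S S ℂ) :
    (V * D * Vᴴ).trace = D.trace := by
  rw [Matrix.trace_mul_comm, ← Matrix.mul_assoc, comm_one hV, Matrix.one_mul]

lemma trace_frame' {V : Matrix S S ℂ} (hV : V * Vᴴ = 1) (D : Matrix S S ℂ) :
    (Vᴴ * D * V).trace = D.trace := by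
  rw [Matrix.trace_mul_comm, ← Matrix.mul_assoc, hV, Matrix.one_mul]

/-- `Tr z* diag(a) z` -/
lemma trace_left (z : Matrix S S ℂ) (a : S → ℝ) :
    (zᴴ * diagonal (fun i => (a i : ℂ)) * z).trace =
      ((∑ i, ∑ j, a i * Complex.normSq (z i j) : ℝ) : ℂ) := by
  rw [trace, Finset.sum_comm, Complex.ofReal_sum]
  refine Finset.sum_congr rfl fun j _ => ?_
  rw [diag_apply, Matrix.mul_apply, Complex.ofReal_sum]
  refine Finset.sum_congr rfl fun i _ => ?_
  rw [mul_diagonal, conjTranspose_apply, Complex.star_def, Complex.ofReal_mul, ← Complex.mul_conj]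
  ring

/-- `Tr z diag(b) z*` -/
lemma trace_right (z : Matrix S S ℂ) (b : S → ℝ) :
    (z * diagonal (fun i => (b i : ℂ)) * zᴴ).trace =
      ((∑ i, ∑ j, b j * Complex.normSq (z i j) : ℝ) : ℂ) := by
  rw [trace, Complex.ofReal_sum]
  refine Finset.sum_congr rfl fun i _ => ?_
  rw [diag_apply, Matrix.mul_apply, Complex.ofReal_sum]
  refine Finset.sum_congr rfl fun j _ => ?_
  rw [mul_diagonal, conjTranspose_apply, Complex.star_def, Complex.ofReal_mul, ← Complex.mul_conj]
  ring

omit [DecidableEq S] in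
/-- `Re Tr u* z` -/
lemma trace_mixed (u z : Matrix S S ℂ) :
    ((uᴴ * z).trace).re =
      ∑ i, ∑ j, ((u i j).re * (z i j).re + (u i j).im * (z i j).im) := by
  rw [trace, Finset.sum_comm, Complex.re_sum]
  refine Finset.sum_congr rfl fun j _ => ?_
  rw [diag_apply, Matrix.mul_apply, Complex.re_sum]
  refine Finset.sum_congr rfl fun i _ => ?_
  rw [conjTranspose_apply, Complex.star_def, Complex.mul_re, Complex.conj_re, Complex.conj_im]
  ring

lemma pointwise (c : ℝ) (hc : 0 < c) (u z : ℂ) :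
    2 * (u.re * z.re + u.im * z.im) - c * Complex.normSq z ≤ Complex.normSq u / c := by
  rw [le_div_iff₀ hc, Complex.normSq_apply, Complex.normSq_apply]
  nlinarith [sq_nonneg (c * z.re - u.re), sq_nonneg (c * z.im - u.im)]

/-- trace of the inverse against the double sum -/
lemma core {V U W : Matrix S S ℂ} (hV : V * Vᴴ = 1) (hU : U * Uᴴ = 1) (hW : W * Wᴴ = 1)
    (a b l : S → ℝ) (ha : ∀ i, 0 < a i) (hb : ∀ j, 0 < b j) (hl : ∀ k, 0 < l k)
    (hM : V * diagonal (fun i => (a i : ℂ)) * Vᴴ + U * diagonal (fun j => (b j : ℂ)) * Uᴴ =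
      W * diagonal (fun k => (l k : ℂ)) * Wᴴ) :
    ∑ k, 1 / l k ≤ ∑ i, ∑ j, Complex.normSq ((Vᴴ * U) i j) / (a i + b j) := by
  set Da := diagonal (fun i => (a i : ℂ)) with hDa
  set Db := diagonal (fun j => (b j : ℂ)) with hDb
  set Dl := diagonal (fun k => (l k : ℂ)) with hDl
  set Di := diagonal (fun k => (((1 / l k : ℝ)) : ℂ)) with hDi
  set Z := W * Di * Wᴴ with hZ
  have hDiDl : Di * Dl = 1 := by
    rw [hDi, hDl, diagonal_mul_diagonal, ← diagonal_one]
    congr 1
    ext k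
    have := (hl k).ne'
    rw [← Complex.ofReal_mul, one_div, inv_mul_cancel₀ this, Complex.ofReal_one]
  have hZM : Z * (W * Dl * Wᴴ) = 1 := by
    rw [hZ, frame_mul hW, hDiDl, Matrix.mul_one, hW]
  have hZH : Zᴴ = Z := by
    rw [hZ, conjTranspose_mul, conjTranspose_mul, conjTranspose_conjTranspose, hDi, dg_herm,
      Matrix.mul_assoc]
  have htr : (Z.trace).re = ∑ k, 1 / l k := by
    rw [hZ, trace_frame hW, hDi, Matrix.trace_diagonal, ← Complex.ofReal_sum, Complex.ofReal_re]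
  set z := Vᴴ * Z * U with hz
  have hzH : zᴴ = Uᴴ * Z * V := by
    rw [hz, conjTranspose_mul, conjTranspose_mul, conjTranspose_conjTranspose, hZH]
    exact (Matrix.mul_assoc _ _ _).symm
  have e1 : ((zᴴ * Da * z).trace) = (Z * (V * Da * Vᴴ) * Z).trace := by
    rw [hzH, hz, ← trace_frame' hU (Z * (V * Da * Vᴴ) * Z)]
    congr 1
    simp only [Matrix.mul_assoc]
  have e2 : ((z * Db * zᴴ).trace) = (Z * (U * Db * Uᴴ) * Z).trace := by
    rw [hzH, hz, ← trace_frame' hV (Z * (U * Db * Uᴴ) * Z)]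
    congr 1
    simp only [Matrix.mul_assoc]
  have e3 : (((Vᴴ * U)ᴴ * z).trace) = Z.trace := by
    rw [hz, ← trace_frame' hU Z, conjTranspose_mul, conjTranspose_conjTranspose]
    congr 1
    calc Uᴴ * V * (Vᴴ * Z * U) = Uᴴ * (V * Vᴴ) * Z * U := by simp only [Matrix.mul_assoc]
      _ = _ := by rw [hV, Matrix.mul_one]
  have e4 : (Z * (V * Da * Vᴴ) * Z).trace + (Z * (U * Db * Uᴴ) * Z).trace = Z.trace := by
    rw [← Matrix.trace_add, ← Matrix.add_mul, ← Matrix.mul_add, hM, hZM, Matrix.one_mul]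
  have f1 := congrArg Complex.re (e1.symm.trans (trace_left z a))
  have f2 := congrArg Complex.re (e2.symm.trans (trace_right z b))
  have f3 := (congrArg Complex.re e3).symm.trans (trace_mixed (Vᴴ * U) z)
  have f4 := congrArg Complex.re e4
  rw [Complex.add_re, f1, f2, Complex.ofReal_re, Complex.ofReal_re] at f4
  rw [← htr]
  have key : ∑ i, ∑ j, (2 * (((Vᴴ * U) i j).re * (z i j).re + ((Vᴴ * U) i j).im * (z i j).im) -
      (a i + b j) * Complex.normSq (z i j)) ≤
      ∑ i, ∑ j, Complex.normSq ((Vᴴ * U) i j) / (a i + b j) :=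
    Finset.sum_le_sum fun i _ => Finset.sum_le_sum fun j _ =>
      pointwise (a i + b j) (add_pos (ha i) (hb j)) _ _
  refine le_trans (le_of_eq ?_) key
  have g : ∑ i, ∑ j, (2 * (((Vᴴ * U) i j).re * (z i j).re + ((Vᴴ * U) i j).im * (z i j).im) -
      (a i + b j) * Complex.normSq (z i j)) =
      2 * ∑ i, ∑ j, (((Vᴴ * U) i j).re * (z i j).re + ((Vᴴ * U) i j).im * (z i j).im) -
      (∑ i, ∑ j, a i * Complex.normSq (z i j) + ∑ i, ∑ j, b j * Complex.normSq (z i j)) := by
    rw [Finset.mul_sum, ← Finset.sum_add_distrib, ← Finset.sum_sub_distrib]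
    refine Finset.sum_congr rfl fun i _ => ?_
    rw [Finset.mul_sum, ← Finset.sum_add_distrib, ← Finset.sum_sub_distrib]
    refine Finset.sum_congr rfl fun j _ => ?_
    ring
  rw [g, ← f3, f4]
  ring

/-- shifting a diagonalised matrix by a scalar -/
lemma shift {V : Matrix S S ℂ} (hV : V * Vᴴ = 1) (a : S → ℝ) (s : ℝ) :
    V * diagonal (fun i => ((a i + s : ℝ) : ℂ)) * Vᴴ =
      V * diagonal (fun i => (a i : ℂ)) * Vᴴ + (s : ℂ) • (1 : Matrix S S ℂ) := by
  have h : diagonal (fun i => ((a i + s : ℝ) : ℂ)) =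
      diagonal (fun i => (a i : ℂ)) + (s : ℂ) • (1 : Matrix S S ℂ) := by
    rw [← diagonal_one, ← diagonal_smul, diagonal_add]
    congr 1
    ext i
    simp
  rw [h, Matrix.mul_add, Matrix.add_mul, Matrix.mul_smul, Matrix.mul_one, Matrix.smul_mul, hV]

lemma core_s {V U W : Matrix S S ℂ} (hV : V * Vᴴ = 1) (hU : U * Uᴴ = 1) (hW : W * Wᴴ = 1)
    (a b l : S → ℝ) (ha : ∀ i, 0 < a i) (hb : ∀ j, 0 < b j) (hl : ∀ k, 0 < l k)
    (hM : V * diagonal (fun i => (a i : ℂ)) * Vᴴ + U * diagonal (fun j => (b j : ℂ)) * Uᴴ =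
      W * diagonal (fun k => (l k : ℂ)) * Wᴴ) (s : ℝ) (hs : 0 ≤ s) :
    ∑ k, 1 / (l k + s) ≤ ∑ i, ∑ j, Complex.normSq ((Vᴴ * U) i j) / (a i + b j + s) := by
  have h := core hV hU hW (fun i => a i + s) b (fun k => l k + s)
    (fun i => add_pos_of_pos_of_nonneg (ha i) hs) hb
    (fun k => add_pos_of_pos_of_nonneg (hl k) hs) (by
      rw [shift hV, shift hW, ← hM]
      abel)
  refine h.trans (le_of_eq ?_)
  refine Finset.sum_congr rfl fun i _ => Finset.sum_congr rfl fun j _ => ?_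
  congr 1
  ring

/-- the inequality for the eigenvalues -/
lemma log_le {V U W : Matrix S S ℂ} (hV : V * Vᴴ = 1) (hU : U * Uᴴ = 1) (hW : W * Wᴴ = 1)
    (a b l : S → ℝ) (ha : ∀ i, 0 < a i) (hb : ∀ j, 0 < b j) (hl : ∀ k, 0 < l k)
    (hM : V * diagonal (fun i => (a i : ℂ)) * Vᴴ + U * diagonal (fun j => (b j : ℂ)) * Uᴴ =
      W * diagonal (fun k => (l k : ℂ)) * Wᴴ) :
    ∑ i, ∑ j, Complex.normSq ((Vᴴ * U) i j) * Real.log (a i + b j) ≤ ∑ k, Real.log (l k) := by
  set w : S → S → ℝ := fun i j => Complex.normSq ((Vᴴ * U) i j) with hw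
  have hw0 : ∀ i j, 0 ≤ w i j := fun i j => Complex.normSq_nonneg _
  set φ : ℝ → ℝ := fun s => ∑ k, Real.log (l k + s) - ∑ i, ∑ j, w i j * Real.log (a i + b j + s)
    with hφ
  have hc : ∀ i j, 0 < a i + b j := fun i j => add_pos (ha i) (hb j)
  have hder : ∀ s : ℝ, 0 ≤ s → HasDerivAt φ (∑ k, 1 / (l k + s) -
      ∑ i, ∑ j, w i j / (a i + b j + s)) s := by
    intro s hs
    refine HasDerivAt.sub ?_ ?_
    · refine HasDerivAt.fun_sum fun k _ => ?_
      exact ((hasDerivAt_id s).const_add (l k)).log (by have := hl k; simp only [id]; linarith)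
    · refine HasDerivAt.fun_sum fun i _ => HasDerivAt.fun_sum fun j _ => ?_
      have h := (((hasDerivAt_id s).const_add (a i + b j)).log
        (by have := hc i j; simp only [id]; linarith)).const_mul (w i j)
      rwa [mul_one_div] at h
  have hanti : AntitoneOn φ (Set.Ici 0) := by
    refine antitoneOn_of_deriv_nonpos (convex_Ici 0) ?_ ?_ ?_
    · intro s hs
      exact (hder s hs).continuousAt.continuousWithinAt
    · intro s hs
      rw [interior_Ici] at hs
      exact (hder s (le_of_lt hs)).differentiableAt.differentiableWithinAt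
    · intro s hs
      rw [interior_Ici] at hs
      rw [(hder s (le_of_lt hs)).deriv, sub_nonpos]
      exact core_s hV hU hW a b l ha hb hl hM s (le_of_lt hs)
  set C : ℝ := ∑ i, ∑ j, w i j * (a i + b j) with hC
  have hC0 : 0 ≤ C := Finset.sum_nonneg fun i _ => Finset.sum_nonneg fun j _ =>
    mul_nonneg (hw0 i j) (hc i j).le
  have hlow : ∀ s : ℝ, 0 < s → -(C / s) ≤ φ s := by
    intro s hs
    have h1 : ∑ _k : S, Real.log s ≤ ∑ k, Real.log (l k + s) :=
      Finset.sum_le_sum fun k _ => Real.log_le_log hs (by have := hl k; linarith)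
    have h2 : ∑ i, ∑ j, w i j * Real.log (a i + b j + s) ≤
        ∑ i, ∑ j, (w i j * Real.log s + w i j * (a i + b j) / s) := by
      refine Finset.sum_le_sum fun i _ => Finset.sum_le_sum fun j _ => ?_
      have h3 : Real.log (a i + b j + s) ≤ Real.log s + (a i + b j) / s := by
        have h4 : a i + b j + s = s * (1 + (a i + b j) / s) := by
          field_simp
          ring
        have h5 : 0 < 1 + (a i + b j) / s := by
          have := div_pos (hc i j) hs
          linarith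
        rw [h4, Real.log_mul hs.ne' h5.ne']
        have := Real.log_le_sub_one_of_pos h5
        linarith
      calc w i j * Real.log (a i + b j + s) ≤ w i j * (Real.log s + (a i + b j) / s) :=
            mul_le_mul_of_nonneg_left h3 (hw0 i j)
        _ = _ := by ring
    have h6 : ∑ i, ∑ j, (w i j * Real.log s + w i j * (a i + b j) / s) =
        ∑ _k : S, Real.log s + C / s := by
      rw [hC, Finset.sum_div, ← Finset.sum_add_distrib]
      refine Finset.sum_congr rfl fun i _ => ?_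
      rw [Finset.sum_add_distrib, ← Finset.sum_mul, Finset.sum_div, hw]
      simp only
      rw [row_sum hV hU, one_mul]
    have h7 : φ s = ∑ k, Real.log (l k + s) - ∑ i, ∑ j, w i j * Real.log (a i + b j + s) := rfl
    linarith
  have h0 : 0 ≤ φ 0 := by
    by_contra hneg
    push Not at hneg
    set s : ℝ := (C + 1) / (-φ 0) with hs
    have hs0 : 0 < s := div_pos (by linarith) (by linarith)
    have h1 := hanti (Set.mem_Ici.mpr le_rfl) (Set.mem_Ici.mpr hs0.le) hs0.le
    have h2 := hlow s hs0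
    have h3 : C / s = C * (-φ 0) / (C + 1) := by
      rw [hs]
      field_simp
    have h4 : C * (-φ 0) / (C + 1) < -φ 0 := by
      rw [div_lt_iff₀ (by linarith)]
      nlinarith
    linarith
  have h8 : φ 0 = ∑ k, Real.log (l k) - ∑ i, ∑ j, w i j * Real.log (a i + b j) := by
    simp only [hφ, add_zero]
  linarith

end GGTAux

open GGTAux in
/-- **N2.** -/
theorem gt_log {S : Type} [Fintype S] [DecidableEq S] (V U : Matrix S S ℂ) (hV : V * Vᴴ = 1)
    (hU : U * Uᴴ = 1) (a b : S → ℝ) (ha : ∀ i, 0 < a i) (hb : ∀ j, 0 < b j) :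
    ∑ i, ∑ j, Complex.normSq ((Vᴴ * U) i j) * Real.log (a i + b j) ≤
      Real.log ((V * diagonal (fun i => (a i : ℂ)) * Vᴴ
        + U * diagonal (fun j => (b j : ℂ)) * Uᴴ).det.re) := by
  have hpd : ∀ (V : Matrix S S ℂ), V * Vᴴ = 1 → ∀ a : S → ℝ, (∀ i, 0 < a i) →
      (V * diagonal (fun i => (a i : ℂ)) * Vᴴ).PosDef := by
    intro V hV a ha
    have hD : (diagonal (fun i => (a i : ℂ))).PosDef :=
      Matrix.posDef_diagonal_iff.mpr fun i => Complex.zero_lt_real.mpr (ha i)
    refine hD.mul_mul_conjTranspose_same ?_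
    intro x y hxy
    have := congrArg (fun v => v ᵥ* Vᴴ) hxy
    simpa [Matrix.vecMul_vecMul, hV] using this
  have hMp : (V * diagonal (fun i => (a i : ℂ)) * Vᴴ
      + U * diagonal (fun j => (b j : ℂ)) * Uᴴ).PosDef := (hpd V hV a ha).add (hpd U hU b hb)
  set M := V * diagonal (fun i => (a i : ℂ)) * Vᴴ + U * diagonal (fun j => (b j : ℂ)) * Uᴴ with hM
  have hH : M.IsHermitian := hMp.1
  set W : Matrix S S ℂ := (hH.eigenvectorUnitary : Matrix S S ℂ) with hW
  have hWW : W * Wᴴ = 1 := by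
    rw [hW, ← star_eq_conjTranspose]
    exact Unitary.coe_mul_star_self _
  have hspec : M = W * diagonal (fun k => ((hH.eigenvalues k : ℝ) : ℂ)) * Wᴴ := by
    have h := hH.spectral_theorem
    rw [Unitary.conjStarAlgAut_apply] at h
    exact h
  have hl : ∀ k, 0 < hH.eigenvalues k := hMp.eigenvalues_pos
  have hdet : M.det.re = ∏ k, hH.eigenvalues k := by
    rw [hH.det_eq_prod_eigenvalues]
    have : (∏ i, ((hH.eigenvalues i : ℝ) : ℂ)) = ((∏ k, hH.eigenvalues k : ℝ) : ℂ) := by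
      push_cast
      rfl
    exact (congrArg Complex.re this).trans (Complex.ofReal_re _)
  rw [hdet, Real.log_prod (fun k _ => (hl k).ne')]
  exact log_le hV hU hWW a b hH.eigenvalues ha hb hl (hM ▸ hspec)

end Vale.Agent.P358
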