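import Vale.Agent.P358.GDet
import Vale.Agent.P358.GGT

/-!
# P358, general `ν`: the inequality at fixed `t` (N5b)
-/

open Matrix Finset MeasureTheory Set
open scoped BigOperators ComplexOrder MatrixOrder

namespace Vale.Agent.P358

namespace GPerAux

variable {R S : Type} [Fintype R] [DecidableEq R] [Fintype S] [DecidableEq S]

omit [Fintype S] in
/-- real diagonal matrices are Hermitian -/
lemma dg_herm (a : S → ℝ) : (diagonal (fun i => (a i : ℂ)))ᴴ = diagonal (fun i => (a i : ℂ)) := by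
  rw [Matrix.diagonal_conjTranspose]
  congr 1
  ext i
  simp

lemma comm_one {V : Matrix S S ℂ} (hV : V * Vᴴ = 1) : Vᴴ * V = 1 := mul_eq_one_comm.mp hV

lemma row_sum {V U : Matrix S S ℂ} (hV : V * Vᴴ = 1) (hU : U * Uᴴ = 1) (i : S) :
    ∑ j, Complex.normSq ((Vᴴ * U) i j) = 1 := by
  have h1 : (Vᴴ * U) * (Vᴴ * U)ᴴ = 1 := by
    rw [conjTranspose_mul, conjTranspose_conjTranspose, Matrix.mul_assoc, ← Matrix.mul_assoc U,
      hU, Matrix.one_mul, comm_one hV]
  have h2 := congrFun (congrFun h1 i) i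
  rw [Matrix.mul_apply, Matrix.one_apply_eq] at h2
  have h3 : ((∑ j, Complex.normSq ((Vᴴ * U) i j) : ℝ) : ℂ) = 1 := by
    rw [← h2, Complex.ofReal_sum]
    refine Finset.sum_congr rfl fun j _ => ?_
    rw [conjTranspose_apply, Complex.star_def, Complex.mul_conj]
  exact_mod_cast h3

lemma col_sum {V U : Matrix S S ℂ} (hV : V * Vᴴ = 1) (hU : U * Uᴴ = 1) (j : S) :
    ∑ i, Complex.normSq ((Vᴴ * U) i j) = 1 := by
  have h1 : (Vᴴ * U)ᴴ * (Vᴴ * U) = 1 := by
    rw [conjTranspose_mul, conjTranspose_conjTranspose, Matrix.mul_assoc, ← Matrix.mul_assoc V,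
      hV, Matrix.one_mul, comm_one hU]
  have h2 := congrFun (congrFun h1 j) j
  rw [Matrix.mul_apply, Matrix.one_apply_eq] at h2
  have h3 : ((∑ i, Complex.normSq ((Vᴴ * U) i j) : ℝ) : ℂ) = 1 := by
    rw [← h2, Complex.ofReal_sum]
    refine Finset.sum_congr rfl fun i _ => ?_
    rw [conjTranspose_apply, Complex.star_def, mul_comm, Complex.mul_conj]
  exact_mod_cast h3

/-- product in the same frame -/
lemma frame_mul {V : Matrix S S ℂ} (hV : V * Vᴴ = 1) (D E : Matrix S S ℂ) :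
    V * D * Vᴴ * (V * E * Vᴴ) = V * (D * E) * Vᴴ := by
  calc V * D * Vᴴ * (V * E * Vᴴ) = V * D * (Vᴴ * V) * E * Vᴴ := by simp only [Matrix.mul_assoc]
    _ = _ := by rw [comm_one hV, Matrix.mul_one]; simp only [Matrix.mul_assoc]

lemma trace_frame {V : Matrix S S ℂ} (hV : V * Vᴴ = 1) (D : Matrix S S ℂ) :
    (V * D * Vᴴ).trace = D.trace := by
  rw [Matrix.trace_mul_comm, ← Matrix.mul_assoc, comm_one hV, Matrix.one_mul]

lemma trace_cross (V U : Matrix S S ℂ) (a b : S → ℝ) :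
    (V * diagonal (fun i => (a i : ℂ)) * Vᴴ * (U * diagonal (fun j => (b j : ℂ)) * Uᴴ)).trace =
      ((∑ i, ∑ j, Complex.normSq ((Vᴴ * U) i j) * (a i * b j) : ℝ) : ℂ) := by
  set Da := diagonal (fun i => (a i : ℂ)) with hDa
  set Db := diagonal (fun j => (b j : ℂ)) with hDb
  have hS : (Vᴴ * U)ᴴ = Uᴴ * V := by rw [conjTranspose_mul, conjTranspose_conjTranspose]
  have e1 : (V * Da * Vᴴ * (U * Db * Uᴴ)).trace = (Da * (Vᴴ * U) * Db * (Vᴴ * U)ᴴ).trace := by
    calc (V * Da * Vᴴ * (U * Db * Uᴴ)).trace = (V * (Da * Vᴴ * (U * Db * Uᴴ))).trace := by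
          simp only [Matrix.mul_assoc]
      _ = (Da * Vᴴ * (U * Db * Uᴴ) * V).trace := Matrix.trace_mul_comm _ _
      _ = _ := by rw [hS]; simp only [Matrix.mul_assoc]
  rw [e1, trace, Complex.ofReal_sum]
  refine Finset.sum_congr rfl fun i _ => ?_
  rw [diag_apply, Matrix.mul_apply, Complex.ofReal_sum]
  refine Finset.sum_congr rfl fun j _ => ?_
  rw [hDa, hDb, mul_diagonal, diagonal_mul, conjTranspose_apply, Complex.star_def,
    Complex.ofReal_mul, Complex.ofReal_mul, ← Complex.mul_conj]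
  ring

/-- `Tr W* W` for a sum of two diagonalised matrices -/
lemma trace_sq {V U : Matrix S S ℂ} (hV : V * Vᴴ = 1) (hU : U * Uᴴ = 1) (a b : S → ℝ) :
    ((((V * diagonal (fun i => (a i : ℂ)) * Vᴴ + U * diagonal (fun j => (b j : ℂ)) * Uᴴ)ᴴ *
      (V * diagonal (fun i => (a i : ℂ)) * Vᴴ +
        U * diagonal (fun j => (b j : ℂ)) * Uᴴ))).trace).re =
      ∑ i, ∑ j, Complex.normSq ((Vᴴ * U) i j) * (a i + b j) ^ 2 := by
  set A := V * diagonal (fun i => (a i : ℂ)) * Vᴴ with hA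
  set B := U * diagonal (fun j => (b j : ℂ)) * Uᴴ with hB
  have hAH : Aᴴ = A := by
    rw [hA, conjTranspose_mul, conjTranspose_mul, conjTranspose_conjTranspose, dg_herm,
      Matrix.mul_assoc]
  have hBH : Bᴴ = B := by
    rw [hB, conjTranspose_mul, conjTranspose_mul, conjTranspose_conjTranspose, dg_herm,
      Matrix.mul_assoc]
  have e1 : ((A + B)ᴴ * (A + B)).trace = (A * A).trace + (B * B).trace + 2 * (A * B).trace := by
    rw [conjTranspose_add, hAH, hBH, Matrix.add_mul, Matrix.mul_add, Matrix.mul_add,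
      Matrix.trace_add, Matrix.trace_add, Matrix.trace_add, Matrix.trace_mul_comm B A]
    ring
  have e2 : (A * A).trace = ((∑ i, a i * a i : ℝ) : ℂ) := by
    rw [hA, frame_mul hV, trace_frame hV, diagonal_mul_diagonal, Matrix.trace_diagonal]
    push_cast
    rfl
  have e3 : (B * B).trace = ((∑ j, b j * b j : ℝ) : ℂ) := by
    rw [hB, frame_mul hU, trace_frame hU, diagonal_mul_diagonal, Matrix.trace_diagonal]
    push_cast
    rfl
  have e4 := trace_cross V U a b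
  rw [← hA, ← hB] at e4
  rw [e1, e2, e3, e4]
  have e5 : ∀ z : ℝ, (2 * (z : ℂ)).re = 2 * z := by
    intro z
    simp
  rw [Complex.add_re, Complex.add_re, e5, Complex.ofReal_re, Complex.ofReal_re]
  have r1 : ∑ i, a i * a i = ∑ i, ∑ j, Complex.normSq ((Vᴴ * U) i j) * (a i * a i) := by
    refine Finset.sum_congr rfl fun i _ => ?_
    rw [← Finset.sum_mul, row_sum hV hU, one_mul]
  have r2 : ∑ j, b j * b j = ∑ i, ∑ j, Complex.normSq ((Vᴴ * U) i j) * (b j * b j) := by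
    rw [Finset.sum_comm]
    refine Finset.sum_congr rfl fun j _ => ?_
    rw [← Finset.sum_mul, col_sum hV hU, one_mul]
  rw [r1, r2, Finset.mul_sum, ← Finset.sum_add_distrib, ← Finset.sum_add_distrib]
  refine Finset.sum_congr rfl fun i _ => ?_
  rw [Finset.mul_sum, ← Finset.sum_add_distrib, ← Finset.sum_add_distrib]
  refine Finset.sum_congr rfl fun j _ => ?_
  ring

omit [DecidableEq R] in
/-- `Tr Ψ* b Ψ` for `Ψ = P V D V*` -/
lemma trace_psi {V : Matrix S S ℂ} (hV : V * Vᴴ = 1) (P : Matrix R S ℂ) (b : Matrix R R ℂ)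
    (d : S → ℝ) :
    (((P * (V * diagonal (fun i => (d i : ℂ)) * Vᴴ))ᴴ * b *
      (P * (V * diagonal (fun i => (d i : ℂ)) * Vᴴ))).trace).re =
      ∑ i, d i ^ 2 * ((Vᴴ * (Pᴴ * b * P) * V) i i).re := by
  set D := diagonal (fun i => (d i : ℂ)) with hD
  have hDH : Dᴴ = D := dg_herm d
  have e1 : ((P * (V * D * Vᴴ))ᴴ * b * (P * (V * D * Vᴴ))).trace =
      (D * (Vᴴ * (Pᴴ * b * P) * V) * D).trace := by
    have h1 : (P * (V * D * Vᴴ))ᴴ * b * (P * (V * D * Vᴴ)) =
        V * (D * (Vᴴ * (Pᴴ * b * P) * V) * D) * Vᴴ := by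
      rw [conjTranspose_mul, conjTranspose_mul, conjTranspose_mul, conjTranspose_conjTranspose, hDH]
      simp only [Matrix.mul_assoc]
    rw [h1, trace_frame hV]
  rw [e1, trace, Complex.re_sum]
  refine Finset.sum_congr rfl fun i _ => ?_
  rw [diag_apply, hD, mul_diagonal, diagonal_mul]
  have : (d i : ℂ) * (Vᴴ * (Pᴴ * b * P) * V) i i * (d i : ℂ) =
      ((d i ^ 2 : ℝ) : ℂ) * (Vᴴ * (Pᴴ * b * P) * V) i i := by
    push_cast
    ring
  rw [this, Complex.re_ofReal_mul]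

lemma gn_pos {x y B C r : ℝ} (hx : 0 < x) (hy : 0 < y) (hB : 0 ≤ B) (hC : 0 ≤ C) (hr : 0 ≤ r) :
    1 ≤ gn x y B C r := by
  unfold gn
  have h1 : 0 ≤ x * r / (1 + B * r) := by positivity
  have h2 : 0 ≤ y * r / (1 + C * r) := by positivity
  linarith

lemma gN_pos {x y B C r : ℝ} (hx : 0 < x) (hy : 0 < y) (hB : 0 ≤ B) (hC : 0 ≤ C) (hr : 0 ≤ r) :
    0 < gN x y B C r := Real.sqrt_pos.2 (lt_of_lt_of_le one_pos (gn_pos hx hy hB hC hr))

lemma gN_sq {x y B C r : ℝ} (hx : 0 < x) (hy : 0 < y) (hB : 0 ≤ B) (hC : 0 ≤ C) (hr : 0 ≤ r) :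
    gN x y B C r ^ 2 = gn x y B C r :=
  Real.sq_sqrt (le_trans zero_le_one (gn_pos hx hy hB hC hr))

end GPerAux

open GPerAux

section
variable {R S : Type} [Fintype R] [DecidableEq R] [Fintype S] [DecidableEq S]

/-- N5b : the matrix part, with `W = V diag(1/2 - gp3(r_i)) V* + U diag(1/2 - gf3(r'_j)) U*`,
`Ψ = P V diag(1/(t(1+B r_i) N(r_i))) V*`, `Φ = Q U diag(1/(t (1+C r'_j) N(r'_j))) U*`,
`r_i = ξ i/(x t)`, `r'_j = υ j/(y t)`. Then
`Θ = V diag(1/2 + gp4(r_i)) V* + U diag(1/2 + gf4(r'_j)) U*`. -/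
theorem perT (P Q : Matrix R S ℂ) (Bh Ch : Matrix R R ℂ) (hBh : Bh.PosSemidef)
    (hCh : Ch.PosSemidef) {x y B C : ℝ} (hx : 0 < x) (hy : 0 < y) (hB : 0 ≤ B) (hC : 0 ≤ C)
    (V U : Matrix S S ℂ) (hV : V * Vᴴ = 1) (hU : U * Uᴴ = 1) (ξ υ : S → ℝ)
    (hξ : ∀ i, 0 ≤ ξ i) (hυ : ∀ i, 0 ≤ υ i)
    (hP : Pᴴ * P = V * diagonal (fun i => (ξ i : ℂ)) * Vᴴ)
    (hQ : Qᴴ * Q = U * diagonal (fun i => (υ i : ℂ)) * Uᴴ) {t : ℝ} (ht : 0 < t) :
    Real.log (((t : ℂ) • (1 : Matrix R R ℂ) + Bh).det.re)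
      + Real.log (((t : ℂ) • (1 : Matrix R R ℂ) + Ch).det.re)
      + ∑ i, ∑ j, Complex.normSq ((Vᴴ * U) i j) * gR x y B C (ξ i / (x * t)) (υ j / (y * t))
      - ∑ i, (gtX x y B C (ξ i / (x * t))
          + gpsi x y B C (ξ i / x) t * ((Vᴴ * (Pᴴ * Bh * P) * V) i i).re)
      - ∑ j, (gtY x y B C (υ j / (y * t))
          + gphi x y B C (υ j / y) t * ((Uᴴ * (Qᴴ * Ch * Q) * U) j j).re)
    ≤ Real.log (((t : ℂ) • (1 : Matrix (R ⊕ R) (R ⊕ R) ℂ)
        + Matrix.fromBlocks (P * Pᴴ + Bh) (P * Qᴴ) (Q * Pᴴ) (Q * Qᴴ + Ch)).det.re) := by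
  set b : Matrix R R ℂ := (t : ℂ) • (1 : Matrix R R ℂ) + Bh with hbdef
  set c : Matrix R R ℂ := (t : ℂ) • (1 : Matrix R R ℂ) + Ch with hcdef
  have ht1 : ((t : ℂ) • (1 : Matrix R R ℂ)).PosDef := by
    have : (0 : ℂ) < (t : ℂ) := by exact_mod_cast ht
    exact Matrix.PosDef.one.smul this
  have hb : b.PosDef := ht1.add_posSemidef hBh
  have hc : c.PosDef := ht1.add_posSemidef hCh
  set r : S → ℝ := fun i => ξ i / (x * t) with hr
  set s : S → ℝ := fun j => υ j / (y * t) with hs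
  have hr0 : ∀ i, 0 ≤ r i := fun i => div_nonneg (hξ i) (by positivity)
  have hs0 : ∀ j, 0 ≤ s j := fun j => div_nonneg (hυ j) (by positivity)
  have hξr : ∀ i, ξ i = x * t * r i := fun i => by simp only [hr]; field_simp
  have hυs : ∀ j, υ j = y * t * s j := fun j => by simp only [hs]; field_simp
  -- the frames
  set α : S → ℝ := fun i => 1 / 2 - gp3 x y B C (r i) with hα
  set β : S → ℝ := fun j => 1 / 2 - gf3 x y B C (s j) with hβ
  set d : S → ℝ := fun i => 1 / (t * (1 + B * r i) * gN x y B C (r i)) with hd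
  set e : S → ℝ := fun j => 1 / (t * (1 + C * s j) * gN x y B C (s j)) with he
  set a' : S → ℝ := fun i => 1 / 2 + gp4 x y B C (r i) with ha'
  set b' : S → ℝ := fun j => 1 / 2 + gf4 x y B C (s j) with hb'
  set W : Matrix S S ℂ := V * diagonal (fun i => (α i : ℂ)) * Vᴴ +
    U * diagonal (fun j => (β j : ℂ)) * Uᴴ with hW
  set Ψ : Matrix R S ℂ := P * (V * diagonal (fun i => (d i : ℂ)) * Vᴴ) with hΨ
  set Φ : Matrix R S ℂ := Q * (U * diagonal (fun j => (e j : ℂ)) * Uᴴ) with hΦ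
  have hNr : ∀ i, 0 < gN x y B C (r i) := fun i => gN_pos hx hy hB hC (hr0 i)
  have hNs : ∀ j, 0 < gN x y B C (s j) := fun j => gN_pos hx hy hB hC (hs0 j)
  have hBr : ∀ i, 0 < 1 + B * r i := fun i => by have := mul_nonneg hB (hr0 i); linarith
  have hCs : ∀ j, 0 < 1 + C * s j := fun j => by have := mul_nonneg hC (hs0 j); linarith
  have hPΨ : Pᴴ * Ψ = V * diagonal (fun i => ((ξ i * d i : ℝ) : ℂ)) * Vᴴ := by
    rw [hΨ, ← Matrix.mul_assoc, hP, frame_mul hV, diagonal_mul_diagonal]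
    congr 3
    funext i
    push_cast
    rfl
  have hQΦ : Qᴴ * Φ = U * diagonal (fun j => ((υ j * e j : ℝ) : ℂ)) * Uᴴ := by
    rw [hΦ, ← Matrix.mul_assoc, hQ, frame_mul hU, diagonal_mul_diagonal]
    congr 3
    funext i
    push_cast
    rfl
  have hΘ : W + Pᴴ * Ψ + Qᴴ * Φ = V * diagonal (fun i => (a' i : ℂ)) * Vᴴ +
      U * diagonal (fun j => (b' j : ℂ)) * Uᴴ := by
    have e1 : ∀ i, a' i = α i + ξ i * d i := by
      intro i
      simp only [ha', hα, hd, hξr i]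
      unfold gp4 gp3
      have h1 := hNr i
      have h2 := hBr i
      have h3 : (0 : ℝ) < gN x y B C (r i) + 1 := by linarith
      field_simp
      ring
    have e2 : ∀ j, b' j = β j + υ j * e j := by
      intro j
      simp only [hb', hβ, he, hυs j]
      unfold gf4 gf3
      have h1 := hNs j
      have h2 := hCs j
      have h3 : (0 : ℝ) < gN x y B C (s j) + 1 := by linarith
      field_simp
      ring
    have e3 : diagonal (fun i => (a' i : ℂ)) =
        diagonal (fun i => (α i : ℂ)) + diagonal (fun i => ((ξ i * d i : ℝ) : ℂ)) := by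
      rw [diagonal_add]
      congr 1
      funext i
      rw [e1 i]
      push_cast
      rfl
    have e4 : diagonal (fun j => (b' j : ℂ)) =
        diagonal (fun j => (β j : ℂ)) + diagonal (fun j => ((υ j * e j : ℝ) : ℂ)) := by
      rw [diagonal_add]
      congr 1
      funext i
      rw [e2 i]
      push_cast
      rfl
    rw [hPΨ, hQΦ, e3, e4, hW]
    simp only [Matrix.mul_add, Matrix.add_mul]
    abel
  have hp4 : ∀ i, 0 ≤ gp4 x y B C (r i) := fun i => by
    unfold gp4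
    have h1 := hNr i
    have h2 := hBr i
    have h3 := hr0 i
    positivity
  have hf4 : ∀ j, 0 ≤ gf4 x y B C (s j) := fun j => by
    unfold gf4
    have h1 := hNs j
    have h2 := hCs j
    have h3 := hs0 j
    positivity
  have ha0 : ∀ i, 0 < a' i := fun i => by
    have := hp4 i
    simp only [ha']
    linarith
  have hb0 : ∀ j, 0 < b' j := fun j => by
    have := hf4 j
    simp only [hb']
    linarith
  -- positivity of Theta
  have hpsd : ∀ (V : Matrix S S ℂ) (hV : V * Vᴴ = 1) (f : S → ℝ), (∀ i, 0 < f i) →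
      (V * diagonal (fun i => (f i : ℂ)) * Vᴴ).PosDef := by
    intro V hV f hf
    have h1 : (diagonal (fun i => (f i : ℂ))).PosDef :=
      Matrix.PosDef.diagonal (fun i => by exact_mod_cast hf i)
    have hVu : IsUnit V := ⟨⟨V, Vᴴ, hV, comm_one hV⟩, rfl⟩
    exact h1.mul_mul_conjTranspose_same (Matrix.vecMul_injective_of_isUnit hVu)
  set Θ : Matrix S S ℂ := V * diagonal (fun i => (a' i : ℂ)) * Vᴴ +
      U * diagonal (fun j => (b' j : ℂ)) * Uᴴ with hΘdef
  have hΘp : Θ.PosDef := (hpsd V hV a' ha0).add_posSemidef (hpsd U hU b' hb0).posSemidef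
  have hdetpos : 0 < Θ.det.re := PosDef.re_det_pos hΘp
  have hdetne : Θ.det ≠ 0 := hΘp.det_pos.ne'
  have hG := logdet_G1 P Q b c hb hc W Ψ Φ (by rw [hΘ]; exact hdetne)
  rw [hΘ] at hG
  have hnsq : Real.log (Complex.normSq Θ.det) = 2 * Real.log Θ.det.re := by
    rw [PosDef.det_eq_re hΘp, Complex.normSq_ofReal]
    simp only [Complex.ofReal_re]
    rw [Real.log_mul hdetpos.ne' hdetpos.ne']
    ring
  have hgt := gt_log V U hV hU a' b' ha0 hb0
  rw [← hΘdef] at hgt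
  -- blocks
  have hblk : (t : ℂ) • (1 : Matrix (R ⊕ R) (R ⊕ R) ℂ)
        + Matrix.fromBlocks (P * Pᴴ + Bh) (P * Qᴴ) (Q * Pᴴ) (Q * Qᴴ + Ch) =
      Matrix.fromBlocks (b + P * Pᴴ) (P * Qᴴ) (Q * Pᴴ) (c + Q * Qᴴ) := by
    rw [← Matrix.fromBlocks_one, Matrix.fromBlocks_smul, Matrix.fromBlocks_add, hbdef, hcdef]
    simp only [smul_zero, zero_add]
    congr 1
    · abel
    · abel
  rw [hblk, logdet_blocks P Q b c hb hc]
  -- the trace terms
  have hcard : (Fintype.card S : ℝ) = ∑ i, ∑ j, Complex.normSq ((Vᴴ * U) i j) * 1 := by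
    simp only [mul_one, row_sum hV hU]
    simp
  have hWW := trace_sq hV hU α β
  rw [← hW] at hWW
  have hΨt := trace_psi hV P b d
  rw [← hΨ] at hΨt
  have hΦt := trace_psi hU Q c e
  rw [← hΦ] at hΦt
  have hdiag : ∀ (V : Matrix S S ℂ) (hV : V * Vᴴ = 1) (P : Matrix R S ℂ) (ξ : S → ℝ)
      (hP : Pᴴ * P = V * diagonal (fun i => (ξ i : ℂ)) * Vᴴ) (Bh : Matrix R R ℂ) (i : S),
      ((Vᴴ * (Pᴴ * ((t : ℂ) • (1 : Matrix R R ℂ) + Bh) * P) * V) i i).re =
        t * ξ i + ((Vᴴ * (Pᴴ * Bh * P) * V) i i).re := by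
    intro V hV P ξ hP Bh i
    have h1 : Vᴴ * (Pᴴ * ((t : ℂ) • (1 : Matrix R R ℂ) + Bh) * P) * V =
        (t : ℂ) • (Vᴴ * (Pᴴ * P) * V) + Vᴴ * (Pᴴ * Bh * P) * V := by
      simp only [Matrix.mul_add, Matrix.add_mul, Matrix.mul_smul, Matrix.smul_mul, Matrix.mul_one]
    have h2 : Vᴴ * (Pᴴ * P) * V = diagonal (fun i => (ξ i : ℂ)) := by
      rw [hP]
      calc Vᴴ * (V * diagonal (fun i => (ξ i : ℂ)) * Vᴴ) * V
          = (Vᴴ * V) * diagonal (fun i => (ξ i : ℂ)) * (Vᴴ * V) := by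
            simp only [Matrix.mul_assoc]
        _ = _ := by rw [comm_one hV, Matrix.one_mul, Matrix.mul_one]
    rw [h1, h2, Matrix.add_apply, Matrix.smul_apply, diagonal_apply_eq, Complex.add_re,
      smul_eq_mul, ← Complex.ofReal_mul, Complex.ofReal_re]
  have hX : ((Ψᴴ * b * Ψ).trace).re = ∑ i, (gtX x y B C (ξ i / (x * t))
          + gpsi x y B C (ξ i / x) t * ((Vᴴ * (Pᴴ * Bh * P) * V) i i).re) := by
    rw [hΨt]
    refine Finset.sum_congr rfl fun i _ => ?_
    rw [hbdef, hdiag V hV P ξ hP Bh i]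
    have h1 := hNr i
    have h2 := hBr i
    have h4 := gN_sq hx hy hB hC (hr0 i)
    have h5 : 0 < gn x y B C (r i) := lt_of_lt_of_le one_pos (gn_pos hx hy hB hC (hr0 i))
    have hd2 : d i ^ 2 = 1 / ((t * (1 + B * r i)) ^ 2 * gn x y B C (r i)) := by
      simp only [hd]
      rw [div_pow, one_pow, mul_pow, h4]
    have e1 : gtX x y B C (ξ i / (x * t)) = d i ^ 2 * (t * ξ i) := by
      change gtX x y B C (r i) = _
      rw [hd2, hξr i]
      unfold gtX
      field_simp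
    have e2 : gpsi x y B C (ξ i / x) t = d i ^ 2 := by
      rw [hd2]
      unfold gpsi
      have e3 : ξ i / x / t = r i := by simp only [hr]; rw [div_div]
      have e4 : t + B * (ξ i / x) = t * (1 + B * r i) := by
        simp only [hr]
        field_simp
      rw [e3, e4]
    rw [e1, e2]
    ring
  have hY : ((Φᴴ * c * Φ).trace).re = ∑ j, (gtY x y B C (υ j / (y * t))
          + gphi x y B C (υ j / y) t * ((Uᴴ * (Qᴴ * Ch * Q) * U) j j).re) := by
    rw [hΦt]
    refine Finset.sum_congr rfl fun i _ => ?_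
    rw [hcdef, hdiag U hU Q υ hQ Ch i]
    have h1 := hNs i
    have h2 := hCs i
    have h4 := gN_sq hx hy hB hC (hs0 i)
    have h5 : 0 < gn x y B C (s i) := lt_of_lt_of_le one_pos (gn_pos hx hy hB hC (hs0 i))
    have hd2 : e i ^ 2 = 1 / ((t * (1 + C * s i)) ^ 2 * gn x y B C (s i)) := by
      simp only [he]
      rw [div_pow, one_pow, mul_pow, h4]
    have e1 : gtY x y B C (υ i / (y * t)) = e i ^ 2 * (t * υ i) := by
      change gtY x y B C (s i) = _
      rw [hd2, hυs i]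
      unfold gtY
      field_simp
    have e2 : gphi x y B C (υ i / y) t = e i ^ 2 := by
      rw [hd2]
      unfold gphi
      have e3 : υ i / y / t = s i := by simp only [hs]; rw [div_div]
      have e4 : t + C * (υ i / y) = t * (1 + C * s i) := by
        simp only [hs]
        field_simp
      rw [e3, e4]
    rw [e1, e2]
    ring
  have hRsum : ∑ i, ∑ j, Complex.normSq ((Vᴴ * U) i j) * gR x y B C (ξ i / (x * t)) (υ j / (y * t))
      = (Fintype.card S : ℝ) + 2 * ∑ i, ∑ j, Complex.normSq ((Vᴴ * U) i j) *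
          Real.log (a' i + b' j) - ((Wᴴ * W).trace).re := by
    rw [hWW, hcard, Finset.mul_sum, ← Finset.sum_add_distrib, ← Finset.sum_sub_distrib]
    refine Finset.sum_congr rfl fun i _ => ?_
    rw [Finset.mul_sum, ← Finset.sum_add_distrib, ← Finset.sum_sub_distrib]
    refine Finset.sum_congr rfl fun j _ => ?_
    have e1 : a' i + b' j = 1 + gp4 x y B C (r i) + gf4 x y B C (s j) := by
      simp only [ha', hb']; ring
    have e2 : α i + β j = 1 - gp3 x y B C (r i) - gf3 x y B C (s j) := by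
      simp only [hα, hβ]; ring
    change _ * gR x y B C (r i) (s j) = _
    rw [e1, e2]
    unfold gR
    ring
  rw [hRsum, ← hX, ← hY]
  linarith

end

end Vale.Agent.P358
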