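import Vale.Agent.P358.GDefs
import Vale.Agent.P358.IntRep

/-!
# P358, general `ν`, piece N6d: scaling lemma
-/

open Matrix Finset MeasureTheory Set
open scoped BigOperators ComplexOrder MatrixOrder

namespace Vale.Agent.P358

/-- N6d scaling lemma -/
theorem scaling (F : ℝ → ℝ) (c u : ℝ) (hF0 : F 0 = 0) (hu : 0 ≤ u)
    (hF : IntegrableOn (fun t : ℝ => F (1 / t) - c * Real.log (1 + 1 / t)) (Ioi 0)) :
    IntegrableOn (fun t : ℝ => F (u / t) - u * c * Real.log (1 + 1 / t)) (Ioi 0) ∧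
    ∫ t in Ioi (0 : ℝ), (F (u / t) - u * c * Real.log (1 + 1 / t)) =
      u * (∫ t in Ioi (0 : ℝ), (F (1 / t) - c * Real.log (1 + 1 / t)))
        + c * Real.negMulLog u := by
  rcases hu.eq_or_lt with h0 | hpos
  · subst h0
    simp [hF0]
  · have hpos' : 0 < u⁻¹ := inv_pos.2 hpos
    have i1 : IntegrableOn (fun t : ℝ => F (1 / (u⁻¹ * t)) - c * Real.log (1 + 1 / (u⁻¹ * t)))
        (Ioi 0) := by
      have h := (integrableOn_Ioi_comp_mul_left_iff
        (fun t : ℝ => F (1 / t) - c * Real.log (1 + 1 / t)) 0 hpos').2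
      rw [mul_zero] at h
      exact h hF
    have e1 : ∫ t in Ioi (0 : ℝ), (F (1 / (u⁻¹ * t)) - c * Real.log (1 + 1 / (u⁻¹ * t))) =
        u * ∫ t in Ioi (0 : ℝ), (F (1 / t) - c * Real.log (1 + 1 / t)) := by
      have h := MeasureTheory.integral_comp_mul_left_Ioi
        (fun t : ℝ => F (1 / t) - c * Real.log (1 + 1 / t)) 0 hpos'
      rw [mul_zero, inv_inv, smul_eq_mul] at h
      exact h
    have i2 := (scal_integrable u hpos.le).const_mul c
    have e2 : ∫ t in Ioi (0 : ℝ), c * (Real.log (1 + u / t) - u * Real.log (1 + 1 / t)) =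
        c * Real.negMulLog u := by
      rw [integral_const_mul, scal_integral u hpos.le]
    have e3 : ∀ t ∈ Ioi (0 : ℝ), (F (1 / (u⁻¹ * t)) - c * Real.log (1 + 1 / (u⁻¹ * t))) +
        c * (Real.log (1 + u / t) - u * Real.log (1 + 1 / t)) =
        F (u / t) - u * c * Real.log (1 + 1 / t) := by
      intro t ht
      have ht' : (0 : ℝ) < t := ht
      have h1 : 1 / (u⁻¹ * t) = u / t := by
        field_simp
      rw [h1]
      ring
    have i3 : IntegrableOn (fun t : ℝ => (F (1 / (u⁻¹ * t)) - c * Real.log (1 + 1 / (u⁻¹ * t))) +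
        c * (Real.log (1 + u / t) - u * Real.log (1 + 1 / t))) (Ioi 0) := i1.add i2
    refine ⟨i3.congr_fun e3 measurableSet_Ioi, ?_⟩
    rw [← setIntegral_congr_fun measurableSet_Ioi e3, ← e1, ← e2]
    exact integral_add i1 i2

end Vale.Agent.P358
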