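import Vale.Agent.P358.EtaIneq

/-!
# P358, general `ν`, pieces N9a, N9b: superadditivity, block diagonal matrices
-/

open Matrix Finset
open scoped BigOperators ComplexOrder MatrixOrder

namespace Vale.Agent.P358

namespace GSupA

theorem mul_log_le {a p s : ℝ} (ha : 0 ≤ a) (hp : 0 < p) (hs : 0 < s) :
    Real.negMulLog a + a * Real.log s ≤ -(a * Real.log p) + (s * p - a) := by
  rcases ha.eq_or_lt with h0 | h0
  · subst h0
    simp
    positivity
  · have h1 : Real.log (s * p / a) ≤ s * p / a - 1 := Real.log_le_sub_one_of_pos (by positivity)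
    rw [Real.log_div (by positivity) h0.ne', Real.log_mul hs.ne' hp.ne'] at h1
    have h2 := mul_le_mul_of_nonneg_left h1 ha
    have h3 : a * (s * p / a - 1) = s * p - a := by
      field_simp
    rw [h3] at h2
    unfold Real.negMulLog
    linarith

theorem gibbs {a b p q : ℝ} (ha : 0 ≤ a) (hb : 0 ≤ b) (hp : 0 < p) (hq : 0 < q)
    (hpq : p + q = 1) :
    Real.negMulLog a + Real.negMulLog b - Real.negMulLog (a + b) ≤
      -(a * Real.log p) - b * Real.log q := by
  rcases (add_nonneg ha hb).eq_or_lt with h0 | h0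
  · have ha0 : a = 0 := by linarith
    have hb0 : b = 0 := by linarith
    subst ha0
    subst hb0
    simp
  · have h1 := mul_log_le ha hp h0
    have h2 := mul_log_le hb hq h0
    have h3 : Real.negMulLog (a + b) = -((a + b) * Real.log (a + b)) := by
      unfold Real.negMulLog
      ring
    rw [h3]
    have h4 : (a + b) * p + (a + b) * q = a + b := by
      rw [← mul_add, hpq, mul_one]
    linarith

theorem scalar {ι : Type} (s : Finset ι) (a b : ι → ℝ) (ha : ∀ i, 0 ≤ a i) (hb : ∀ i, 0 ≤ b i) :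
    ∑ i ∈ s, (Real.negMulLog (a i) + Real.negMulLog (b i) - Real.negMulLog (a i + b i)) ≤
      Real.negMulLog (∑ i ∈ s, a i) + Real.negMulLog (∑ i ∈ s, b i) -
        Real.negMulLog (∑ i ∈ s, a i + ∑ i ∈ s, b i) := by
  have hA : 0 ≤ ∑ i ∈ s, a i := Finset.sum_nonneg fun i _ => ha i
  have hB : 0 ≤ ∑ i ∈ s, b i := Finset.sum_nonneg fun i _ => hb i
  rcases hA.eq_or_lt with hA0 | hA0
  · have h := (Finset.sum_eq_zero_iff_of_nonneg fun i _ => ha i).1 hA0.symm
    rw [← hA0]
    simp only [Real.negMulLog_zero, zero_add, sub_self]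
    apply le_of_eq
    apply Finset.sum_eq_zero
    intro i hi
    rw [h i hi]
    simp
  · rcases hB.eq_or_lt with hB0 | hB0
    · have h := (Finset.sum_eq_zero_iff_of_nonneg fun i _ => hb i).1 hB0.symm
      rw [← hB0]
      simp only [Real.negMulLog_zero, add_zero, sub_self]
      apply le_of_eq
      apply Finset.sum_eq_zero
      intro i hi
      rw [h i hi]
      simp
    · obtain ⟨A, hAd⟩ : ∃ A, A = ∑ i ∈ s, a i := ⟨_, rfl⟩
      obtain ⟨B, hBd⟩ : ∃ B, B = ∑ i ∈ s, b i := ⟨_, rfl⟩
      rw [← hAd, ← hBd]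
      rw [← hAd] at hA0
      rw [← hBd] at hB0
      have hAB : 0 < A + B := by linarith
      calc ∑ i ∈ s, (Real.negMulLog (a i) + Real.negMulLog (b i) - Real.negMulLog (a i + b i))
          ≤ ∑ i ∈ s, (-(a i * Real.log (A / (A + B))) - b i * Real.log (B / (A + B))) := by
            apply Finset.sum_le_sum
            intro i _
            exact gibbs (ha i) (hb i) (by positivity) (by positivity) (by field_simp)
        _ = -(A * Real.log (A / (A + B))) - B * Real.log (B / (A + B)) := by
            rw [Finset.sum_sub_distrib, Finset.sum_neg_distrib, ← Finset.sum_mul,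
              ← Finset.sum_mul, ← hAd, ← hBd]
        _ = _ := by
            rw [Real.log_div hA0.ne' hAB.ne', Real.log_div hB0.ne' hAB.ne']
            unfold Real.negMulLog
            ring

end GSupA

variable {R : Type} [Fintype R] [DecidableEq R]

/-- N9a -/
theorem eta_superadd (M N : Matrix R R ℂ) (hM : M.PosSemidef) (hN : N.PosSemidef) :
    (eta M - Real.negMulLog (rtr M)) + (eta N - Real.negMulLog (rtr N)) ≤
      eta (M + N) - Real.negMulLog (rtr (M + N)) := by
  have hMN := hM.add hN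
  obtain ⟨U, hU, hU', h⟩ := exists_diagonalization (M + N) hMN.1
  have hVV : Uᴴ * Uᴴᴴ = 1 := by rw [conjTranspose_conjTranspose]; exact hU'
  have hM' : (Uᴴ * M * U).PosSemidef := by
    have := hM.conjTranspose_mul_mul_same U
    exact this
  have hN' : (Uᴴ * N * U).PosSemidef := by
    have := hN.conjTranspose_mul_mul_same U
    exact this
  have eM : eta (Uᴴ * M * U) = eta M := by
    have := eta_conj M Uᴴ hVV
    rwa [conjTranspose_conjTranspose] at this
  have eN : eta (Uᴴ * N * U) = eta N := by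
    have := eta_conj N Uᴴ hVV
    rwa [conjTranspose_conjTranspose] at this
  have tM : rtr (Uᴴ * M * U) = rtr M := by
    unfold rtr
    rw [Matrix.trace_mul_comm, ← mul_assoc, hU, one_mul]
  have tN : rtr (Uᴴ * N * U) = rtr N := by
    unfold rtr
    rw [Matrix.trace_mul_comm, ← mul_assoc, hU, one_mul]
  have hD : Uᴴ * M * U + Uᴴ * N * U = diagonal (fun i => (hMN.1.eigenvalues i : ℂ)) := by
    calc Uᴴ * M * U + Uᴴ * N * U = Uᴴ * (M + N) * U := by rw [mul_add, add_mul]
      _ = Uᴴ * (U * diagonal (fun i => (hMN.1.eigenvalues i : ℂ)) * Uᴴ) * U :=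
          congrArg (fun X => Uᴴ * X * U) h
      _ = (Uᴴ * U) * diagonal (fun i => (hMN.1.eigenvalues i : ℂ)) * (Uᴴ * U) := by
          simp only [mul_assoc]
      _ = _ := by rw [hU', one_mul, mul_one]
  have hd : ∀ i, hMN.1.eigenvalues i = ((Uᴴ * M * U) i i).re + ((Uᴴ * N * U) i i).re := by
    intro i
    have h1 := congrFun (congrFun hD i) i
    rw [Matrix.add_apply, diagonal_apply_eq] at h1
    rw [← Complex.add_re, h1, Complex.ofReal_re]
  have ha : ∀ i, 0 ≤ ((Uᴴ * M * U) i i).re := fun i => (Complex.le_def.mp (hM'.diag_nonneg)).1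
  have hb : ∀ i, 0 ≤ ((Uᴴ * N * U) i i).re := fun i => (Complex.le_def.mp (hN'.diag_nonneg)).1
  have k1 := eta_le_sum_diag _ hM'
  have k2 := eta_le_sum_diag _ hN'
  rw [eM] at k1
  rw [eN] at k2
  have k3 := GSupA.scalar univ (fun i => ((Uᴴ * M * U) i i).re) (fun i => ((Uᴴ * N * U) i i).re)
    ha hb
  rw [← rtr_eq_sum, ← rtr_eq_sum, tM, tN, Finset.sum_sub_distrib, Finset.sum_add_distrib] at k3
  have k4 : eta (M + N) = ∑ i, Real.negMulLog (((Uᴴ * M * U) i i).re + ((Uᴴ * N * U) i i).re) := by
    rw [eta_eq_sum_eigenvalues _ hMN.1]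
    exact Finset.sum_congr rfl fun i _ => by rw [hd i]
  have k5 : rtr (M + N) = rtr M + rtr N := by
    unfold rtr
    rw [Matrix.trace_add, Complex.add_re]
  rw [k4, k5]
  linarith

/-- N9b -/
theorem eta_fromBlocks_zero (M N : Matrix R R ℂ) (hM : M.IsHermitian) (hN : N.IsHermitian) :
    eta (Matrix.fromBlocks M 0 0 N) = eta M + eta N := by
  obtain ⟨U, hU, hU', h⟩ := exists_diagonalization M hM
  obtain ⟨V, hV, hV', h'⟩ := exists_diagonalization N hN
  have e1 : Matrix.fromBlocks U 0 0 V * (Matrix.fromBlocks U 0 0 V)ᴴ = 1 := by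
    rw [fromBlocks_conjTranspose, fromBlocks_multiply]
    simp [hU, hV, fromBlocks_one]
  have e2 : Matrix.fromBlocks M 0 0 N = Matrix.fromBlocks U 0 0 V *
      diagonal (fun i => ((Sum.elim hM.eigenvalues hN.eigenvalues i : ℝ) : ℂ)) *
        (Matrix.fromBlocks U 0 0 V)ᴴ := by
    have e3 : diagonal (fun i => ((Sum.elim hM.eigenvalues hN.eigenvalues i : ℝ) : ℂ)) =
        Matrix.fromBlocks (diagonal (fun i => (hM.eigenvalues i : ℂ))) 0 0
          (diagonal (fun i => (hN.eigenvalues i : ℂ))) := by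
      rw [fromBlocks_diagonal]
      congr 1
      funext i
      rcases i with i | i <;> rfl
    rw [e3, fromBlocks_conjTranspose, fromBlocks_multiply, fromBlocks_multiply]
    simp only [zero_mul, mul_zero, add_zero, zero_add, conjTranspose_zero]
    rw [← h, ← h']
  rw [eta_of_diagonalization _ _ e1 _ e2, eta_eq_sum_eigenvalues M hM,
    eta_eq_sum_eigenvalues N hN, Fintype.sum_sum_type]
  rfl

end Vale.Agent.P358
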