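import Vale.Agent.P358.GDefs

/-!
# P358, piece N9c
-/

open Matrix Finset MeasureTheory Set
open scoped BigOperators ComplexOrder MatrixOrder

namespace Vale.Agent.P358

section
variable {R S : Type} [Fintype R] [DecidableEq R] [Fintype S] [DecidableEq S]

/-- `∑_{x_i ≠ 0} y_i / x_i ≤ Tr Y` -/
lemma sum_div_le_sq (P : Matrix R S ℂ) (Q : Matrix R R ℂ) (V : Matrix S S ℂ) (x : S → ℝ) (hx : ∀ i, 0 ≤ x i)
    (hVP : Vᴴ * (Pᴴ * P) * V = diagonal (fun i => (x i : ℂ))) :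
    ∑ i, (if x i = 0 then 0 else ((Vᴴ * (Pᴴ * (Q * Qᴴ) * P) * V) i i).re / x i)
      ≤ rtr (Q * Qᴴ) := by
  set g : S → ℝ := fun i => if x i = 0 then 0 else 1 / Real.sqrt (x i) with hg
  set gd : Matrix S S ℂ := diagonal (fun i => ((g i : ℝ) : ℂ)) with hgd
  have hgdH : gdᴴ = gd := by
    rw [hgd, Matrix.diagonal_conjTranspose]; congr 1; ext i; simp
  set E : Matrix S S ℂ := diagonal (fun i => (((if x i = 0 then 0 else 1 : ℝ)) : ℂ)) with hE
  set G : Matrix R S ℂ := P * V * gd with hG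
  have hGG : Gᴴ * G = E := by
    have h1 : Gᴴ * G = gd * (Vᴴ * (Pᴴ * P) * V) * gd := by
      rw [hG, Matrix.conjTranspose_mul, Matrix.conjTranspose_mul, hgdH]
      simp only [Matrix.mul_assoc]
    rw [h1, hVP, hgd, Matrix.diagonal_mul_diagonal, Matrix.diagonal_mul_diagonal, hE]
    congr 1
    ext i
    rw [← Complex.ofReal_mul, ← Complex.ofReal_mul]
    congr 1
    simp only [hg]
    by_cases hi : x i = 0
    · simp [hi]
    · have hp : 0 < x i := lt_of_le_of_ne (hx i) (Ne.symm hi)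
      have := Real.mul_self_sqrt (hx i)
      have hs : 0 < Real.sqrt (x i) := Real.sqrt_pos.mpr hp
      simp only [hi, if_false]
      field_simp
      nlinarith
  have hGE : G * E = G := by
    rw [hG, Matrix.mul_assoc, hgd, hE, Matrix.diagonal_mul_diagonal]
    congr 2
    ext i
    rw [← Complex.ofReal_mul]
    congr 1
    simp only [hg]
    by_cases hi : x i = 0 <;> simp [hi]
  have hproj : (G * Gᴴ) * (G * Gᴴ) = G * Gᴴ := by
    rw [Matrix.mul_assoc, ← Matrix.mul_assoc Gᴴ, hGG, ← Matrix.mul_assoc, hGE]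
  have hpsd : ((1 : Matrix R R ℂ) - G * Gᴴ).PosSemidef := by
    have hH : ((1 : Matrix R R ℂ) - G * Gᴴ)ᴴ = 1 - G * Gᴴ :=
      Matrix.isHermitian_one.sub (Matrix.isHermitian_mul_conjTranspose_self G)
    have h1 : (1 : Matrix R R ℂ) - G * Gᴴ = ((1 : Matrix R R ℂ) - G * Gᴴ)ᴴ * (1 - G * Gᴴ) := by
      rw [hH, Matrix.sub_mul, Matrix.mul_sub, Matrix.mul_sub, Matrix.one_mul, Matrix.mul_one,
        Matrix.one_mul, hproj]
      simp
    rw [h1]
    exact Matrix.posSemidef_conjTranspose_mul_self _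
  have h2 : 0 ≤ ((Qᴴ * ((1 : Matrix R R ℂ) - G * Gᴴ) * Q).trace).re :=
    PosSemidef.re_trace_nonneg (hpsd.conjTranspose_mul_mul_same Q)
  have h3 : ((Qᴴ * ((1 : Matrix R R ℂ) - G * Gᴴ) * Q).trace).re
      = rtr (Q * Qᴴ) - ((gd * (Vᴴ * (Pᴴ * (Q * Qᴴ) * P) * V) * gd).trace).re := by
    rw [Matrix.mul_sub, Matrix.sub_mul, Matrix.trace_sub, Complex.sub_re, Matrix.mul_one,
      Matrix.trace_mul_comm Qᴴ Q]
    congr 2
    have h4 : Qᴴ * (G * Gᴴ) * Q = (Qᴴ * G) * (Gᴴ * Q) := by simp only [Matrix.mul_assoc]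
    rw [h4, Matrix.trace_mul_comm]
    congr 1
    rw [hG, Matrix.conjTranspose_mul, Matrix.conjTranspose_mul, hgdH]
    simp only [Matrix.mul_assoc]
  rw [h3] at h2
  have h5 : ((gd * (Vᴴ * (Pᴴ * (Q * Qᴴ) * P) * V) * gd).trace).re
      = ∑ i, (if x i = 0 then 0 else ((Vᴴ * (Pᴴ * (Q * Qᴴ) * P) * V) i i).re / x i) := by
    rw [hgd, Matrix.trace, Complex.re_sum]
    apply Finset.sum_congr rfl
    intro i _
    rw [Matrix.diag_apply, Matrix.mul_diagonal, Matrix.diagonal_mul, mul_right_comm,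
      ← Complex.ofReal_mul, Complex.re_ofReal_mul]
    simp only [hg]
    by_cases hi : x i = 0
    · simp [hi]
    · have hp : 0 < x i := lt_of_le_of_ne (hx i) (Ne.symm hi)
      have := Real.mul_self_sqrt (hx i)
      simp only [hi, if_false]
      rw [div_mul_div_comm, this]
      ring
  rw [h5] at h2
  linarith

/-- N9c, generalization of `sum_div_le` -/
theorem sum_div_le_psd (P : Matrix R S ℂ) (Bh : Matrix R R ℂ) (hBh : Bh.PosSemidef)
    (V : Matrix S S ℂ) (x : S → ℝ) (hx : ∀ i, 0 ≤ x i)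
    (hVP : Vᴴ * (Pᴴ * P) * V = diagonal (fun i => (x i : ℂ))) :
    ∑ i, (if x i = 0 then 0 else ((Vᴴ * (Pᴴ * Bh * P) * V) i i).re / x i) ≤ rtr Bh := by
  have h0 : (CFC.sqrt Bh).PosSemidef := (CFC.sqrt_nonneg Bh).posSemidef
  have h2 : CFC.sqrt Bh * (CFC.sqrt Bh)ᴴ = Bh := by
    rw [h0.1]
    exact CFC.sqrt_mul_sqrt_self Bh hBh.nonneg
  have h3 := sum_div_le_sq P (CFC.sqrt Bh) V x hx hVP
  rwa [h2] at h3

end

end Vale.Agent.P358
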