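import Vale.Agent.P358.GEC4Aux
import Vale.Agent.P358.GIntH
import Vale.Agent.P358.GFrozF
import Vale.Agent.P358.GScal
import Vale.Agent.P358.GSupC
import Vale.Agent.P358.GPer
import Vale.Agent.P358.GSupA

/-!
# P358, general `ν`: the block entropy inequality EC4
-/

open Matrix Finset MeasureTheory Set
open scoped BigOperators ComplexOrder MatrixOrder

namespace Vale.Agent.P358

lemma gp4_zero (x y B C : ℝ) : gp4 x y B C 0 = 0 := by simp [gp4]
lemma gp3_zero (x y B C : ℝ) : gp3 x y B C 0 = 0 := by simp [gp3]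
lemma gf4_zero (x y B C : ℝ) : gf4 x y B C 0 = 0 := by simp [gf4]
lemma gf3_zero (x y B C : ℝ) : gf3 x y B C 0 = 0 := by simp [gf3]
lemma gn_zero (x y B C : ℝ) : gn x y B C 0 = 1 := by simp [gn]
lemma gD_zero (x y B C : ℝ) : gD x y B C 0 = 0 := by simp [gD, gp4_zero, gp3_zero]
lemma gS_zero (x y B C : ℝ) : gS x y B C 0 = 0 := by simp [gS, gf4_zero, gf3_zero]
lemma gtX_zero (x y B C : ℝ) : gtX x y B C 0 = 0 := by simp [gtX]
lemma gtY_zero (x y B C : ℝ) : gtY x y B C 0 = 0 := by simp [gtY]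
lemma gfX_zero (x y B C : ℝ) : gfX x y B C 0 = 0 := by
  simp [gfX, gn_zero, gS_zero, gtX_zero]
lemma gfY_zero (x y B C : ℝ) : gfY x y B C 0 = 0 := by
  simp [gfY, gS_zero, gtY_zero]

lemma gn_pos {x y B C r : ℝ} (hx : 0 ≤ x) (hy : 0 ≤ y) (hB : 0 ≤ B) (hC : 0 ≤ C) (hr : 0 ≤ r) :
    0 < gn x y B C r := by
  unfold gn; positivity

section
variable {R S : Type} [Fintype R] [DecidableEq R] [Fintype S] [DecidableEq S]

/-- per-`t` inequality after freezing -/
lemma perT_frozen (P Q : Matrix R S ℂ) (Bh Ch : Matrix R R ℂ) (hBh : Bh.PosSemidef)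
    (hCh : Ch.PosSemidef) {x y B C : ℝ} (hx : 0 < x) (hy : 0 < y) (hC : 0 ≤ C) (hBC : C ≤ B)
    (V U : Matrix S S ℂ) (hV : V * Vᴴ = 1) (hU : U * Uᴴ = 1) (ξ υ : S → ℝ)
    (hξ : ∀ i, 0 ≤ ξ i) (hυ : ∀ i, 0 ≤ υ i)
    (hP : Pᴴ * P = V * diagonal (fun i => (ξ i : ℂ)) * Vᴴ)
    (hQ : Qᴴ * Q = U * diagonal (fun i => (υ i : ℂ)) * Uᴴ) {t : ℝ} (ht : 0 < t) :
    Real.log (((t : ℂ) • (1 : Matrix R R ℂ) + Bh).det.re)
      + Real.log (((t : ℂ) • (1 : Matrix R R ℂ) + Ch).det.re)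
      + ∑ i, gfX x y B C (ξ i / x / t) + ∑ j, gfY x y B C (υ j / y / t)
      + ∑ i, ((Vᴴ * (Qᴴ * Q) * V) i i).re / y * ((1 / t) * gD x y B C (ξ i / x / t))
      - ∑ i, gpsi x y B C (ξ i / x) t * ((Vᴴ * (Pᴴ * Bh * P) * V) i i).re
      - ∑ j, gphi x y B C (υ j / y) t * ((Uᴴ * (Qᴴ * Ch * Q) * U) j j).re
    ≤ Real.log (((t : ℂ) • (1 : Matrix (R ⊕ R) (R ⊕ R) ℂ)
        + Matrix.fromBlocks (P * Pᴴ + Bh) (P * Qᴴ) (Q * Pᴴ) (Q * Qᴴ + Ch)).det.re) := by
  have hB : 0 ≤ B := hC.trans hBC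
  have hV' : Vᴴ * V = 1 := mul_eq_one_comm.mp hV
  have hU' : Uᴴ * U = 1 := mul_eq_one_comm.mp hU
  refine le_trans ?_ (perT P Q Bh Ch hBh hCh hx hy hB hC V U hV hU ξ υ hξ hυ hP hQ ht)
  set w : S → S → ℝ := fun i j => Complex.normSq ((Vᴴ * U) i j) with hw
  have hw0 : ∀ i j, 0 ≤ w i j := fun i j => Complex.normSq_nonneg _
  have hWu : (Vᴴ * U) * (Vᴴ * U)ᴴ = 1 := by
    rw [Matrix.conjTranspose_mul, Matrix.conjTranspose_conjTranspose, ← Matrix.mul_assoc,
      Matrix.mul_assoc Vᴴ U, hU, Matrix.mul_one, hV']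
  have hWu' : (Vᴴ * U)ᴴ * (Vᴴ * U) = 1 := mul_eq_one_comm.mp hWu
  have hrow : ∀ i, ∑ j, w i j = 1 := fun i => unitary_row_sum _ hWu i
  have hcol : ∀ j, ∑ i, w i j = 1 := fun j => unitary_col_sum _ hWu' j
  have hq : ∀ i, ((Vᴴ * (Qᴴ * Q) * V) i i).re = ∑ j, w i j * υ j := by
    intro i; rw [hQ]; exact mixed_diag V U υ i
  set ri : S → ℝ := fun i => ξ i / (x * t) with hri
  set rj : S → ℝ := fun j => υ j / (y * t) with hrj
  have eri : ∀ i, ξ i / x / t = ri i := fun i => by rw [div_div]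
  have erj : ∀ j, υ j / y / t = rj j := fun j => by rw [div_div]
  have hri0 : ∀ i, 0 ≤ ri i := fun i => div_nonneg (hξ i) (by positivity)
  have hrj0 : ∀ j, 0 ≤ rj j := fun j => div_nonneg (hυ j) (by positivity)
  have hfro : ∑ i, ∑ j, w i j * ((1 + Real.log (gn x y B C (ri i)) - 1 / gn x y B C (ri i))
      + gS x y B C (rj j) - gS x y B C (ri i) + (rj j - ri i) * gD x y B C (ri i))
      ≤ ∑ i, ∑ j, w i j * gR x y B C (ri i) (rj j) :=
    Finset.sum_le_sum fun i _ => Finset.sum_le_sum fun j _ =>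
      mul_le_mul_of_nonneg_left (frozen hx hy hC hBC (hri0 i) (hrj0 j)) (hw0 i j)
  have hexp : ∑ i, ∑ j, w i j * ((1 + Real.log (gn x y B C (ri i)) - 1 / gn x y B C (ri i))
      + gS x y B C (rj j) - gS x y B C (ri i) + (rj j - ri i) * gD x y B C (ri i))
      = ∑ i, ((1 + Real.log (gn x y B C (ri i)) - 1 / gn x y B C (ri i))
        - gS x y B C (ri i) - ri i * gD x y B C (ri i)) + ∑ j, gS x y B C (rj j)
        + ∑ i, ((Vᴴ * (Qᴴ * Q) * V) i i).re / y * ((1 / t) * gD x y B C (ri i)) := by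
    have h1 : ∀ i j, w i j * ((1 + Real.log (gn x y B C (ri i)) - 1 / gn x y B C (ri i))
        + gS x y B C (rj j) - gS x y B C (ri i) + (rj j - ri i) * gD x y B C (ri i))
        = w i j * ((1 + Real.log (gn x y B C (ri i)) - 1 / gn x y B C (ri i))
          - gS x y B C (ri i) - ri i * gD x y B C (ri i)) + w i j * gS x y B C (rj j)
          + (w i j * υ j) * (gD x y B C (ri i) / (y * t)) := by
      intro i j
      simp only [hrj]
      ring
    have h2 : ∑ i, ∑ j, w i j * ((1 + Real.log (gn x y B C (ri i)) - 1 / gn x y B C (ri i))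
          - gS x y B C (ri i) - ri i * gD x y B C (ri i))
        = ∑ i, ((1 + Real.log (gn x y B C (ri i)) - 1 / gn x y B C (ri i))
          - gS x y B C (ri i) - ri i * gD x y B C (ri i)) := by
      refine Finset.sum_congr rfl fun i _ => ?_
      rw [← Finset.sum_mul, hrow i, one_mul]
    have h3 : ∑ i, ∑ j, w i j * gS x y B C (rj j) = ∑ j, gS x y B C (rj j) := by
      rw [Finset.sum_comm]
      refine Finset.sum_congr rfl fun j _ => ?_
      rw [← Finset.sum_mul, hcol j, one_mul]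
    have h4 : ∑ i, ∑ j, (w i j * υ j) * (gD x y B C (ri i) / (y * t))
        = ∑ i, ((Vᴴ * (Qᴴ * Q) * V) i i).re / y * ((1 / t) * gD x y B C (ri i)) := by
      refine Finset.sum_congr rfl fun i _ => ?_
      rw [← Finset.sum_mul, ← hq i]
      ring
    rw [← h2, ← h3, ← h4, ← Finset.sum_add_distrib, ← Finset.sum_add_distrib]
    refine Finset.sum_congr rfl fun i _ => ?_
    rw [← Finset.sum_add_distrib, ← Finset.sum_add_distrib]
    exact Finset.sum_congr rfl fun j _ => h1 i j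
  rw [hexp] at hfro
  have e1 : ∑ i, gfX x y B C (ξ i / x / t)
      = ∑ i, ((1 + Real.log (gn x y B C (ri i)) - 1 / gn x y B C (ri i))
        - gS x y B C (ri i) - ri i * gD x y B C (ri i)) - ∑ i, gtX x y B C (ri i) := by
    rw [← Finset.sum_sub_distrib]
    refine Finset.sum_congr rfl fun i _ => ?_
    rw [eri i]; rfl
  have e2 : ∑ j, gfY x y B C (υ j / y / t)
      = ∑ j, gS x y B C (rj j) - ∑ j, gtY x y B C (rj j) := by
    rw [← Finset.sum_sub_distrib]
    refine Finset.sum_congr rfl fun j _ => ?_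
    rw [erj j]; rfl
  have e3 : ∑ i, ((Vᴴ * (Qᴴ * Q) * V) i i).re / y * ((1 / t) * gD x y B C (ξ i / x / t))
      = ∑ i, ((Vᴴ * (Qᴴ * Q) * V) i i).re / y * ((1 / t) * gD x y B C (ri i)) :=
    Finset.sum_congr rfl fun i _ => by rw [eri i]
  rw [e1, e2, e3, Finset.sum_add_distrib, Finset.sum_add_distrib]
  linarith

/-- N8a, case `C ≤ B`, `x, y > 0` -/
theorem ec4_pos' (P Q : Matrix R S ℂ) (Bh Ch : Matrix R R ℂ) (hBh : Bh.PosSemidef)
    (hCh : Ch.PosSemidef) (hBC : rtr Ch ≤ rtr Bh) (hx : 0 < rtr (P * Pᴴ))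
    (hy : 0 < rtr (Q * Qᴴ)) :
    eta Bh + eta Ch + (eta (P * Pᴴ) - Real.negMulLog (rtr (P * Pᴴ)))
      + (eta (Q * Qᴴ) - Real.negMulLog (rtr (Q * Qᴴ)))
      + (eta !![((rtr (P * Pᴴ) + rtr Bh : ℝ) : ℂ),
          ((Real.sqrt (rtr (P * Pᴴ) * rtr (Q * Qᴴ)) : ℝ) : ℂ);
          ((Real.sqrt (rtr (P * Pᴴ) * rtr (Q * Qᴴ)) : ℝ) : ℂ),
          ((rtr (Q * Qᴴ) + rtr Ch : ℝ) : ℂ)]
        - Real.negMulLog (rtr Bh) - Real.negMulLog (rtr Ch))
    ≤ eta (Matrix.fromBlocks (P * Pᴴ + Bh) (P * Qᴴ) (Q * Pᴴ) (Q * Qᴴ + Ch)) := by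
  set x := rtr (P * Pᴴ) with hxdef
  set y := rtr (Q * Qᴴ) with hydef
  set B := rtr Bh with hBdef
  set C := rtr Ch with hCdef
  have hC : 0 ≤ C := rtr_nonneg _ hCh
  have hB : 0 ≤ B := rtr_nonneg _ hBh
  have hPP := Matrix.posSemidef_conjTranspose_mul_self P
  have hQQ := Matrix.posSemidef_conjTranspose_mul_self Q
  obtain ⟨V, hV, hV', hP⟩ := exists_diagonalization (Pᴴ * P) hPP.1
  obtain ⟨U, hU, hU', hQ⟩ := exists_diagonalization (Qᴴ * Q) hQQ.1
  have hξ := hPP.eigenvalues_nonneg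
  have hυ := hQQ.eigenvalues_nonneg
  have hηX : eta (P * Pᴴ) = ∑ i, Real.negMulLog (hPP.1.eigenvalues i) := by
    rw [eta_mul_conjTranspose, eta_eq_sum_eigenvalues _ hPP.1]
  have hηY : eta (Q * Qᴴ) = ∑ i, Real.negMulLog (hQQ.1.eigenvalues i) := by
    rw [eta_mul_conjTranspose, eta_eq_sum_eigenvalues _ hQQ.1]
  set ξ := hPP.1.eigenvalues with hξdef
  set υ := hQQ.1.eigenvalues with hυdef
  have hVP : Vᴴ * (Pᴴ * P) * V = diagonal (fun i => (ξ i : ℂ)) := by
    rw [hP, ← Matrix.mul_assoc, ← Matrix.mul_assoc, hV', Matrix.one_mul, Matrix.mul_assoc, hV',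
      Matrix.mul_one]
  have hUQ : Uᴴ * (Qᴴ * Q) * U = diagonal (fun i => (υ i : ℂ)) := by
    rw [hQ, ← Matrix.mul_assoc, ← Matrix.mul_assoc, hU', Matrix.one_mul, Matrix.mul_assoc, hU',
      Matrix.mul_one]
  have hsumξ : ∑ i, ξ i = x := sum_eigs P V hV ξ hVP
  have hsumυ : ∑ i, υ i = y := sum_eigs Q U hU υ hUQ
  have hT := posSemidef_T P Q Bh Ch hBh hCh
  -- coefficients
  set qq : S → ℝ := fun i => ((Vᴴ * (Qᴴ * Q) * V) i i).re with hqq
  have hqq0 : ∀ i, 0 ≤ qq i := fun i =>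
    diag_entry_nonneg _ (hQQ.conjTranspose_mul_mul_same V) i
  have hqqsum : ∑ i, qq i = y := by
    have h1 : rtr (Vᴴ * (Qᴴ * Q) * V) = y := by
      rw [rtr_conj _ _ hV, hydef]
      unfold rtr
      rw [Matrix.trace_mul_comm]
    rw [← h1, rtr_eq_sum]
  set A : S → ℝ := fun i => ((Vᴴ * (Pᴴ * Bh * P) * V) i i).re with hA
  set A' : S → ℝ := fun i => ((Uᴴ * (Qᴴ * Ch * Q) * U) i i).re with hA'
  -- psi part
  obtain ⟨hψint, hψsum⟩ := div_part (fun u t => gpsi x y B C u t) hx hB A ξ hξ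
    (by
      intro h i
      have := eq_zero_of_rtr_eq_zero Bh hBh h
      simp [hA, this])
    (fun i hi => diag_entry_zero P Bh V ξ hVP i hi)
    (fun hpos u hu => ⟨gpsi_integrable hx.le hy.le hpos hC hu,
      gpsi_integral hx.le hy.le hpos hC hu⟩)
    (by
      refine setIntegral_nonneg measurableSet_Ioi fun t ht => ?_
      have ht' : (0 : ℝ) < t := ht
      have := gn_pos (x := x) (y := y) (B := B) (C := C) (r := 1 / t) hx.le hy.le hB hC
        (by positivity)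
      unfold gpsi
      positivity)
    (sum_div_le_psd P Bh hBh V ξ hξ hVP)
  obtain ⟨hφint, hφsum⟩ := div_part (fun u t => gphi x y B C u t) hy hC A' υ hυ
    (by
      intro h i
      have := eq_zero_of_rtr_eq_zero Ch hCh h
      simp [hA', this])
    (fun i hi => diag_entry_zero Q Ch U υ hUQ i hi)
    (fun hpos u hu => ⟨gphi_integrable hx.le hy.le hB hpos hu,
      gphi_integral hx.le hy.le hB hpos hu⟩)
    (by
      refine setIntegral_nonneg measurableSet_Ioi fun t ht => ?_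
      have ht' : (0 : ℝ) < t := ht
      have := gn_pos (x := x) (y := y) (B := B) (C := C) (r := 1 / t) hx.le hy.le hB hC
        (by positivity)
      unfold gphi
      positivity)
    (sum_div_le_psd Q Ch hCh U υ hυ hUQ)
  -- scaling parts
  have hXs := fun i => scaling (gfX x y B C) x (ξ i / x) (gfX_zero x y B C)
    (div_nonneg (hξ i) hx.le) (gfX_integrable hx hy hC hBC)
  have hYs := fun j => scaling (gfY x y B C) y (υ j / y) (gfY_zero x y B C)
    (div_nonneg (hυ j) hy.le) (gfY_integrable hx hy hB hC)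
  set HX := ∫ t in Ioi (0 : ℝ), (gfX x y B C (1 / t) - x * Real.log (1 + 1 / t)) with hHX
  set HY := ∫ t in Ioi (0 : ℝ), (gfY x y B C (1 / t) - y * Real.log (1 + 1 / t)) with hHY
  set d1 := ∫ t in Ioi (0 : ℝ), (1 / t) * gD x y B C (1 / t) with hd1
  have hd1np : d1 ≤ 0 := by
    refine setIntegral_nonpos measurableSet_Ioi fun t ht => ?_
    have ht' : (0 : ℝ) < t := ht
    exact mul_nonpos_of_nonneg_of_nonpos (by positivity)
      (gD_nonpos hx hy hC hBC (by positivity))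
  -- D part
  have hDint : ∀ i, IntegrableOn (fun t : ℝ => qq i / y * ((1 / t) * gD x y B C (ξ i / x / t)))
      (Ioi 0) := by
    intro i
    by_cases hi : ξ i = 0
    · simp [hi, gD_zero]
    · have hp : 0 < ξ i := lt_of_le_of_ne (hξ i) (Ne.symm hi)
      exact ((gD_scaled hx hy hC hBC (div_pos hp hx)).1).const_mul _
  have hDval : ∀ i, qq i / y * d1 ≤
      ∫ t in Ioi (0 : ℝ), qq i / y * ((1 / t) * gD x y B C (ξ i / x / t)) := by
    intro i
    by_cases hi : ξ i = 0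
    · have : 0 ≤ qq i / y := div_nonneg (hqq0 i) hy.le
      simp only [hi, zero_div, gD_zero, mul_zero, integral_zero]
      exact mul_nonpos_of_nonneg_of_nonpos this hd1np
    · have hp : 0 < ξ i := lt_of_le_of_ne (hξ i) (Ne.symm hi)
      rw [integral_const_mul, (gD_scaled hx hy hC hBC (div_pos hp hx)).2]
  have hDsum : d1 ≤ ∑ i, ∫ t in Ioi (0 : ℝ), qq i / y * ((1 / t) * gD x y B C (ξ i / x / t)) := by
    calc d1 = ∑ i, qq i / y * d1 := by
          rw [← Finset.sum_mul, ← Finset.sum_div, hqqsum, div_self hy.ne', one_mul]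
      _ ≤ _ := Finset.sum_le_sum fun i _ => hDval i
  -- integrals
  have I0 := eta_integrable _ hT
  have I1 := eta_integrable _ hBh
  have I2 := eta_integrable _ hCh
  set T := Matrix.fromBlocks (P * Pᴴ + Bh) (P * Qᴴ) (Q * Pᴴ) (Q * Qᴴ + Ch) with hTdef
  set f0 : ℝ → ℝ := fun t => Real.log (((t : ℂ) • (1 : Matrix (R ⊕ R) (R ⊕ R) ℂ) + T).det.re)
    - Fintype.card (R ⊕ R) * Real.log t - rtr T * Real.log (1 + 1 / t) with hf0
  set f1 : ℝ → ℝ := fun t => Real.log (((t : ℂ) • (1 : Matrix R R ℂ) + Bh).det.re)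
    - Fintype.card R * Real.log t - rtr Bh * Real.log (1 + 1 / t) with hf1
  set f2 : ℝ → ℝ := fun t => Real.log (((t : ℂ) • (1 : Matrix R R ℂ) + Ch).det.re)
    - Fintype.card R * Real.log t - rtr Ch * Real.log (1 + 1 / t) with hf2
  set f3 : S → ℝ → ℝ := fun i t => gfX x y B C (ξ i / x / t) - ξ i / x * x * Real.log (1 + 1 / t)
    with hf3
  set f4 : S → ℝ → ℝ := fun i t => gfY x y B C (υ i / y / t) - υ i / y * y * Real.log (1 + 1 / t)
    with hf4
  set f5 : S → ℝ → ℝ := fun i t => qq i / y * ((1 / t) * gD x y B C (ξ i / x / t)) with hf5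
  set f6 : S → ℝ → ℝ := fun i t => gpsi x y B C (ξ i / x) t * A i with hf6
  set f7 : S → ℝ → ℝ := fun i t => gphi x y B C (υ i / y) t * A' i with hf7
  have J3 : IntegrableOn (fun t => ∑ i, f3 i t) (Ioi 0) :=
    integrable_finsetSum _ fun i _ => (hXs i).1
  have J4 : IntegrableOn (fun t => ∑ i, f4 i t) (Ioi 0) :=
    integrable_finsetSum _ fun i _ => (hYs i).1
  have J5 : IntegrableOn (fun t => ∑ i, f5 i t) (Ioi 0) :=
    integrable_finsetSum _ fun i _ => hDint i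
  have J6 : IntegrableOn (fun t => ∑ i, f6 i t) (Ioi 0) :=
    integrable_finsetSum _ fun i _ => hψint i
  have J7 : IntegrableOn (fun t => ∑ i, f7 i t) (Ioi 0) :=
    integrable_finsetSum _ fun i _ => hφint i
  have hpt : ∀ t ∈ Ioi (0 : ℝ), (f1 t + f2 t) + (∑ i, f3 i t) + (∑ i, f4 i t) + (∑ i, f5 i t)
      - (∑ i, f6 i t) - (∑ i, f7 i t) ≤ f0 t := by
    intro t ht
    have ht' : 0 < t := ht
    have hmain := perT_frozen P Q Bh Ch hBh hCh hx hy hC hBC V U hV hU ξ υ hξ hυ hP hQ ht'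
    have hcard : (Fintype.card (R ⊕ R) : ℝ) = Fintype.card R + Fintype.card R := by
      rw [Fintype.card_sum]; push_cast; rfl
    have e3 : ∑ i, f3 i t = ∑ i, gfX x y B C (ξ i / x / t) - x * Real.log (1 + 1 / t) := by
      simp only [hf3]
      rw [Finset.sum_sub_distrib, ← Finset.sum_mul]
      congr 2
      rw [← hsumξ]
      refine Finset.sum_congr rfl fun i _ => ?_
      rw [hsumξ]
      field_simp
    have e4 : ∑ i, f4 i t = ∑ i, gfY x y B C (υ i / y / t) - y * Real.log (1 + 1 / t) := by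
      simp only [hf4]
      rw [Finset.sum_sub_distrib, ← Finset.sum_mul]
      congr 2
      rw [← hsumυ]
      refine Finset.sum_congr rfl fun i _ => ?_
      rw [hsumυ]
      field_simp
    rw [e3, e4]
    simp only [hf0, hf1, hf2, hf5, hf6, hf7]
    have hrT : rtr T = (x + B) + (y + C) := by
      rw [hTdef, rtr_fromBlocks, rtr_add, rtr_add]
    rw [hrT, hcard, ← hBdef, ← hCdef]
    have e5 : ((x + B) + (y + C)) * Real.log (1 + 1 / t) = x * Real.log (1 + 1 / t)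
      + B * Real.log (1 + 1 / t) + y * Real.log (1 + 1 / t) + C * Real.log (1 + 1 / t) := by ring
    have e6 : ((Fintype.card R : ℝ) + Fintype.card R) * Real.log t
      = Fintype.card R * Real.log t + Fintype.card R * Real.log t := by ring
    rw [e5, e6]
    linarith
  have K2 : IntegrableOn (fun t => f1 t + f2 t) (Ioi 0) := I1.add I2
  have K3 : IntegrableOn (fun t => (f1 t + f2 t) + (∑ i, f3 i t)) (Ioi 0) := K2.add J3
  have K4 : IntegrableOn (fun t => (f1 t + f2 t) + (∑ i, f3 i t) + (∑ i, f4 i t)) (Ioi 0) :=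
    K3.add J4
  have K5 : IntegrableOn (fun t => (f1 t + f2 t) + (∑ i, f3 i t) + (∑ i, f4 i t)
      + (∑ i, f5 i t)) (Ioi 0) := K4.add J5
  have K6 : IntegrableOn (fun t => (f1 t + f2 t) + (∑ i, f3 i t) + (∑ i, f4 i t)
      + (∑ i, f5 i t) - (∑ i, f6 i t)) (Ioi 0) := K5.sub J6
  have K7 : IntegrableOn (fun t => (f1 t + f2 t) + (∑ i, f3 i t) + (∑ i, f4 i t)
      + (∑ i, f5 i t) - (∑ i, f6 i t) - (∑ i, f7 i t)) (Ioi 0) := K6.sub J7
  have hint : ∫ t in Ioi (0 : ℝ), ((f1 t + f2 t) + (∑ i, f3 i t) + (∑ i, f4 i t)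
      + (∑ i, f5 i t) - (∑ i, f6 i t) - (∑ i, f7 i t)) ≤ eta T := by
    have h := setIntegral_mono_on K7 I0 measurableSet_Ioi hpt
    rw [eta_integral _ hT] at h
    exact h
  have hsplit : ∫ t in Ioi (0 : ℝ), ((f1 t + f2 t) + (∑ i, f3 i t) + (∑ i, f4 i t)
      + (∑ i, f5 i t) - (∑ i, f6 i t) - (∑ i, f7 i t)) = eta Bh + eta Ch
      + (∑ i, ∫ t in Ioi (0 : ℝ), f3 i t) + (∑ i, ∫ t in Ioi (0 : ℝ), f4 i t)
      + (∑ i, ∫ t in Ioi (0 : ℝ), f5 i t) - (∑ i, ∫ t in Ioi (0 : ℝ), f6 i t)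
      - (∑ i, ∫ t in Ioi (0 : ℝ), f7 i t) := by
    rw [integral_sub K6 J7, integral_sub K5 J6, integral_add K4 J5, integral_add K3 J4,
      integral_add K2 J3, integral_add I1 I2, eta_integral _ hBh, eta_integral _ hCh,
      integral_finsetSum _ (fun i _ => (hXs i).1), integral_finsetSum _ (fun i _ => (hYs i).1),
      integral_finsetSum _ (fun i _ => hDint i), integral_finsetSum _ (fun i _ => hψint i),
      integral_finsetSum _ (fun i _ => hφint i)]
  rw [hsplit] at hint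
  -- values
  have v3 : ∑ i, ∫ t in Ioi (0 : ℝ), f3 i t = HX + (eta (P * Pᴴ) - Real.negMulLog x) := by
    rw [Finset.sum_congr rfl fun i _ => (hXs i).2, Finset.sum_add_distrib, ← Finset.sum_mul,
      ← Finset.sum_div, hsumξ, div_self hx.ne', one_mul, ← Finset.mul_sum, hηX]
    congr 1
    have h1 : ∀ i, x * Real.negMulLog (ξ i / x) = Real.negMulLog (ξ i) + ξ i * Real.log x := by
      intro i
      by_cases hi : ξ i = 0
      · simp [hi]
      · rw [Real.negMulLog, Real.negMulLog, Real.log_div hi hx.ne']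
        field_simp
        ring
    rw [Finset.mul_sum, Finset.sum_congr rfl fun i _ => h1 i, Finset.sum_add_distrib,
      ← Finset.sum_mul, hsumξ]
    have h2 : Real.negMulLog x = -x * Real.log x := rfl
    rw [h2]
    ring
  have v4 : ∑ i, ∫ t in Ioi (0 : ℝ), f4 i t = HY + (eta (Q * Qᴴ) - Real.negMulLog y) := by
    rw [Finset.sum_congr rfl fun i _ => (hYs i).2, Finset.sum_add_distrib, ← Finset.sum_mul,
      ← Finset.sum_div, hsumυ, div_self hy.ne', one_mul, ← Finset.mul_sum, hηY]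
    congr 1
    have h1 : ∀ i, y * Real.negMulLog (υ i / y) = Real.negMulLog (υ i) + υ i * Real.log y := by
      intro i
      by_cases hi : υ i = 0
      · simp [hi]
      · rw [Real.negMulLog, Real.negMulLog, Real.log_div hi hy.ne']
        field_simp
        ring
    rw [Finset.mul_sum, Finset.sum_congr rfl fun i _ => h1 i, Finset.sum_add_distrib,
      ← Finset.sum_mul, hsumυ]
    have h2 : Real.negMulLog y = -y * Real.log y := rfl
    rw [h2]
    ring
  have hEsc := g_integral_sum hx hy hC hBC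
  rw [gn_integral hx.le hy.le hB hC] at hEsc
  rw [v3, v4] at hint
  linarith

end

end Vale.Agent.P358
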