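import Vale.Agent.P358.GEC4

/-!
# P358, general `ν`: EC4 in all cases
-/

open Matrix Finset MeasureTheory Set
open scoped BigOperators ComplexOrder MatrixOrder

namespace Vale.Agent.P358

section
variable {R S : Type} [Fintype R] [DecidableEq R] [Fintype S] [DecidableEq S]

/-- the inequality EC4 -/
def EC4 (P Q : Matrix R S ℂ) (Bh Ch : Matrix R R ℂ) : Prop :=
    eta Bh + eta Ch + (eta (P * Pᴴ) - Real.negMulLog (rtr (P * Pᴴ)))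
      + (eta (Q * Qᴴ) - Real.negMulLog (rtr (Q * Qᴴ)))
      + (eta !![((rtr (P * Pᴴ) + rtr Bh : ℝ) : ℂ),
          ((Real.sqrt (rtr (P * Pᴴ) * rtr (Q * Qᴴ)) : ℝ) : ℂ);
          ((Real.sqrt (rtr (P * Pᴴ) * rtr (Q * Qᴴ)) : ℝ) : ℂ),
          ((rtr (Q * Qᴴ) + rtr Ch : ℝ) : ℂ)]
        - Real.negMulLog (rtr Bh) - Real.negMulLog (rtr Ch))
    ≤ eta (Matrix.fromBlocks (P * Pᴴ + Bh) (P * Qᴴ) (Q * Pᴴ) (Q * Qᴴ + Ch))

omit [DecidableEq S] in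
lemma EC4.swap {P Q : Matrix R S ℂ} {Bh Ch : Matrix R R ℂ} (h : EC4 Q P Ch Bh) :
    EC4 P Q Bh Ch := by
  unfold EC4 at h ⊢
  have h1 : eta (Matrix.fromBlocks (P * Pᴴ + Bh) (P * Qᴴ) (Q * Pᴴ) (Q * Qᴴ + Ch))
      = eta (Matrix.fromBlocks (Q * Qᴴ + Ch) (Q * Pᴴ) (P * Qᴴ) (P * Pᴴ + Bh)) := by
    rw [← eta_submatrix_equiv (Equiv.sumComm R R)
      (Matrix.fromBlocks (Q * Qᴴ + Ch) (Q * Pᴴ) (P * Qᴴ) (P * Pᴴ + Bh))]
    congr 1
    ext i j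
    rcases i with i | i <;> rcases j with j | j <;> rfl
  have h2 : ∀ a b s : ℂ, eta !![a, s; s, b] = eta !![b, s; s, a] := by
    intro a b s
    rw [← eta_submatrix_equiv (Equiv.swap (0 : Fin 2) 1) !![b, s; s, a]]
    congr 1
    ext i j
    fin_cases i <;> fin_cases j <;> rfl
  rw [h1, h2, mul_comm (rtr (P * Pᴴ)) (rtr (Q * Qᴴ))]
  linarith

omit [DecidableEq S] in
lemma ec4_zero (Q : Matrix R S ℂ) (Bh Ch : Matrix R R ℂ) (hBh : Bh.PosSemidef)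
    (hCh : Ch.PosSemidef) : EC4 (0 : Matrix R S ℂ) Q Bh Ch := by
  unfold EC4
  have hQQ := Matrix.posSemidef_self_mul_conjTranspose Q
  have h0 : rtr ((0 : Matrix R S ℂ) * (0 : Matrix R S ℂ)ᴴ) = 0 := by simp [rtr]
  have h1 : eta ((0 : Matrix R S ℂ) * (0 : Matrix R S ℂ)ᴴ) = 0 := by
    rw [Matrix.zero_mul]; exact eta_zero
  have h2 : eta (Matrix.fromBlocks ((0 : Matrix R S ℂ) * (0 : Matrix R S ℂ)ᴴ + Bh)
      ((0 : Matrix R S ℂ) * Qᴴ) (Q * (0 : Matrix R S ℂ)ᴴ) (Q * Qᴴ + Ch))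
      = eta Bh + eta (Q * Qᴴ + Ch) := by
    rw [Matrix.zero_mul, Matrix.zero_mul, zero_add, Matrix.conjTranspose_zero, Matrix.mul_zero]
    exact eta_fromBlocks_zero _ _ hBh.1 (hQQ.add hCh).1
  have h3 : eta !![((0 + rtr Bh : ℝ) : ℂ), ((Real.sqrt (0 * rtr (Q * Qᴴ)) : ℝ) : ℂ);
      ((Real.sqrt (0 * rtr (Q * Qᴴ)) : ℝ) : ℂ), ((rtr (Q * Qᴴ) + rtr Ch : ℝ) : ℂ)]
      = Real.negMulLog (rtr Bh) + Real.negMulLog (rtr (Q * Qᴴ) + rtr Ch) := by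
    have e : !![((0 + rtr Bh : ℝ) : ℂ), ((Real.sqrt (0 * rtr (Q * Qᴴ)) : ℝ) : ℂ);
      ((Real.sqrt (0 * rtr (Q * Qᴴ)) : ℝ) : ℂ), ((rtr (Q * Qᴴ) + rtr Ch : ℝ) : ℂ)]
      = diagonal (fun i => ((![rtr Bh, rtr (Q * Qᴴ) + rtr Ch] i : ℝ) : ℂ)) := by
      ext i j
      fin_cases i <;> fin_cases j <;> simp
    rw [e, eta_diagonal]
    simp
  rw [h0, h1, h2, h3, Real.negMulLog_zero]
  have h4 := eta_superadd (Q * Qᴴ) Ch hQQ hCh
  rw [rtr_add] at h4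
  linarith

/-- N8b, all cases -/
theorem ec4_all (P Q : Matrix R S ℂ) (Bh Ch : Matrix R R ℂ) (hBh : Bh.PosSemidef)
    (hCh : Ch.PosSemidef) : EC4 P Q Bh Ch := by
  have hPP := Matrix.posSemidef_self_mul_conjTranspose P
  have hQQ := Matrix.posSemidef_self_mul_conjTranspose Q
  rcases (rtr_nonneg _ hPP).eq_or_lt with hx | hx
  · have h1 := eq_zero_of_rtr_eq_zero _ hPP hx.symm
    have h2 : P = 0 := Matrix.self_mul_conjTranspose_eq_zero.mp h1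
    rw [h2]
    exact ec4_zero Q Bh Ch hBh hCh
  rcases (rtr_nonneg _ hQQ).eq_or_lt with hy | hy
  · have h1 := eq_zero_of_rtr_eq_zero _ hQQ hy.symm
    have h2 : Q = 0 := Matrix.self_mul_conjTranspose_eq_zero.mp h1
    rw [h2]
    exact (ec4_zero P Ch Bh hCh hBh).swap
  rcases le_total (rtr Ch) (rtr Bh) with hBC | hBC
  · exact ec4_pos' P Q Bh Ch hBh hCh hBC hx hy
  · exact EC4.swap (ec4_pos' Q P Ch Bh hCh hBh hBC hy hx)

end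

end Vale.Agent.P358
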