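import Vale.Agent.P358.GDefs

/-!
# P358, general `ν`: auxiliary facts for the assembly of EC4
-/

open Matrix Finset MeasureTheory Set
open scoped BigOperators ComplexOrder MatrixOrder

namespace Vale.Agent.P358

section
variable {R S : Type} [Fintype R] [DecidableEq R] [Fintype S] [DecidableEq S]

lemma unitary_row_sum (W : Matrix S S ℂ) (hW : W * Wᴴ = 1) (i : S) :
    ∑ j, Complex.normSq (W i j) = 1 := by
  have h1 := congrFun (congrFun hW i) i
  rw [Matrix.mul_apply, Matrix.one_apply_eq] at h1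
  have h2 : ∀ j, W i j * Wᴴ j i = ((Complex.normSq (W i j) : ℝ) : ℂ) := by
    intro j
    rw [Matrix.conjTranspose_apply, Complex.normSq_eq_conj_mul_self, mul_comm]
    rfl
  rw [Finset.sum_congr rfl fun j _ => h2 j] at h1
  exact_mod_cast h1

lemma unitary_col_sum (W : Matrix S S ℂ) (hW : Wᴴ * W = 1) (j : S) :
    ∑ i, Complex.normSq (W i j) = 1 := by
  have h1 := congrFun (congrFun hW j) j
  rw [Matrix.mul_apply, Matrix.one_apply_eq] at h1
  have h2 : ∀ i, Wᴴ j i * W i j = ((Complex.normSq (W i j) : ℝ) : ℂ) := by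
    intro i
    rw [Matrix.conjTranspose_apply, Complex.normSq_eq_conj_mul_self]
    rfl
  rw [Finset.sum_congr rfl fun j _ => h2 j] at h1
  exact_mod_cast h1

lemma mixed_diag (V U : Matrix S S ℂ) (υ : S → ℝ) (i : S) :
    ((Vᴴ * (U * diagonal (fun j => (υ j : ℂ)) * Uᴴ) * V) i i).re
      = ∑ j, Complex.normSq ((Vᴴ * U) i j) * υ j := by
  have h1 : Vᴴ * (U * diagonal (fun j => (υ j : ℂ)) * Uᴴ) * V
      = (Vᴴ * U) * diagonal (fun j => (υ j : ℂ)) * (Vᴴ * U)ᴴ := by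
    rw [Matrix.conjTranspose_mul, Matrix.conjTranspose_conjTranspose]
    simp only [Matrix.mul_assoc]
  rw [h1, Matrix.mul_apply, Complex.re_sum]
  refine Finset.sum_congr rfl fun j _ => ?_
  rw [Matrix.mul_diagonal, Matrix.conjTranspose_apply]
  have h2 : (Vᴴ * U) i j * (υ j : ℂ) * star ((Vᴴ * U) i j)
      = ((Complex.normSq ((Vᴴ * U) i j) * υ j : ℝ) : ℂ) := by
    rw [Complex.ofReal_mul, Complex.normSq_eq_conj_mul_self]
    simp only [Complex.star_def]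
    ring
  rw [h2, Complex.ofReal_re]

omit [Fintype R] [DecidableEq R] [DecidableEq S] in
/-- summation of the `ψ²`-type terms -/
lemma div_part (K : ℝ → ℝ → ℝ) {b xx : ℝ} (hxx : 0 < xx) (hb : 0 ≤ b) (A ξ : S → ℝ)
    (hξ : ∀ i, 0 ≤ ξ i) (hA0 : b = 0 → ∀ i, A i = 0) (hAξ : ∀ i, ξ i = 0 → A i = 0)
    (hK : 0 < b → ∀ u, 0 < u → IntegrableOn (K u) (Ioi 0) ∧
      ∫ t in Ioi (0 : ℝ), K u t = (1 / u) * ∫ t in Ioi (0 : ℝ), K 1 t)
    (hKn : 0 ≤ ∫ t in Ioi (0 : ℝ), K 1 t)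
    (hsum : ∑ i, (if ξ i = 0 then 0 else A i / ξ i) ≤ b) :
    (∀ i, IntegrableOn (fun t => K (ξ i / xx) t * A i) (Ioi 0)) ∧
      ∑ i, ∫ t in Ioi (0 : ℝ), K (ξ i / xx) t * A i ≤ xx * b * ∫ t in Ioi (0 : ℝ), K 1 t := by
  rcases hb.eq_or_lt with h0 | hpos
  · have hA := hA0 h0.symm
    constructor
    · intro i; simp [hA i]
    · simp [hA, ← h0]
  · constructor
    · intro i
      by_cases hi : ξ i = 0
      · simp [hAξ i hi]
      · have hp : 0 < ξ i := lt_of_le_of_ne (hξ i) (Ne.symm hi)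
        exact ((hK hpos _ (div_pos hp hxx)).1).mul_const _
    · have h1 : ∀ i, ∫ t in Ioi (0 : ℝ), K (ξ i / xx) t * A i
          = (xx * ∫ t in Ioi (0 : ℝ), K 1 t) * (if ξ i = 0 then 0 else A i / ξ i) := by
        intro i
        by_cases hi : ξ i = 0
        · simp [hAξ i hi]
        · have hp : 0 < ξ i := lt_of_le_of_ne (hξ i) (Ne.symm hi)
          rw [integral_mul_const, (hK hpos _ (div_pos hp hxx)).2, if_neg hi]
          field_simp
      rw [Finset.sum_congr rfl fun i _ => h1 i, ← Finset.mul_sum]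
      have h2 := mul_le_mul_of_nonneg_left hsum (mul_nonneg hxx.le hKn)
      calc _ ≤ _ := h2
        _ = _ := by ring

omit [DecidableEq R] [DecidableEq S] in
lemma rtr_fromBlocks (A B C D : Matrix R R ℂ) :
    rtr (Matrix.fromBlocks A B C D) = rtr A + rtr D := by
  unfold rtr
  simp [Matrix.trace, Fintype.sum_sum_type]

omit [Fintype S] [DecidableEq S] in
lemma smul_one_fromBlocks (A B C D : Matrix R R ℂ) (t : ℂ) :
    t • (1 : Matrix (R ⊕ R) (R ⊕ R) ℂ) + Matrix.fromBlocks A B C D =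
      Matrix.fromBlocks (t • (1 : Matrix R R ℂ) + A) B C (t • (1 : Matrix R R ℂ) + D) := by
  rw [← Matrix.fromBlocks_one, Matrix.fromBlocks_smul, Matrix.fromBlocks_add]
  simp

omit [DecidableEq R] [DecidableEq S] in
lemma eq_zero_of_rtr_eq_zero (M : Matrix R R ℂ) (hM : M.PosSemidef) (h : rtr M = 0) : M = 0 := by
  have h2 : 0 ≤ M.trace := hM.trace_nonneg
  have h3 : M.trace = 0 := by
    apply Complex.ext
    · exact h
    · exact (Complex.nonneg_iff.mp h2).2.symm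
  exact hM.trace_eq_zero_iff.mp h3

omit [DecidableEq S] in
lemma posSemidef_T (P Q : Matrix R S ℂ) (Bh Ch : Matrix R R ℂ) (hBh : Bh.PosSemidef)
    (hCh : Ch.PosSemidef) :
    (Matrix.fromBlocks (P * Pᴴ + Bh) (P * Qᴴ) (Q * Pᴴ) (Q * Qᴴ + Ch)).PosSemidef := by
  have h1 : Matrix.fromBlocks (P * Pᴴ + Bh) (P * Qᴴ) (Q * Pᴴ) (Q * Qᴴ + Ch)
      = Matrix.fromRows P Q * (Matrix.fromRows P Q)ᴴ + Matrix.fromBlocks Bh 0 0 Ch := by
    rw [Matrix.conjTranspose_fromRows_eq_fromCols_conjTranspose, Matrix.fromRows_mul_fromCols,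
      Matrix.fromBlocks_add]
    simp
  rw [h1]
  refine (Matrix.posSemidef_self_mul_conjTranspose _).add ?_
  obtain ⟨D, hD⟩ : ∃ D : Matrix R R ℂ, Bh = D * Dᴴ := by
    obtain ⟨U, hU, hU', h⟩ := exists_diagonalization Bh hBh.1
    exact CStarAlgebra.nonneg_iff_eq_mul_star_self.mp hBh.nonneg
  obtain ⟨E, hE⟩ : ∃ E : Matrix R R ℂ, Ch = E * Eᴴ :=
    CStarAlgebra.nonneg_iff_eq_mul_star_self.mp hCh.nonneg
  have h2 : Matrix.fromBlocks Bh 0 0 Ch
      = Matrix.fromBlocks D 0 0 E * (Matrix.fromBlocks D 0 0 E)ᴴ := by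
    rw [Matrix.fromBlocks_conjTranspose, Matrix.fromBlocks_multiply]
    simp [hD, hE]
  rw [h2]
  exact Matrix.posSemidef_self_mul_conjTranspose _

omit [DecidableEq R] in
lemma sum_eigs (P : Matrix R S ℂ) (V : Matrix S S ℂ) (hV : V * Vᴴ = 1) (ξ : S → ℝ)
    (hVP : Vᴴ * (Pᴴ * P) * V = diagonal (fun i => (ξ i : ℂ))) :
    ∑ i, ξ i = rtr (P * Pᴴ) := by
  have h1 : rtr (Vᴴ * (Pᴴ * P) * V) = rtr (P * Pᴴ) := by
    rw [rtr_conj _ _ hV]
    unfold rtr
    rw [Matrix.trace_mul_comm]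
  rw [← h1, hVP, rtr_eq_sum]
  simp

end

end Vale.Agent.P358
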