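import Vale.Agent.P358.FDefs

/-!
# P358, piece F1: the function `c ↦ h((1+√(1-c²))/2)` is convex and increasing on `[0,1]`
-/

open Matrix Finset Set
open scoped BigOperators ComplexOrder

namespace Vale.Agent.P358

namespace FormA

noncomputable def L (u : ℝ) : ℝ := Real.log (1 + u) - Real.log (1 - u)

theorem L_ge {u : ℝ} (h0 : 0 < u) (h1 : u < 1) : 2 * u ≤ L u := by
  have hx : 0 ≤ 2 * u / (1 - u) := by
    have : 0 < 1 - u := by linarith
    positivity
  have h := Real.le_log_one_add_of_nonneg hx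
  have hu : (1 - u) ≠ 0 := by linarith
  have e1 : 2 * (2 * u / (1 - u)) / (2 * u / (1 - u) + 2) = 2 * u := by
    field_simp
    ring
  have e2 : 1 + 2 * u / (1 - u) = (1 + u) / (1 - u) := by
    field_simp
    ring
  rw [e1, e2, Real.log_div (by linarith) hu] at h
  exact h

theorem sqrt_facts {c : ℝ} (h0 : 0 < c) (h1 : c < 1) :
    0 < Real.sqrt (1 - c ^ 2) ∧ Real.sqrt (1 - c ^ 2) < 1 ∧
      Real.sqrt (1 - c ^ 2) ^ 2 = 1 - c ^ 2 := by
  have hc : 0 < 1 - c ^ 2 := by nlinarith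
  refine ⟨Real.sqrt_pos.mpr hc, ?_, Real.sq_sqrt hc.le⟩
  rw [Real.sqrt_lt' one_pos]
  nlinarith [pow_pos h0 2]

theorem sqrt_deriv {c : ℝ} (h0 : 0 < c) (h1 : c < 1) :
    HasDerivAt (fun c : ℝ => Real.sqrt (1 - c ^ 2)) (-(c / Real.sqrt (1 - c ^ 2))) c := by
  have hc : 0 < 1 - c ^ 2 := by nlinarith
  have a : HasDerivAt (fun c : ℝ => 1 - c ^ 2) (-(2 * c)) c := by
    have := ((hasDerivAt_id c).fun_pow 2).const_sub 1
    exact this.congr_deriv (by simp)
  have b := a.sqrt hc.ne'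
  refine b.congr_deriv ?_
  have := (sqrt_facts h0 h1).1
  field_simp

theorem e_deriv {c : ℝ} (h0 : 0 < c) (h1 : c < 1) :
    HasDerivAt (fun c : ℝ => Real.binEntropy ((1 + Real.sqrt (1 - c ^ 2)) / 2))
      (c * L (Real.sqrt (1 - c ^ 2)) / (2 * Real.sqrt (1 - c ^ 2))) c := by
  obtain ⟨hu0, hu1, hsq⟩ := sqrt_facts h0 h1
  set u := Real.sqrt (1 - c ^ 2) with hu
  have a := ((sqrt_deriv h0 h1).const_add 1).div_const 2
  have b := (Real.hasDerivAt_binEntropy (p := (1 + u) / 2) (by positivity)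
    (by intro h; linarith)).comp c a
  refine b.congr_deriv ?_
  have e1 : 1 - (1 + u) / 2 = (1 - u) / 2 := by ring
  rw [e1, Real.log_div (by linarith) two_ne_zero, Real.log_div (by linarith) two_ne_zero, ← hu]
  unfold L
  field_simp
  ring

theorem L_deriv {u : ℝ} (h0 : 0 < u) (h1 : u < 1) :
    HasDerivAt L (2 / (1 - u ^ 2)) u := by
  have a : HasDerivAt (fun u : ℝ => 1 + u) 1 u := (hasDerivAt_id u).const_add 1
  have b : HasDerivAt (fun u : ℝ => 1 - u) (-1) u := (hasDerivAt_id u).const_sub 1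
  have ha := a.log (by linarith)
  have hb := b.log (by linarith)
  have h := ha.sub hb
  refine h.congr_deriv ?_
  have h2 : (1 - u) ≠ 0 := by linarith
  have h3 : (1 + u) ≠ 0 := by linarith
  have h4 : 1 - u ^ 2 = (1 - u) * (1 + u) := by ring
  rw [h4]
  field_simp
  ring

theorem e_deriv2 {c : ℝ} (h0 : 0 < c) (h1 : c < 1) :
    HasDerivAt (fun c : ℝ => c * L (Real.sqrt (1 - c ^ 2)) / (2 * Real.sqrt (1 - c ^ 2)))
      ((L (Real.sqrt (1 - c ^ 2)) - 2 * Real.sqrt (1 - c ^ 2)) /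
        (2 * Real.sqrt (1 - c ^ 2) ^ 3)) c := by
  obtain ⟨hu0, hu1, hsq⟩ := sqrt_facts h0 h1
  have s := sqrt_deriv h0 h1
  have l := (L_deriv hu0 hu1).comp c s
  have a := (hasDerivAt_id c).mul l
  have b := s.const_mul 2
  have d := a.div b (by positivity)
  refine HasDerivAt.congr_deriv d ?_
  have e0 : ((id : ℝ → ℝ) * (L ∘ fun c : ℝ => Real.sqrt (1 - c ^ 2))) c
      = c * L (Real.sqrt (1 - c ^ 2)) := rfl
  rw [e0]
  simp only [Function.comp, id]
  set u := Real.sqrt (1 - c ^ 2) with hu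
  have h2 : 1 - u ^ 2 = c ^ 2 := by linarith
  have h3 : c ^ 2 = 1 - u ^ 2 := by linarith
  rw [h2]
  field_simp
  rw [h3]
  ring

end FormA

open FormA

/-- F1 -/
theorem entC_convex :
    ConvexOn ℝ (Icc 0 1) (fun c : ℝ => Real.binEntropy ((1 + Real.sqrt (1 - c ^ 2)) / 2)) := by
  refine convexOn_of_hasDerivWithinAt2_nonneg (convex_Icc 0 1)
    (f' := fun c => c * L (Real.sqrt (1 - c ^ 2)) / (2 * Real.sqrt (1 - c ^ 2)))
    (f'' := fun c => (L (Real.sqrt (1 - c ^ 2)) - 2 * Real.sqrt (1 - c ^ 2)) /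
        (2 * Real.sqrt (1 - c ^ 2) ^ 3)) ?_ ?_ ?_ ?_
  · apply Continuous.continuousOn
    fun_prop
  · intro c hc
    rw [interior_Icc] at hc
    exact (e_deriv hc.1 hc.2).hasDerivWithinAt
  · intro c hc
    rw [interior_Icc] at hc
    exact (e_deriv2 hc.1 hc.2).hasDerivWithinAt
  · intro c hc
    rw [interior_Icc] at hc
    obtain ⟨hu0, hu1, _⟩ := sqrt_facts hc.1 hc.2
    have := L_ge hu0 hu1
    have h : 0 ≤ L (Real.sqrt (1 - c ^ 2)) - 2 * Real.sqrt (1 - c ^ 2) := by linarith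
    positivity

/-- F1 -/
theorem entC_mono :
    MonotoneOn (fun c : ℝ => Real.binEntropy ((1 + Real.sqrt (1 - c ^ 2)) / 2)) (Icc 0 1) := by
  refine monotoneOn_of_hasDerivWithinAt_nonneg (convex_Icc 0 1)
    (f' := fun c => c * L (Real.sqrt (1 - c ^ 2)) / (2 * Real.sqrt (1 - c ^ 2))) ?_ ?_ ?_
  · apply Continuous.continuousOn
    fun_prop
  · intro c hc
    rw [interior_Icc] at hc
    exact (e_deriv hc.1 hc.2).hasDerivWithinAt
  · intro c hc
    rw [interior_Icc] at hc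
    obtain ⟨hu0, hu1, _⟩ := sqrt_facts hc.1 hc.2
    have := L_ge hu0 hu1
    have h : 0 ≤ L (Real.sqrt (1 - c ^ 2)) := by linarith
    have h0 := hc.1
    positivity

end Vale.Agent.P358
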