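import Vale.Agent.P358.GFormA

/-!
# P358, piece F2 : convexity of the output entropy
-/

open Set

namespace Vale.Agent.P358

namespace FormBAux

/-- `√(α u² + β)` is convex -/
theorem sqrt_quad_convex {α β u v a b : ℝ} (hα : 0 ≤ α) (hβ : 0 ≤ β) (ha : 0 ≤ a) (hb : 0 ≤ b)
    (hab : a + b = 1) :
    Real.sqrt (α * (a * u + b * v) ^ 2 + β) ≤
      a * Real.sqrt (α * u ^ 2 + β) + b * Real.sqrt (α * v ^ 2 + β) := by
  have hu : 0 ≤ α * u ^ 2 + β := by positivity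
  have hv : 0 ≤ α * v ^ 2 + β := by positivity
  have h1 : α * u * v + β ≤ Real.sqrt (α * u ^ 2 + β) * Real.sqrt (α * v ^ 2 + β) := by
    rw [← Real.sqrt_mul hu]
    apply Real.le_sqrt_of_sq_le
    nlinarith [mul_nonneg (mul_nonneg hα hβ) (sq_nonneg (u - v))]
  have h2 := Real.sq_sqrt hu
  have h3 := Real.sq_sqrt hv
  apply Real.sqrt_le_iff.2
  refine ⟨by positivity, ?_⟩
  have hb' : b = 1 - a := by linarith
  have h4 := mul_le_mul_of_nonneg_left h1 (mul_nonneg ha hb)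
  set S := Real.sqrt (α * u ^ 2 + β)
  set T := Real.sqrt (α * v ^ 2 + β)
  have e : (a * S + b * T) ^ 2 = a ^ 2 * S ^ 2 + b ^ 2 * T ^ 2 + 2 * (a * b * (S * T)) := by ring
  rw [e, h2, h3]
  have e2 : β = (a + b) ^ 2 * β := by rw [hab]; ring
  have e3 : α * (a * u + b * v) ^ 2 + β =
      a ^ 2 * (α * u ^ 2 + β) + b ^ 2 * (α * v ^ 2 + β) + 2 * (a * b * (α * u * v + β)) := by
    have : α * (a * u + b * v) ^ 2 + (a + b) ^ 2 * β =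
      a ^ 2 * (α * u ^ 2 + β) + b ^ 2 * (α * v ^ 2 + β) + 2 * (a * b * (α * u * v + β)) := by ring
    rw [← this, ← e2]
  rw [e3]
  linarith

theorem quad_le_one {γ ν q : ℝ} (hγ0 : 0 ≤ γ) (hγ1 : γ ≤ 1)
    (hq0 : 0 ≤ q) (hq1 : q ≤ 1) :
    4 * γ * (1 - γ) * (q - ν) ^ 2 + 4 * γ * (ν * (1 - ν)) ≤ 1 := by
  have h1 : (q - ν) ^ 2 = (1 - q) * ν ^ 2 + q * (1 - ν) ^ 2 - q * (1 - q) := by ring
  have h0 : 0 ≤ 4 * γ * (1 - γ) := by nlinarith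
  have h2 : 4 * γ * (1 - γ) * (q - ν) ^ 2 ≤
      4 * γ * (1 - γ) * ((1 - q) * ν ^ 2 + q * (1 - ν) ^ 2) := by
    apply mul_le_mul_of_nonneg_left _ h0
    rw [h1]
    nlinarith
  have h3 : 4 * γ * (1 - γ) * ν ^ 2 + 4 * γ * (ν * (1 - ν)) ≤ 1 := by
    nlinarith [sq_nonneg (2 * (γ * ν) - 1)]
  have h4 : 4 * γ * (1 - γ) * (1 - ν) ^ 2 + 4 * γ * (ν * (1 - ν)) ≤ 1 := by
    nlinarith [sq_nonneg (2 * (γ * (1 - ν)) - 1)]
  nlinarith [mul_le_mul_of_nonneg_left h3 (sub_nonneg.2 hq1), mul_le_mul_of_nonneg_left h4 hq0]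

end FormBAux

open FormBAux

/-- F2 -/
theorem outEnt_convex (γ ν : ℝ) (hγ0 : 0 ≤ γ) (hγ1 : γ ≤ 1) (hν0 : 0 ≤ ν) (hν1 : ν ≤ 1) :
    ConvexOn ℝ (Icc 0 1) (fun q : ℝ =>
      Real.binEntropy ((1 + Real.sqrt (1 - 4 * γ * ((1 - γ) * (q - ν) ^ 2 + ν * (1 - ν)))) / 2)) := by
  have hα : 0 ≤ 4 * γ * (1 - γ) := by nlinarith
  have hβ : 0 ≤ 4 * γ * (ν * (1 - ν)) := by
    have : 0 ≤ ν * (1 - ν) := mul_nonneg hν0 (by linarith)
    positivity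
  have hc : ∀ q : ℝ, 1 - 4 * γ * ((1 - γ) * (q - ν) ^ 2 + ν * (1 - ν)) =
      1 - Real.sqrt (4 * γ * (1 - γ) * (q - ν) ^ 2 + 4 * γ * (ν * (1 - ν))) ^ 2 := by
    intro q
    rw [Real.sq_sqrt (by positivity)]
    ring
  have hmem : ∀ q ∈ Icc (0 : ℝ) 1,
      Real.sqrt (4 * γ * (1 - γ) * (q - ν) ^ 2 + 4 * γ * (ν * (1 - ν))) ∈ Icc (0 : ℝ) 1 := by
    intro q hq
    refine ⟨Real.sqrt_nonneg _, ?_⟩
    rw [Real.sqrt_le_left zero_le_one, one_pow]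
    exact quad_le_one hγ0 hγ1 hq.1 hq.2
  refine ⟨convex_Icc 0 1, ?_⟩
  intro q1 hq1 q2 hq2 a b ha hb hab
  simp only [smul_eq_mul, hc]
  have hq : a * q1 + b * q2 ∈ Icc (0 : ℝ) 1 := by
    have := (convex_Icc (0 : ℝ) 1) hq1 hq2 ha hb hab
    simpa using this
  have e1 : a * q1 + b * q2 - ν = a * (q1 - ν) + b * (q2 - ν) := by
    have : ν = (a + b) * ν := by rw [hab, one_mul]
    nlinarith
  have h1 : Real.sqrt (4 * γ * (1 - γ) * (a * q1 + b * q2 - ν) ^ 2 + 4 * γ * (ν * (1 - ν))) ≤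
      a * Real.sqrt (4 * γ * (1 - γ) * (q1 - ν) ^ 2 + 4 * γ * (ν * (1 - ν))) +
      b * Real.sqrt (4 * γ * (1 - γ) * (q2 - ν) ^ 2 + 4 * γ * (ν * (1 - ν))) := by
    rw [e1]
    exact sqrt_quad_convex hα hβ ha hb hab
  have hm3 : a * Real.sqrt (4 * γ * (1 - γ) * (q1 - ν) ^ 2 + 4 * γ * (ν * (1 - ν))) +
      b * Real.sqrt (4 * γ * (1 - γ) * (q2 - ν) ^ 2 + 4 * γ * (ν * (1 - ν))) ∈ Icc (0 : ℝ) 1 := by
    have := (convex_Icc (0 : ℝ) 1) (hmem q1 hq1) (hmem q2 hq2) ha hb hab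
    simpa using this
  refine le_trans (entC_mono (hmem _ hq) hm3 h1) ?_
  have := entC_convex.2 (hmem q1 hq1) (hmem q2 hq2) ha hb hab
  simpa using this

end Vale.Agent.P358
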