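import Vale.Agent.P358.Tensor
import Vale.Agent.P358.EtaBasic

/-!
# P358, piece C' : the lower bound for the output entropy of tensor powers
-/

open Matrix Finset
open scoped BigOperators ComplexOrder

namespace Vale.Agent.P358

open TensorAux ClassicalAux

section C
variable {Φ : Matrix (Fin 2) (Fin 2) ℂ →ₗ[ℂ] Matrix (Fin 2) (Fin 2) ℂ} {W : Fin 2 → Fin 2 → ℝ}
  {κ : ℝ}

/-- C4 : lower bound (induction on `n` over all side systems) -/
theorem DiagChan.lower (h : DiagChan Φ W κ) (hs : Star Φ) (n : ℕ) (R : Type) [Fintype R]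
    [DecidableEq R] (M : Matrix ((Fin n → Fin 2) × R) ((Fin n → Fin 2) × R) ℂ)
    (hM : M.PosSemidef) :
    ∑ z, eta (blk z M) + CC (FF Φ) n (fun z => rtr (blk z M)) ≤ eta (actL (tensorPow Φ n) M) := by
  induction n generalizing R with
  | zero =>
    have h0 : actL (tensorPow Φ 0) M = M := by
      ext ⟨i, r⟩ ⟨j, s⟩
      rw [actL_apply, tensorPow_zero_apply Φ _ i j i j, Matrix.of_apply]
    rw [h0, Fintype.sum_unique]
    simp only [CC, add_zero]
    have h2 : ∀ z : Fin 0 → Fin 2, eta (blk z M) = eta M := by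
      intro z
      let e : R ≃ (Fin 0 → Fin 2) × R :=
        { toFun := fun r => (z, r)
          invFun := Prod.snd
          left_inv := fun _ => rfl
          right_inv := fun x => Prod.ext (Subsingleton.elim _ _) rfl }
      exact eta_submatrix_equiv e M
    rw [h2]
  | succ n ih =>
    set M' := M.submatrix
      (fun x : Fin 2 × ((Fin n → Fin 2) × R) => ((Fin.cons x.1 x.2.1 : Fin (n + 1) → Fin 2), x.2.2))
      (fun x : Fin 2 × ((Fin n → Fin 2) × R) => ((Fin.cons x.1 x.2.1 : Fin (n + 1) → Fin 2), x.2.2))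
      with hM'
    have hM'p : M'.PosSemidef := hM.submatrix _
    set Y := (actL Φ M').submatrix
      (fun x : (Fin n → Fin 2) × (Fin 2 × R) => (x.2.1, (x.1, x.2.2)))
      (fun x : (Fin n → Fin 2) × (Fin 2 × R) => (x.2.1, (x.1, x.2.2))) with hY
    have hYp : Y.PosSemidef := (h.cp _ _ hM'p).submatrix _
    have e1 : eta (actL (tensorPow Φ (n + 1)) M) = eta (actL (tensorPow Φ n) Y) := by
      rw [actL_tensorPow_succ]
      let e : (Fin (n + 1) → Fin 2) × R ≃ (Fin n → Fin 2) × (Fin 2 × R) :=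
        { toFun := fun x => (Fin.tail x.1, (x.1 0, x.2))
          invFun := fun y => (Fin.cons y.2.1 y.1, y.2.2)
          left_inv := by
            rintro ⟨i, r⟩
            simp
          right_inv := by
            rintro ⟨i, ⟨b, r⟩⟩
            simp }
      exact eta_submatrix_equiv e (actL (tensorPow Φ n) Y)
    rw [e1]
    refine le_trans ?_ (ih (Fin 2 × R) Y hYp)
    -- the blocks of `Y`
    have hblk : ∀ z : Fin n → Fin 2, blk z Y = actL Φ (M'.submatrix
        (fun x : Fin 2 × R => (x.1, (z, x.2))) (fun x : Fin 2 × R => (x.1, (z, x.2)))) := by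
      intro z
      rfl
    have hb : ∀ (z : Fin n → Fin 2) (a : Fin 2), blk a (M'.submatrix
        (fun x : Fin 2 × R => (x.1, (z, x.2))) (fun x : Fin 2 × R => (x.1, (z, x.2)))) =
        blk (Fin.cons a z : Fin (n + 1) → Fin 2) M := by
      intro z a
      rfl
    have htr : ∀ z : Fin n → Fin 2, rtr (blk z Y) =
        rtr (blk (Fin.cons 0 z : Fin (n + 1) → Fin 2) M) +
        rtr (blk (Fin.cons 1 z : Fin (n + 1) → Fin 2) M) := by
      intro z
      rw [hblk, h.rtr_actL, hb, hb]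
    have hstar : ∀ z : Fin n → Fin 2,
        eta (blk (Fin.cons 0 z : Fin (n + 1) → Fin 2) M) +
        eta (blk (Fin.cons 1 z : Fin (n + 1) → Fin 2) M) -
        Real.negMulLog (rtr (blk (Fin.cons 0 z : Fin (n + 1) → Fin 2) M)) -
        Real.negMulLog (rtr (blk (Fin.cons 1 z : Fin (n + 1) → Fin 2) M)) +
        FF Φ (rtr (blk (Fin.cons 0 z : Fin (n + 1) → Fin 2) M))
          (rtr (blk (Fin.cons 1 z : Fin (n + 1) → Fin 2) M)) ≤ eta (blk z Y) := by
      intro z
      have := hs R (M'.submatrix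
        (fun x : Fin 2 × R => (x.1, (z, x.2))) (fun x : Fin 2 × R => (x.1, (z, x.2))))
        (hM'p.submatrix _)
      rw [hb, hb] at this
      rw [hblk]
      exact this
    have hsum := Finset.sum_le_sum fun z (_ : z ∈ (Finset.univ : Finset (Fin n → Fin 2))) =>
      hstar z
    simp_rw [htr]
    rw [sum_fin_cons, Fin.sum_univ_two]
    simp only [CC]
    have e3 : ∑ z : Fin n → Fin 2,
        (eta (blk (Fin.cons 0 z : Fin (n + 1) → Fin 2) M) +
        eta (blk (Fin.cons 1 z : Fin (n + 1) → Fin 2) M) -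
        Real.negMulLog (rtr (blk (Fin.cons 0 z : Fin (n + 1) → Fin 2) M)) -
        Real.negMulLog (rtr (blk (Fin.cons 1 z : Fin (n + 1) → Fin 2) M)) +
        FF Φ (rtr (blk (Fin.cons 0 z : Fin (n + 1) → Fin 2) M))
          (rtr (blk (Fin.cons 1 z : Fin (n + 1) → Fin 2) M))) =
        ∑ z : Fin n → Fin 2, eta (blk (Fin.cons 0 z : Fin (n + 1) → Fin 2) M) +
        ∑ z : Fin n → Fin 2, eta (blk (Fin.cons 1 z : Fin (n + 1) → Fin 2) M) +
        ∑ z : Fin n → Fin 2, (FF Φ (rtr (blk (Fin.cons 0 z : Fin (n + 1) → Fin 2) M))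
          (rtr (blk (Fin.cons 1 z : Fin (n + 1) → Fin 2) M)) -
        Real.negMulLog (rtr (blk (Fin.cons 0 z : Fin (n + 1) → Fin 2) M)) -
        Real.negMulLog (rtr (blk (Fin.cons 1 z : Fin (n + 1) → Fin 2) M))) := by
      rw [← Finset.sum_add_distrib, ← Finset.sum_add_distrib]
      refine Finset.sum_congr rfl fun z _ => ?_
      ring
    rw [e3] at hsum
    linarith

/-- C5 -/
theorem DiagChan.lower' (h : DiagChan Φ W κ) (hs : Star Φ) (n : ℕ)
    (M : Matrix (Fin n → Fin 2) (Fin n → Fin 2) ℂ) (hM : M.PosSemidef) :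
    ∑ z, Real.negMulLog (M z z).re + CC (FF Φ) n (fun z => (M z z).re)
      ≤ eta (tensorPow Φ n M) := by
  have h1 := h.lower hs n Unit (M.submatrix Prod.fst Prod.fst) (hM.submatrix _)
  have h2 : ∀ z, blk z (M.submatrix Prod.fst Prod.fst : Matrix ((Fin n → Fin 2) × Unit)
      ((Fin n → Fin 2) × Unit) ℂ) = M.submatrix (fun _ => z) (fun _ => z) := by
    intro z
    rfl
  have h3 : ∀ z, eta (blk z (M.submatrix Prod.fst Prod.fst : Matrix ((Fin n → Fin 2) × Unit)
      ((Fin n → Fin 2) × Unit) ℂ)) = Real.negMulLog (M z z).re := by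
    intro z
    rw [h2, eta_unique _ (hM.1.submatrix _)]
    rfl
  have h4 : ∀ z, rtr (blk z (M.submatrix Prod.fst Prod.fst : Matrix ((Fin n → Fin 2) × Unit)
      ((Fin n → Fin 2) × Unit) ℂ)) = (M z z).re := by
    intro z
    rw [h2, rtr_eq_sum, Fintype.sum_unique]
    rfl
  simp_rw [h3, h4] at h1
  refine h1.trans (le_of_eq ?_)
  have h5 : tensorPow Φ n M = (actL (tensorPow Φ n) (M.submatrix Prod.fst Prod.fst :
      Matrix ((Fin n → Fin 2) × Unit) ((Fin n → Fin 2) × Unit) ℂ)).submatrix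
      (Equiv.prodPUnit (Fin n → Fin 2)).symm (Equiv.prodPUnit (Fin n → Fin 2)).symm := by
    rfl
  rw [h5]
  exact (eta_submatrix_equiv (Equiv.prodPUnit (Fin n → Fin 2)).symm _).symm

end C

end Vale.Agent.P358
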