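import Vale.Agent.P358.Holevo
import Vale.Agent.P358.Classical
import Vale.Agent.P358.Lower

/-!
# P358 : product ensembles and the additivity theorem
-/

open Matrix Finset
open scoped BigOperators ComplexOrder

namespace Vale.Agent.P358

namespace HolevoAddAux

/-- splitting off the first letter -/
def ce (n : ℕ) : (Fin (n + 1) → Fin 2) ≃ Fin 2 × (Fin n → Fin 2) where
  toFun z := (z 0, Fin.tail z)
  invFun p := Fin.cons p.1 p.2
  left_inv z := by simp
  right_inv p := by simp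

/-- the product matrix on words of length `n + 1` -/
noncomputable def pr {n : ℕ} (A : Matrix (Fin 2) (Fin 2) ℂ)
    (B : Matrix (Fin n → Fin 2) (Fin n → Fin 2) ℂ) :
    Matrix (Fin (n + 1) → Fin 2) (Fin (n + 1) → Fin 2) ℂ :=
  (Matrix.kroneckerMap (· * ·) A B).submatrix (ce n) (ce n)

lemma lin_expand (Φ : Matrix (Fin 2) (Fin 2) ℂ →ₗ[ℂ] Matrix (Fin 2) (Fin 2) ℂ)
    (A : Matrix (Fin 2) (Fin 2) ℂ) (i j : Fin 2) :
    Φ A i j = ∑ k, ∑ l, Φ (Matrix.single k l 1) i j * A k l := by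
  have h : A = ∑ k, ∑ l, A k l • Matrix.single k l (1:ℂ) := by
    conv_lhs => rw [matrix_eq_sum_single A]
    apply Finset.sum_congr rfl
    intro k _
    apply Finset.sum_congr rfl
    intro l _
    simp
  conv_lhs => rw [h]
  simp only [map_sum, map_smul, Matrix.sum_apply, Matrix.smul_apply, smul_eq_mul]
  apply Finset.sum_congr rfl
  intro k _
  apply Finset.sum_congr rfl
  intro l _
  ring

lemma tensorPow_pr (Φ : Matrix (Fin 2) (Fin 2) ℂ →ₗ[ℂ] Matrix (Fin 2) (Fin 2) ℂ) (n : ℕ)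
    (A : Matrix (Fin 2) (Fin 2) ℂ) (B : Matrix (Fin n → Fin 2) (Fin n → Fin 2) ℂ) :
    tensorPow Φ (n + 1) (pr A B) = pr (Φ A) (tensorPow Φ n B) := by
  ext i j
  show ∑ k : Fin (n + 1) → Fin 2, ∑ l : Fin (n + 1) → Fin 2,
      (∏ m, Φ (Matrix.single (k m) (l m) 1) (i m) (j m)) * (A (k 0) (l 0) * B (Fin.tail k)
        (Fin.tail l)) = Φ A (i 0) (j 0) * (∑ k : Fin n → Fin 2, ∑ l : Fin n → Fin 2,
      (∏ m, Φ (Matrix.single (k m) (l m) 1) (Fin.tail i m) (Fin.tail j m)) * B k l)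
  rw [lin_expand]
  have h1 : ∀ f : (Fin (n + 1) → Fin 2) → ℂ, ∑ k, f k =
      ∑ a : Fin 2, ∑ k : Fin n → Fin 2, f (Fin.cons a k) := by
    intro f
    rw [← Fintype.sum_prod_type', ← Equiv.sum_comp (ce n).symm f]
    rfl
  rw [h1]
  have h2 : ∀ (a : Fin 2) (k : Fin n → Fin 2),
      (∑ l : Fin (n + 1) → Fin 2,
      (∏ m, Φ (Matrix.single ((Fin.cons a k : Fin (n + 1) → Fin 2) m) (l m) 1) (i m) (j m)) *
        (A ((Fin.cons a k : Fin (n + 1) → Fin 2) 0) (l 0) *
          B (Fin.tail (Fin.cons a k : Fin (n + 1) → Fin 2)) (Fin.tail l))) =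
      ∑ b : Fin 2, ∑ l : Fin n → Fin 2, (Φ (Matrix.single a b 1) (i 0) (j 0) * A a b) *
        ((∏ m, Φ (Matrix.single (k m) (l m) 1) (Fin.tail i m) (Fin.tail j m)) * B k l) := by
    intro a k
    rw [h1]
    apply Finset.sum_congr rfl
    intro b _
    apply Finset.sum_congr rfl
    intro l _
    rw [Fin.prod_univ_succ]
    simp only [Fin.cons_zero, Fin.cons_succ, Fin.tail_cons, Fin.tail]
    ring
  simp only [h2]
  rw [Finset.sum_mul]
  apply Finset.sum_congr rfl
  intro a _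
  rw [Finset.sum_comm, Finset.sum_mul]
  apply Finset.sum_congr rfl
  intro b _
  rw [Finset.mul_sum]
  apply Finset.sum_congr rfl
  intro k _
  rw [Finset.mul_sum]

lemma pr_psd {n : ℕ} {A : Matrix (Fin 2) (Fin 2) ℂ}
    {B : Matrix (Fin n → Fin 2) (Fin n → Fin 2) ℂ} (hA : A.PosSemidef) (hB : B.PosSemidef) :
    (pr A B).PosSemidef := by
  unfold pr
  apply PosSemidef.submatrix
  exact hA.kronecker hB

lemma pr_trace {n : ℕ} (A : Matrix (Fin 2) (Fin 2) ℂ)
    (B : Matrix (Fin n → Fin 2) (Fin n → Fin 2) ℂ) : (pr A B).trace = A.trace * B.trace := by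
  unfold pr
  have h : ((Matrix.kroneckerMap (· * ·) A B).submatrix (ce n) (ce n)).trace =
      (Matrix.kroneckerMap (· * ·) A B).trace := by
    simp only [trace, Matrix.diag, submatrix_apply]
    exact Equiv.sum_comp (ce n) (fun p => (Matrix.kroneckerMap (· * ·) A B) p p)
  rw [h]
  exact trace_kronecker A B

lemma vn_pr {n : ℕ} {A : Matrix (Fin 2) (Fin 2) ℂ}
    {B : Matrix (Fin n → Fin 2) (Fin n → Fin 2) ℂ} (hA : A.IsHermitian) (hB : B.IsHermitian)
    (hA1 : rtr A = 1) (hB1 : rtr B = 1) : vonNeumann (pr A B) = vonNeumann A + vonNeumann B := by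
  rw [vonNeumann_eq, vonNeumann_eq, vonNeumann_eq]
  unfold pr
  rw [eta_submatrix_equiv, eta_kronecker A B hA hB, hA1, hB1]
  ring

lemma pr_sum {n : ℕ} {ι ι' : Type} [Fintype ι] [Fintype ι'] (q : ι → ℝ) (q' : ι' → ℝ)
    (A : ι → Matrix (Fin 2) (Fin 2) ℂ) (B : ι' → Matrix (Fin n → Fin 2) (Fin n → Fin 2) ℂ) :
    ∑ p : ι × ι', (((q p.1 * q' p.2 : ℝ)) : ℂ) • pr (A p.1) (B p.2) =
      pr (∑ a, (q a : ℂ) • A a) (∑ b, (q' b : ℂ) • B b) := by
  ext i j
  simp only [Matrix.sum_apply, Matrix.smul_apply, pr, submatrix_apply, kroneckerMap_apply,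
    smul_eq_mul]
  rw [Finset.sum_mul_sum, Fintype.sum_prod_type]
  apply Finset.sum_congr rfl
  intro a _
  apply Finset.sum_congr rfl
  intro b _
  push_cast
  ring

end HolevoAddAux

open HolevoAddAux

variable {Φ : Matrix (Fin 2) (Fin 2) ℂ →ₗ[ℂ] Matrix (Fin 2) (Fin 2) ℂ} {W : Fin 2 → Fin 2 → ℝ}
  {κ : ℝ}

lemma rtr_state {α : Type} [Fintype α] {ρ : Matrix α α ℂ} (h : IsState ρ) : rtr ρ = 1 := by
  unfold rtr
  rw [h.2]
  simp

lemma rtr_sum_smul {α ι : Type} [Fintype α] [Fintype ι] (q : ι → ℝ) (M : ι → Matrix α α ℂ) :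
    rtr (∑ a, (q a : ℂ) • M a) = ∑ a, q a * rtr (M a) := by
  unfold rtr
  rw [trace_sum, Complex.re_sum]
  apply Finset.sum_congr rfl
  intro a _
  rw [trace_smul, smul_eq_mul, Complex.re_ofReal_mul]

lemma psd_sum_smul {α ι : Type} [Fintype α] [Fintype ι] {q : ι → ℝ} (hq : ∀ a, 0 ≤ q a)
    {M : ι → Matrix α α ℂ} (hM : ∀ a, (M a).PosSemidef) : (∑ a, (q a : ℂ) • M a).PosSemidef := by
  apply Matrix.posSemidef_sum
  intro a _
  exact (hM a).smul (by exact_mod_cast hq a)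

/-- E4 : product ensembles -/
theorem DiagChan.add_mem (h : DiagChan Φ W κ) (n : ℕ) {x y : ℝ} (hx : x ∈ holevoSet Φ)
    (hy : y ∈ holevoSet (tensorPow Φ n)) : x + y ∈ holevoSet (tensorPow Φ (n + 1)) := by
  obtain ⟨m, q, ρ, hq, hq1, hρ, rfl⟩ := hx
  obtain ⟨m', q', σ, hq', hq1', hσ, rfl⟩ := hy
  have key := mem_holevoSet_of_fintype (tensorPow Φ (n + 1)) (ι := Fin m × Fin m')
    (fun p => q p.1 * q' p.2) (fun p => pr (ρ p.1) (σ p.2))
    (fun p => mul_nonneg (hq _) (hq' _))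
    (by
      rw [Fintype.sum_prod_type, ← Finset.sum_mul_sum, hq1, hq1', one_mul])
    (fun p => ⟨pr_psd (hρ _).1 (hσ _).1, by rw [pr_trace, (hρ _).2, (hσ _).2, one_mul]⟩)
  convert key using 1
  have hρ' : ∀ a, (Φ (ρ a)).PosSemidef := fun a => h.posSemidef_map _ (hρ a).1
  have hσ' : ∀ b, (tensorPow Φ n (σ b)).PosSemidef := fun b => h.posSemidef_tensorPow n _ (hσ b).1
  have tρ : ∀ a, rtr (Φ (ρ a)) = 1 := fun a => by rw [h.rtr_map, rtr_state (hρ a)]
  have tσ : ∀ b, rtr (tensorPow Φ n (σ b)) = 1 := fun b => by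
    rw [h.rtr_tensorPow, rtr_state (hσ b)]
  simp only [tensorPow_pr]
  rw [pr_sum q q' (fun a => Φ (ρ a)) (fun b => tensorPow Φ n (σ b)),
    vn_pr (psd_sum_smul hq hρ').1 (psd_sum_smul hq' hσ').1
      (by rw [rtr_sum_smul]; simp [tρ, hq1]) (by rw [rtr_sum_smul]; simp [tσ, hq1'])]
  have e : ∑ p : Fin m × Fin m', q p.1 * q' p.2 *
      vonNeumann (pr (Φ (ρ p.1)) (tensorPow Φ n (σ p.2))) =
      ∑ a, q a * vonNeumann (Φ (ρ a)) + ∑ b, q' b * vonNeumann (tensorPow Φ n (σ b)) := by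
    have e1 : ∀ p : Fin m × Fin m', q p.1 * q' p.2 *
        vonNeumann (pr (Φ (ρ p.1)) (tensorPow Φ n (σ p.2))) =
        (q p.1 * vonNeumann (Φ (ρ p.1))) * q' p.2 +
          q p.1 * (q' p.2 * vonNeumann (tensorPow Φ n (σ p.2))) := by
      intro p
      rw [vn_pr (hρ' _).1 (hσ' _).1 (tρ _) (tσ _)]
      ring
    rw [Finset.sum_congr rfl (fun p _ => e1 p), Finset.sum_add_distrib, Fintype.sum_prod_type,
      Fintype.sum_prod_type]
    simp only []
    rw [← Finset.sum_mul_sum Finset.univ Finset.univ (fun a => q a * vonNeumann (Φ (ρ a))) q',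
      ← Finset.sum_mul_sum Finset.univ Finset.univ q
        (fun b => q' b * vonNeumann (tensorPow Φ n (σ b))), hq1, hq1', mul_one, one_mul]
  rw [e]
  ring

lemma holevo_le (h : DiagChan Φ W κ) (hs : Star Φ) (n : ℕ) :
    holevo (tensorPow Φ n) ≤ n * holevo Φ := by
  have hl : 0 < Real.log 2 := Real.log_pos (by norm_num)
  apply csSup_le (DiagChan.holevoSet_nonempty n)
  rintro v ⟨m, q, ρ, hq, hq1, hρ, rfl⟩
  set p : Fin m → (Fin n → Fin 2) → ℝ := fun a z => q a * (ρ a z z).re with hp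
  have hdiag : ∀ a z, 0 ≤ (ρ a z z).re := fun a z => by
    have := (hρ a).1.diag_nonneg (i := z)
    exact (Complex.le_def.mp this).1
  have hp0 : ∀ a z, 0 ≤ p a z := fun a z => mul_nonneg (hq a) (hdiag a z)
  have hpa : ∀ a, ∑ z, p a z = q a := by
    intro a
    simp only [hp]
    rw [← Finset.mul_sum, ← rtr_eq_sum, rtr_state (hρ a), mul_one]
  have hp1 : ∑ a, ∑ z, p a z = 1 := by simp only [hpa, hq1]
  have key := upper_classical W h.nonneg h.sum_one (FF Φ) (Real.log 2 * holevo Φ)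
    (fun ι _ x y hx hy hxy => h.single_letter ι x y hx hy hxy) n (Fin m) p hp0 hp1
  have hpsd : (∑ a, (q a : ℂ) • tensorPow Φ n (ρ a)).PosSemidef :=
    psd_sum_smul hq fun a => h.posSemidef_tensorPow n _ (hρ a).1
  have e1 : eta (∑ a, (q a : ℂ) • tensorPow Φ n (ρ a)) ≤
      ∑ y : Fin n → Fin 2, Real.negMulLog (∑ z, (∏ m, W (y m) (z m)) * ∑ a, p a z) := by
    refine (eta_le_sum_diag _ hpsd).trans (le_of_eq ?_)
    apply Finset.sum_congr rfl
    intro y _
    congr 1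
    rw [Matrix.sum_apply, Complex.re_sum]
    have e : ∀ a, (((q a : ℂ) • tensorPow Φ n (ρ a)) y y).re =
        ∑ z, (∏ m, W (y m) (z m)) * p a z := by
      intro a
      rw [Matrix.smul_apply, smul_eq_mul, h.diag_tensorPow, Complex.re_ofReal_mul, Complex.re_sum,
        Finset.mul_sum]
      apply Finset.sum_congr rfl
      intro z _
      rw [Complex.re_ofReal_mul]
      simp only [hp]
      ring
    rw [Finset.sum_congr rfl (fun a _ => e a), Finset.sum_comm]
    apply Finset.sum_congr rfl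
    intro z _
    rw [Finset.mul_sum]
  have e2 : ∀ a, ∑ z, Real.negMulLog (p a z) + CC (FF Φ) n (p a) - Real.negMulLog (∑ z, p a z) ≤
      q a * eta (tensorPow Φ n (ρ a)) := by
    intro a
    have h1 := h.lower' hs n ((q a : ℂ) • ρ a) ((hρ a).1.smul (by exact_mod_cast hq a))
    have h2 : (fun z => (((q a : ℂ) • ρ a) z z).re) = p a := by
      funext z
      rw [Matrix.smul_apply, smul_eq_mul, Complex.re_ofReal_mul]
    have h3 : ∀ z, (((q a : ℂ) • ρ a) z z).re = p a z := fun z => congrFun h2 z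
    rw [h2] at h1
    simp only [h3] at h1
    rw [map_smul, eta_smul _ _ (h.posSemidef_tensorPow n _ (hρ a).1).1, h.rtr_tensorPow,
      rtr_state (hρ a), mul_one] at h1
    rw [hpa]
    linarith
  have e3 : Real.log 2 * (vonNeumann (∑ a, (q a : ℂ) • tensorPow Φ n (ρ a)) -
      ∑ a, q a * vonNeumann (tensorPow Φ n (ρ a))) =
      eta (∑ a, (q a : ℂ) • tensorPow Φ n (ρ a)) - ∑ a, q a * eta (tensorPow Φ n (ρ a)) := by
    rw [vonNeumann_eq, mul_sub, mul_div_cancel₀ _ hl.ne', Finset.mul_sum]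
    congr 1
    apply Finset.sum_congr rfl
    intro a _
    rw [vonNeumann_eq]
    field_simp
  have e4 : ∑ a, (∑ z, Real.negMulLog (p a z) + CC (FF Φ) n (p a) -
      Real.negMulLog (∑ z, p a z)) ≤ ∑ a, q a * eta (tensorPow Φ n (ρ a)) :=
    Finset.sum_le_sum fun a _ => e2 a
  have e5 : Real.log 2 * (vonNeumann (∑ a, (q a : ℂ) • tensorPow Φ n (ρ a)) -
      ∑ a, q a * vonNeumann (tensorPow Φ n (ρ a))) ≤ Real.log 2 * (n * holevo Φ) := by
    rw [e3]; linarith
  exact le_of_mul_le_mul_left e5 hl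

/-- E5 : the additivity theorem from the key inequality -/
theorem DiagChan.additivity (h : DiagChan Φ W κ) (hs : Star Φ) :
    (∀ n, holevo (tensorPow Φ n) = n * holevo Φ) ∧
    BddAbove {x : ℝ | ∃ n : ℕ, 1 ≤ n ∧ x = holevo (tensorPow Φ n) / n} ∧
    capacity Φ = holevo Φ := by
  classical
  have hne1 : (holevoSet Φ).Nonempty := by
    refine ⟨_, mem_holevoSet_of_fintype Φ (ι := Unit) (fun _ => 1) (fun _ => psis 1 1 0)
      (fun _ => zero_le_one) (by simp) fun _ => ⟨psis_psd (by norm_num) zero_le_one le_rfl, ?_⟩⟩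
    simp [psis, trace, Fin.sum_univ_two]
  have hlow : ∀ n : ℕ, n * holevo Φ ≤ holevo (tensorPow Φ n) := by
    intro n
    induction n with
    | zero =>
      obtain ⟨v, hv⟩ := DiagChan.holevoSet_nonempty (Φ := Φ) 0
      obtain ⟨m, q, ρ, hq, hq1, hρ, rfl⟩ := hv
      obtain ⟨a⟩ : Nonempty (Fin m) := by
        by_contra hc
        rw [not_nonempty_iff] at hc
        simp at hq1
      have h0 : (0:ℝ) ∈ holevoSet (tensorPow Φ 0) := by
        have := mem_holevoSet_of_fintype (tensorPow Φ 0) (ι := Unit) (fun _ => 1) (fun _ => ρ a)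
          (fun _ => zero_le_one) (by simp) (fun _ => hρ a)
        simpa using this
      have := le_csSup (h.bddAbove_holevoSet 0) h0
      simpa [holevo] using this
    | succ n ih =>
      have h1 : holevo Φ + holevo (tensorPow Φ n) ≤ holevo (tensorPow Φ (n + 1)) := by
        unfold holevo
        rw [← csSup_add hne1 h.bddAbove_holevoSet_one (DiagChan.holevoSet_nonempty n)
          (h.bddAbove_holevoSet n)]
        apply csSup_le (hne1.add (DiagChan.holevoSet_nonempty n))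
        rintro _ ⟨x, hx, y, hy, rfl⟩
        exact le_csSup (h.bddAbove_holevoSet (n + 1)) (h.add_mem n hx hy)
      push_cast
      linarith
  have heq : ∀ n, holevo (tensorPow Φ n) = n * holevo Φ := fun n =>
    le_antisymm (holevo_le h hs n) (hlow n)
  have hset : {x : ℝ | ∃ n : ℕ, 1 ≤ n ∧ x = holevo (tensorPow Φ n) / n} = {holevo Φ} := by
    ext x
    constructor
    · rintro ⟨n, hn, rfl⟩
      have hn0 : (n : ℝ) ≠ 0 := by
        have : (1:ℝ) ≤ n := by exact_mod_cast hn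
        linarith
      rw [heq n]
      simp only [Set.mem_singleton_iff]
      field_simp
    · rintro rfl
      refine ⟨1, le_rfl, ?_⟩
      rw [heq 1]; simp
  refine ⟨heq, ?_, ?_⟩
  · rw [hset]; exact bddAbove_singleton
  · unfold capacity
    rw [hset]
    exact csSup_singleton _

end Vale.Agent.P358
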