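import Vale.Agent.P358.FDefs
import Vale.Agent.P358.HolevoAdd

/-!
# P358: the output entropy of pure inputs and the one-letter formula
-/

open Matrix Finset Set
open scoped BigOperators ComplexOrder

namespace Vale.Agent.P358

/-- F3a : entropy of a real symmetric `2 × 2` matrix of trace one -/
theorem eta_two (a b s : ℝ) (h1 : a + b = 1) :
    eta !![(a : ℂ), (s : ℂ); (s : ℂ), (b : ℂ)]
      = Real.binEntropy ((1 + Real.sqrt (1 - 4 * (a * b - s * s))) / 2) := by
  set u := Real.sqrt (1 - 4 * (a * b - s * s)) with hu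
  have hdisc : 0 ≤ 1 - 4 * (a * b - s * s) := by
    have : b = 1 - a := by linarith
    rw [this]
    nlinarith [sq_nonneg (2 * a - 1), sq_nonneg s]
  have hu2 : u * u = 1 - 4 * (a * b - s * s) := Real.mul_self_sqrt hdisc
  have hH : (!![(a : ℂ), (s : ℂ); (s : ℂ), (b : ℂ)]).IsHermitian := by
    ext i j
    fin_cases i <;> fin_cases j <;> simp
  have hD : (diagonal (fun i => ((![(1 + u) / 2, (1 - u) / 2] i : ℝ) : ℂ)) :
      Matrix (Fin 2) (Fin 2) ℂ).IsHermitian := by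
    ext i j
    fin_cases i <;> fin_cases j <;> simp
  rw [eta_eq_of_charpoly_eq _ (diagonal (fun i => ((![(1 + u) / 2, (1 - u) / 2] i : ℝ) : ℂ)))
    hH hD, eta_diagonal, Real.binEntropy_eq_negMulLog_add_negMulLog_one_sub]
  · rw [Fin.sum_univ_two]
    simp only [Matrix.cons_val_zero, Matrix.cons_val_one]
    congr 2
    ring
  · rw [Matrix.charpoly_fin_two, Matrix.charpoly_fin_two]
    have e1 : (!![(a : ℂ), (s : ℂ); (s : ℂ), (b : ℂ)]).trace
        = (diagonal (fun i => ((![(1 + u) / 2, (1 - u) / 2] i : ℝ) : ℂ)) :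
          Matrix (Fin 2) (Fin 2) ℂ).trace := by
      simp only [Matrix.trace_fin_two, Matrix.diagonal_apply_eq, Matrix.cons_val_zero,
        Matrix.cons_val_one, Matrix.of_apply, Matrix.cons_val', Matrix.cons_val_fin_one]
      rw [← Complex.ofReal_add, ← Complex.ofReal_add]
      congr 1
      rw [h1]; ring
    have e2 : (!![(a : ℂ), (s : ℂ); (s : ℂ), (b : ℂ)]).det
        = (diagonal (fun i => ((![(1 + u) / 2, (1 - u) / 2] i : ℝ) : ℂ)) :
          Matrix (Fin 2) (Fin 2) ℂ).det := by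
      rw [Matrix.det_fin_two_of, Matrix.det_diagonal, Fin.prod_univ_two]
      simp only [Matrix.cons_val_zero, Matrix.cons_val_one]
      rw [← Complex.ofReal_mul, ← Complex.ofReal_mul, ← Complex.ofReal_mul, ← Complex.ofReal_sub]
      congr 1
      nlinarith [hu2]
    rw [e1, e2]

/-- F3 -/
theorem FF_gadc (γ ν q : ℝ) (hγ1 : γ ≤ 1) (hq0 : 0 ≤ q) (hq1 : q ≤ 1) :
    FF (gadc γ ν) (1 - q) q = Real.binEntropy
      ((1 + Real.sqrt (1 - 4 * γ * ((1 - γ) * (q - ν) ^ 2 + ν * (1 - ν)))) / 2) := by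
  unfold FF
  have hk : 0 ≤ 1 - γ := by linarith
  have hqq : 0 ≤ (1 - q) * q := mul_nonneg (by linarith) hq0
  have e : gadc γ ν (psi (1 - q) q) =
      !![((1 - ((1 - γ) * q + γ * ν) : ℝ) : ℂ),
        ((Real.sqrt (1 - γ) * Real.sqrt ((1 - q) * q) : ℝ) : ℂ);
        ((Real.sqrt (1 - γ) * Real.sqrt ((1 - q) * q) : ℝ) : ℂ),
        (((1 - γ) * q + γ * ν : ℝ) : ℂ)] := by
    ext i j
    fin_cases i <;> fin_cases j <;> simp [gadc, psi]
  rw [e, eta_two _ _ _ (by ring)]
  congr 4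
  have h1 : Real.sqrt (1 - γ) * Real.sqrt ((1 - q) * q) *
      (Real.sqrt (1 - γ) * Real.sqrt ((1 - q) * q)) = (1 - γ) * ((1 - q) * q) := by
    rw [mul_mul_mul_comm, Real.mul_self_sqrt hk, Real.mul_self_sqrt hqq]
  rw [h1]
  ring

end Vale.Agent.P358
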