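import Vale.Agent.P358.GFormC
import Vale.Agent.P358.GFormB
import Vale.Agent.P358.Chan

/-!
# P358: the one-letter formula for the Holevo capacity
-/

open Matrix Finset Set
open scoped BigOperators ComplexOrder

namespace Vale.Agent.P358

/-- `Star` on a single qubit: pure states have the smallest output entropy for given diagonal. -/
lemma Star.single {Φ : Matrix (Fin 2) (Fin 2) ℂ →ₗ[ℂ] Matrix (Fin 2) (Fin 2) ℂ} (hs : Star Φ)
    (ρ : Matrix (Fin 2) (Fin 2) ℂ) (hρ : ρ.PosSemidef) :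
    FF Φ (ρ 0 0).re (ρ 1 1).re ≤ eta (Φ ρ) := by
  set M : Matrix (Fin 2 × Unit) (Fin 2 × Unit) ℂ := ρ.submatrix Prod.fst Prod.fst with hM
  have hMp : M.PosSemidef := hρ.submatrix _
  have h1 := hs Unit M hMp
  have hb : ∀ z : Fin 2, eta (blk z M) = Real.negMulLog (ρ z z).re := by
    intro z
    rw [eta_unique]
    · rfl
    · exact (hMp.submatrix _).1
  have hr : ∀ z : Fin 2, rtr (blk z M) = (ρ z z).re := by
    intro z
    rw [rtr_eq_sum]
    simp [blk, hM]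
  have ha : eta (actL Φ M) = eta (Φ ρ) := by
    rw [← eta_submatrix_equiv (Equiv.prodPUnit (Fin 2)) (Φ ρ)]
    rfl
  rw [hb, hb, hr, hr, ha] at h1
  linarith

lemma capFun_continuous (γ ν : ℝ) : Continuous (capFun γ ν) := by
  unfold capFun h2
  have hb := Real.binEntropy_continuous
  refine ((hb.comp (by fun_prop)).div_const _).sub ((hb.comp ?_).div_const _)
  fun_prop

lemma capFun_eq (γ ν q : ℝ) (hγ1 : γ ≤ 1) (hq0 : 0 ≤ q) (hq1 : q ≤ 1) :
    capFun γ ν q = (Real.binEntropy ((1 - γ) * q + γ * ν) - FF (gadc γ ν) (1 - q) q)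
      / Real.log 2 := by
  rw [FF_gadc γ ν q hγ1 hq0 hq1]
  unfold capFun h2
  ring

/-- every value of `capFun` is achievable -/
theorem capFun_le_holevo (γ ν : ℝ) (hγ0 : 0 ≤ γ) (hγ1 : γ ≤ 1) (hν0 : 0 ≤ ν) (hν1 : ν ≤ 1)
    (q : ℝ) (hq0 : 0 ≤ q) (hq1 : q ≤ 1) : capFun γ ν q ≤ holevo (gadc γ ν) := by
  have hl : 0 < Real.log 2 := Real.log_pos (by norm_num)
  have hc := diagChan_gadc γ ν hγ0 hγ1 hν0 hν1
  have h1 := hc.single_letter Unit (fun _ => 1 - q) (fun _ => q) (fun _ => by linarith)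
    (fun _ => hq0) (by simp)
  have h2 : ∑ c : Fin 2, Real.negMulLog (Wg γ ν c 0 * ∑ _b : Unit, (1 - q)
      + Wg γ ν c 1 * ∑ _b : Unit, q) = Real.binEntropy ((1 - γ) * q + γ * ν) := by
    rw [Fin.sum_univ_two, Real.binEntropy_eq_negMulLog_add_negMulLog_one_sub, add_comm]
    simp only [Finset.univ_unique, Finset.sum_singleton, Wg]
    congr 2
    · simp; ring
    · simp; ring
  rw [h2] at h1
  simp only [Finset.univ_unique, Finset.sum_singleton] at h1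
  rw [capFun_eq γ ν q hγ1 hq0 hq1, div_le_iff₀ hl]
  have h3 : Real.negMulLog (1 - q + q) = 0 := by simp
  rw [h3] at h1
  linarith

/-- the Holevo quantity of an ensemble is at most `capFun` at its average diagonal -/
theorem holevoSet_le_capFun (γ ν : ℝ) (hγ0 : 0 ≤ γ) (hγ1 : γ ≤ 1) (hν0 : 0 ≤ ν) (hν1 : ν ≤ 1)
    (hs : Star (gadc γ ν)) (v : ℝ) (hv : v ∈ holevoSet (gadc γ ν)) :
    ∃ q : ℝ, 0 ≤ q ∧ q ≤ 1 ∧ v ≤ capFun γ ν q := by
  have hl : 0 < Real.log 2 := Real.log_pos (by norm_num)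
  have hc := diagChan_gadc γ ν hγ0 hγ1 hν0 hν1
  obtain ⟨m, w, ρ, hw, hw1, hρ, rfl⟩ := hv
  set s : Fin m → ℝ := fun a => (ρ a 1 1).re with hsdef
  have hs0 : ∀ a, 0 ≤ s a := fun a => (Complex.le_def.mp ((hρ a).1.diag_nonneg (i := 1))).1
  have hs00 : ∀ a, 0 ≤ (ρ a 0 0).re := fun a =>
    (Complex.le_def.mp ((hρ a).1.diag_nonneg (i := 0))).1
  have htr : ∀ a, (ρ a 0 0).re = 1 - s a := by
    intro a
    have h1 : rtr (ρ a) = 1 := rtr_state (hρ a)
    rw [rtr_eq_sum, Fin.sum_univ_two] at h1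
    simp only [hsdef]; linarith
  have hs1 : ∀ a, s a ≤ 1 := fun a => by have := hs00 a; rw [htr a] at this; linarith
  set qb := ∑ a, w a * s a with hqb
  have hqb0 : 0 ≤ qb := Finset.sum_nonneg fun a _ => mul_nonneg (hw a) (hs0 a)
  have hqb1 : qb ≤ 1 := by
    rw [← hw1]
    exact Finset.sum_le_sum fun a _ => by nlinarith [hw a, hs1 a]
  refine ⟨qb, hqb0, hqb1, ?_⟩
  rw [capFun_eq γ ν qb hγ1 hqb0 hqb1, le_div_iff₀ hl]
  have hpsd : (∑ a, (w a : ℂ) • gadc γ ν (ρ a)).PosSemidef :=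
    psd_sum_smul hw fun a => hc.posSemidef_map _ (hρ a).1
  have e1 : eta (∑ a, (w a : ℂ) • gadc γ ν (ρ a)) ≤ Real.binEntropy ((1 - γ) * qb + γ * ν) := by
    refine (eta_le_sum_diag _ hpsd).trans (le_of_eq ?_)
    have hd : ∀ c : Fin 2, ((∑ a, (w a : ℂ) • gadc γ ν (ρ a)) c c).re
        = Wg γ ν c 0 * (1 - qb) + Wg γ ν c 1 * qb := by
      intro c
      rw [Matrix.sum_apply, Complex.re_sum]
      have e : ∀ a, (((w a : ℂ) • gadc γ ν (ρ a)) c c).re
          = Wg γ ν c 0 * (w a - w a * s a) + Wg γ ν c 1 * (w a * s a) := by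
        intro a
        rw [Matrix.smul_apply, smul_eq_mul, hc.diag, Complex.re_ofReal_mul, Complex.re_sum,
          Fin.sum_univ_two, Complex.re_ofReal_mul, Complex.re_ofReal_mul, htr a]
        ring
      rw [Finset.sum_congr rfl fun a _ => e a, Finset.sum_add_distrib, ← Finset.mul_sum,
        ← Finset.mul_sum, Finset.sum_sub_distrib, hw1]
    rw [Fin.sum_univ_two, hd, hd, Real.binEntropy_eq_negMulLog_add_negMulLog_one_sub, add_comm]
    simp only [Wg]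
    congr 2
    · simp; ring
    · simp; ring
  have e2 : ∀ a, FF (gadc γ ν) (1 - s a) (s a) ≤ eta (gadc γ ν (ρ a)) := by
    intro a
    have := hs.single (ρ a) (hρ a).1
    rw [htr a] at this
    exact this
  have e3 : FF (gadc γ ν) (1 - qb) qb ≤ ∑ a, w a * eta (gadc γ ν (ρ a)) := by
    have h1 := (outEnt_convex γ ν hγ0 hγ1 hν0 hν1).map_sum_le (t := Finset.univ) (w := w) (p := s)
      (fun a _ => hw a) hw1 (fun a _ => ⟨hs0 a, hs1 a⟩)
    simp only [smul_eq_mul] at h1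
    rw [← hqb, ← FF_gadc γ ν qb hγ1 hqb0 hqb1] at h1
    refine h1.trans (Finset.sum_le_sum fun a _ => ?_)
    rw [← FF_gadc γ ν (s a) hγ1 (hs0 a) (hs1 a)]
    exact mul_le_mul_of_nonneg_left (e2 a) (hw a)
  have e4 : (vonNeumann (∑ a, (w a : ℂ) • gadc γ ν (ρ a)) -
      ∑ a, w a * vonNeumann (gadc γ ν (ρ a))) * Real.log 2 =
      eta (∑ a, (w a : ℂ) • gadc γ ν (ρ a)) - ∑ a, w a * eta (gadc γ ν (ρ a)) := by
    rw [vonNeumann_eq, sub_mul, div_mul_cancel₀ _ hl.ne', Finset.sum_mul]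
    congr 1
    apply Finset.sum_congr rfl
    intro a _
    rw [vonNeumann_eq]
    field_simp
  rw [e4]
  linarith

/-- F4 : the one-letter formula. -/
theorem holevo_formula (γ ν : ℝ) (hγ0 : 0 ≤ γ) (hγ1 : γ ≤ 1) (hν0 : 0 ≤ ν) (hν1 : ν ≤ 1)
    (hs : Star (gadc γ ν)) : IsGreatest (capFun γ ν '' Icc 0 1) (holevo (gadc γ ν)) := by
  have hc := diagChan_gadc γ ν hγ0 hγ1 hν0 hν1
  obtain ⟨q, hq, hmax⟩ := isCompact_Icc.exists_isMaxOn (⟨0, by simp⟩ : (Icc (0 : ℝ) 1).Nonempty)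
    (capFun_continuous γ ν).continuousOn
  have hle := capFun_le_holevo γ ν hγ0 hγ1 hν0 hν1 q hq.1 hq.2
  have hge : holevo (gadc γ ν) ≤ capFun γ ν q := by
    have hne : (holevoSet (gadc γ ν)).Nonempty := by
      refine ⟨_, mem_holevoSet_of_fintype (gadc γ ν) (ι := Unit) (fun _ => 1)
        (fun _ => psis 1 1 0) (fun _ => zero_le_one) (by simp)
        fun _ => ⟨psis_psd (by norm_num) zero_le_one le_rfl, ?_⟩⟩
      simp [psis, trace, Fin.sum_univ_two]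
    refine csSup_le hne fun v hv => ?_
    obtain ⟨q', h0, h1, h2⟩ := holevoSet_le_capFun γ ν hγ0 hγ1 hν0 hν1 hs v hv
    exact h2.trans (hmax ⟨h0, h1⟩)
  refine ⟨⟨q, hq, le_antisymm hle hge⟩, ?_⟩
  rintro _ ⟨q', hq', rfl⟩
  exact capFun_le_holevo γ ν hγ0 hγ1 hν0 hν1 q' hq'.1 hq'.2

end Vale.Agent.P358
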