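import Vale.Agent.P358.GDefs

/-!
# P358, pieces N6a : integrability of `gfY(1/t) - y ln(1+1/t)`
-/

open MeasureTheory Set
open scoped BigOperators ComplexOrder MatrixOrder

namespace Vale.Agent.P358

namespace GIntAux

theorem integrable_of_bounds {F : ℝ → ℝ} (hm : Measurable F) {K : ℝ}
    (h1 : ∀ t, 0 < t → t ≤ 1 → |F t| ≤ K * t ^ (-(1 / 2) : ℝ))
    (h2 : ∀ t, 1 ≤ t → |F t| ≤ K * (1 / t) ^ 2) : IntegrableOn F (Ioi 0) := by
  have hu : Ioc (0 : ℝ) 1 ∪ Ioi 1 = Ioi 0 := Ioc_union_Ioi_eq_Ioi zero_le_one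
  rw [← hu]
  refine IntegrableOn.union ?_ ?_
  · have h3 : IntegrableOn (fun t : ℝ => K * t ^ (-(1 / 2) : ℝ)) (Ioc 0 1) := by
      have := (intervalIntegral.intervalIntegrable_rpow' (a := 0) (b := 1)
        (r := (-(1 / 2) : ℝ)) (by norm_num))
      rw [intervalIntegrable_iff_integrableOn_Ioc_of_le zero_le_one] at this
      exact this.const_mul K
    refine Integrable.mono' h3 hm.aestronglyMeasurable ?_
    filter_upwards [ae_restrict_mem measurableSet_Ioc] with t ht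
    rw [Real.norm_eq_abs]
    exact h1 t ht.1 ht.2
  · have h3 : IntegrableOn (fun t : ℝ => K * t ^ (-2 : ℝ)) (Ioi 1) :=
      (integrableOn_Ioi_rpow_of_lt (by norm_num) zero_lt_one).const_mul K
    refine Integrable.mono' h3 hm.aestronglyMeasurable ?_
    filter_upwards [ae_restrict_mem measurableSet_Ioi] with t ht
    rw [Real.norm_eq_abs]
    have ht' : (1 : ℝ) < t := ht
    have ht0 : (0 : ℝ) < t := by linarith
    have := h2 t ht'.le
    have e : t ^ (-2 : ℝ) = (1 / t) ^ 2 := by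
      rw [Real.rpow_neg ht0.le, Real.rpow_two, one_div, inv_pow]
    rw [e]
    exact this

section
variable {x y B C r : ℝ}

theorem p_nonneg (hx : 0 ≤ x) (hB : 0 ≤ B) (hr : 0 ≤ r) : 0 ≤ x * r / (1 + B * r) := by
  positivity

theorem p_le (hx : 0 ≤ x) (hB : 0 ≤ B) (hr : 0 ≤ r) : x * r / (1 + B * r) ≤ x * r := by
  apply div_le_self (by positivity)
  nlinarith [mul_nonneg hB hr]

theorem p_ge (hx : 0 ≤ x) (hB : 0 ≤ B) (hr : 0 ≤ r) :
    x * r - x * B * r ^ 2 ≤ x * r / (1 + B * r) := by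
  rw [le_div_iff₀ (by positivity)]
  nlinarith [mul_nonneg (mul_nonneg hx (mul_nonneg hB hB)) (pow_nonneg hr 3)]

theorem one_le_gn (hx : 0 ≤ x) (hy : 0 ≤ y) (hB : 0 ≤ B) (hC : 0 ≤ C) (hr : 0 ≤ r) :
    1 ≤ gn x y B C r := by
  have h1 := p_nonneg hx hB hr
  have h2 := p_nonneg hy hC hr
  unfold gn
  linarith

theorem gn_le (hx : 0 ≤ x) (hy : 0 ≤ y) (hB : 0 ≤ B) (hC : 0 ≤ C) (hr : 0 ≤ r) :
    gn x y B C r ≤ 1 + (x + y) * r := by
  have h1 := p_le hx hB hr
  have h2 := p_le hy hC hr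
  unfold gn
  linarith

theorem one_le_gN (hx : 0 ≤ x) (hy : 0 ≤ y) (hB : 0 ≤ B) (hC : 0 ≤ C) (hr : 0 ≤ r) :
    1 ≤ gN x y B C r := by
  unfold gN
  rw [Real.one_le_sqrt]
  exact one_le_gn hx hy hB hC hr

theorem gN_sq (hx : 0 ≤ x) (hy : 0 ≤ y) (hB : 0 ≤ B) (hC : 0 ≤ C) (hr : 0 ≤ r) :
    gN x y B C r ^ 2 = gn x y B C r := by
  unfold gN
  rw [Real.sq_sqrt]
  linarith [one_le_gn hx hy hB hC hr]

/-- `p + q = N² - 1` -/
theorem pq_eq (hx : 0 ≤ x) (hy : 0 ≤ y) (hB : 0 ≤ B) (hC : 0 ≤ C) (hr : 0 ≤ r) :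
    x * r / (1 + B * r) + y * r / (1 + C * r) = gN x y B C r ^ 2 - 1 := by
  rw [gN_sq hx hy hB hC hr]
  unfold gn
  ring

end

/-- the basic estimates on `z/(N+1)` and `z/(N(N+1))` -/
theorem quot4 {z N : ℝ} (hz : 0 ≤ z) (hN : 1 ≤ N) (hzN : z ≤ N ^ 2 - 1) :
    0 ≤ z / (N + 1) ∧ z / (N + 1) ≤ N - 1 ∧ z / (N + 1) ≤ z / 2 ∧
      z / 2 - z * (N - 1) / 4 ≤ z / (N + 1) := by
  refine ⟨by positivity, ?_, ?_, ?_⟩
  · rw [div_le_iff₀ (by positivity)]
    nlinarith
  · apply div_le_div_of_nonneg_left hz (by norm_num) (by linarith)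
  · rw [le_div_iff₀ (by positivity)]
    have : 0 ≤ z * (N - 1) ^ 2 := by positivity
    nlinarith

theorem quot3 {z N : ℝ} (hz : 0 ≤ z) (hN : 1 ≤ N) (hzN : z ≤ N ^ 2 - 1) :
    0 ≤ z / (N * (N + 1)) ∧ z / (N * (N + 1)) ≤ 1 ∧ z / (N * (N + 1)) ≤ z / 2 ∧
      z / 2 - z * (N - 1) ≤ z / (N * (N + 1)) := by
  have hN0 : 0 < N := by linarith
  refine ⟨by positivity, ?_, ?_, ?_⟩
  · rw [div_le_one (by positivity)]
    nlinarith
  · apply div_le_div_of_nonneg_left hz (by norm_num) (by nlinarith)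
  · rw [le_div_iff₀ (by positivity)]
    have h1 : (1 / 2 - (N - 1)) * (N * (N + 1)) ≤ 1 := by nlinarith [mul_nonneg (sub_nonneg.2 hN) hN0.le]
    nlinarith

theorem measurable_gn (x y B C : ℝ) : Measurable (gn x y B C) := by
  unfold gn
  fun_prop

theorem measurable_gN (x y B C : ℝ) : Measurable (gN x y B C) := by
  unfold gN
  exact (measurable_gn x y B C).sqrt

theorem measurable_gf4 (x y B C : ℝ) : Measurable (gf4 x y B C) := by
  have := measurable_gN x y B C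
  unfold gf4
  fun_prop

theorem measurable_gf3 (x y B C : ℝ) : Measurable (gf3 x y B C) := by
  have := measurable_gN x y B C
  unfold gf3
  fun_prop

theorem measurable_gp4 (x y B C : ℝ) : Measurable (gp4 x y B C) := by
  have := measurable_gN x y B C
  unfold gp4
  fun_prop

theorem measurable_gp3 (x y B C : ℝ) : Measurable (gp3 x y B C) := by
  have := measurable_gN x y B C
  unfold gp3
  fun_prop

theorem measurable_gS (x y B C : ℝ) : Measurable (gS x y B C) := by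
  have h3 := measurable_gf3 x y B C
  have h4 := measurable_gf4 x y B C
  unfold gS
  fun_prop

theorem measurable_gtY (x y B C : ℝ) : Measurable (gtY x y B C) := by
  have h3 := measurable_gn x y B C
  unfold gtY
  fun_prop

theorem measurable_gfY (x y B C : ℝ) : Measurable (gfY x y B C) := by
  have h3 := measurable_gS x y B C
  have h4 := measurable_gtY x y B C
  unfold gfY
  fun_prop

/-- bounds of `gfY` for large `r` -/
theorem gfY_abs_le {x y B C r : ℝ} (hx : 0 ≤ x) (hy : 0 ≤ y) (hB : 0 ≤ B) (hC : 0 ≤ C)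
    (hr : 0 ≤ r) : |gfY x y B C r| ≤ Real.log (1 + (x + y) * r) + 1 := by
  have hN := one_le_gN hx hy hB hC hr
  have hn := one_le_gn hx hy hB hC hr
  have hn2 := gn_le hx hy hB hC hr
  have hpq := pq_eq hx hy hB hC hr
  have hp := p_nonneg hx hB hr
  have hq := p_nonneg hy hC hr
  obtain ⟨a1, a2, a3, a4⟩ := quot4 hq hN (by linarith)
  obtain ⟨b1, b2, b3, b4⟩ := quot3 hq hN (by linarith)
  have e1 : 0 ≤ 2 * Real.log (1 + gf4 x y B C r) := by
    have : 0 ≤ Real.log (1 + gf4 x y B C r) := Real.log_nonneg (by unfold gf4; linarith)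
    linarith
  have e2 : 2 * Real.log (1 + gf4 x y B C r) ≤ Real.log (1 + (x + y) * r) := by
    have h1 : Real.log (1 + gf4 x y B C r) ≤ Real.log (gN x y B C r) := by
      apply Real.log_le_log
      · unfold gf4; linarith
      · unfold gf4; linarith
    have h2 : Real.log (gn x y B C r) = 2 * Real.log (gN x y B C r) := by
      rw [← gN_sq hx hy hB hC hr, Real.log_pow]
      norm_num
    have h3 : Real.log (gn x y B C r) ≤ Real.log (1 + (x + y) * r) :=
      Real.log_le_log (by linarith) hn2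
    linarith
  have e3 : 0 ≤ 2 * gf3 x y B C r - gf3 x y B C r ^ 2 := by
    have : gf3 x y B C r ≤ 1 := by unfold gf3; exact b2
    have : 0 ≤ gf3 x y B C r := by unfold gf3; exact b1
    nlinarith
  have e4 : 2 * gf3 x y B C r - gf3 x y B C r ^ 2 ≤ 1 := by
    nlinarith [sq_nonneg (gf3 x y B C r - 1)]
  have e5 : 0 ≤ gtY x y B C r := by unfold gtY; positivity
  have e6 : gtY x y B C r ≤ 1 := by
    unfold gtY
    rw [div_le_one (by positivity)]
    have h1 : y * r / (1 + C * r) ≤ gn x y B C r := by unfold gn; linarith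
    have h2 : 0 ≤ C * r := by positivity
    nlinarith
  rw [abs_le]
  unfold gfY gS
  constructor <;> linarith

theorem core_lower {x y C r q N f4 f3 L M T : ℝ} (hx : 0 ≤ x) (hy : 0 ≤ y) (hC : 0 ≤ C)
    (hr : 0 ≤ r) (hq1 : q ≤ y * r) (hq2 : y * r - y * C * r ^ 2 ≤ q)
    (hqN : q * (N - 1) ≤ y * (x + y) * r ^ 2 / 2)
    (a1 : 0 ≤ f4) (a3 : f4 ≤ q / 2) (a4 : q / 2 - q * (N - 1) / 4 ≤ f4)
    (b1 : 0 ≤ f3) (b3 : f3 ≤ q / 2) (b4 : q / 2 - q * (N - 1) ≤ f3)
    (l2 : f4 - f4 ^ 2 / 2 ≤ L) (m3 : M ≤ y * r) (t1 : T ≤ q) :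
    -((y * (3 * (x + y) + C + (1 + (x + y)) * C) + y + y ^ 2) * r ^ 2) ≤
      2 * L + 2 * f3 - f3 ^ 2 - T - M := by
  have s4 : f4 ^ 2 ≤ y ^ 2 * r ^ 2 / 4 := by
    have : f4 ≤ y * r / 2 := by linarith
    have := mul_le_mul this this a1 (by positivity)
    linarith
  have s3 : f3 ^ 2 ≤ y ^ 2 * r ^ 2 / 4 := by
    have : f3 ≤ y * r / 2 := by linarith
    have := mul_le_mul this this b1 (by positivity)
    linarith
  have z1 : 0 ≤ y * (x + y) * r ^ 2 := by positivity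
  have z2 : 0 ≤ y * C * r ^ 2 := by positivity
  have z3 : 0 ≤ y * ((1 + (x + y)) * C) * r ^ 2 := by positivity
  have z4 : 0 ≤ y * r ^ 2 := by positivity
  have z5 : 0 ≤ y ^ 2 * r ^ 2 := by positivity
  linarith

theorem core_upper {x y C r q f4 f3 L M T : ℝ} (hx : 0 ≤ x) (hy : 0 ≤ y) (hC : 0 ≤ C)
    (hq1 : q ≤ y * r)
    (a3 : f4 ≤ q / 2) (b3 : f3 ≤ q / 2)
    (l1 : L ≤ f4) (m4 : y * (r - r ^ 2 / 2) ≤ M)
    (t2 : q - y * (x + y + (1 + (x + y)) * C) * r ^ 2 ≤ T) :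
      2 * L + 2 * f3 - f3 ^ 2 - T - M ≤
      ((y * (3 * (x + y) + C + (1 + (x + y)) * C) + y + y ^ 2) * r ^ 2) := by
  have z1 : 0 ≤ y * (x + y) * r ^ 2 := by positivity
  have z2 : 0 ≤ y * C * r ^ 2 := by positivity
  have z3 : 0 ≤ y * ((1 + (x + y)) * C) * r ^ 2 := by positivity
  have z4 : 0 ≤ y * r ^ 2 := by positivity
  have z5 : 0 ≤ y ^ 2 * r ^ 2 := by positivity
  have w1 : 0 ≤ f3 ^ 2 := sq_nonneg _
  linarith

theorem gtY_upper {x y B C r : ℝ} (hx : 0 ≤ x) (hy : 0 ≤ y) (hB : 0 ≤ B) (hC : 0 ≤ C)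
    (hr : 0 ≤ r) : gtY x y B C r ≤ y * r / (1 + C * r) := by
  have hn := one_le_gn hx hy hB hC hr
  have hq := p_nonneg hy hC hr
  have hD1 : (1 : ℝ) ≤ 1 + C * r := by linarith [mul_nonneg hC hr]
  unfold gtY
  apply div_le_self hq
  nlinarith

theorem gtY_lower {x y B C r : ℝ} (hx : 0 ≤ x) (hy : 0 ≤ y) (hB : 0 ≤ B) (hC : 0 ≤ C)
    (hr : 0 ≤ r) (hr1 : r ≤ 1) :
    y * r / (1 + C * r) - y * (x + y + (1 + (x + y)) * C) * r ^ 2 ≤ gtY x y B C r := by
  have hn := one_le_gn hx hy hB hC hr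
  have hn2 := gn_le hx hy hB hC hr
  have hq := p_nonneg hy hC hr
  have hq1 := p_le hy hC hr
  have hD1 : (1 : ℝ) ≤ 1 + C * r := by linarith [mul_nonneg hC hr]
  unfold gtY
  generalize y * r / (1 + C * r) = q at *
  generalize gn x y B C r = n at *
  rw [le_div_iff₀ (by positivity)]
  have h1 : n * (1 + C * r) - 1 ≤ ((x + y) + (1 + (x + y)) * C) * r := by
    have h2 : n * (1 + C * r) ≤ (1 + (x + y) * r) * (1 + C * r) :=
      mul_le_mul_of_nonneg_right hn2 (by positivity)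
    have h3 : (x + y) * r * (C * r) ≤ (x + y) * 1 * (C * r) :=
      mul_le_mul_of_nonneg_right (mul_le_mul_of_nonneg_left hr1 (by positivity)) (by positivity)
    linarith
  have h4 : 1 ≤ n * (1 + C * r) := by nlinarith
  have h5 : q * (n * (1 + C * r) - 1) ≤
      y * r * (((x + y) + (1 + (x + y)) * C) * r) :=
    mul_le_mul hq1 h1 (by linarith) (by positivity)
  have h6 : 0 ≤ y * (x + y + (1 + (x + y)) * C) * r ^ 2 := by positivity
  have h7 : y * (x + y + (1 + (x + y)) * C) * r ^ 2 * 1 ≤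
      y * (x + y + (1 + (x + y)) * C) * r ^ 2 * (n * (1 + C * r)) :=
    mul_le_mul_of_nonneg_left h4 h6
  linarith

theorem log_lower {z : ℝ} (hz : 0 ≤ z) : z - z ^ 2 / 2 ≤ Real.log (1 + z) := by
  have h1 := Real.le_log_one_add_of_nonneg hz
  have h2 : z - z ^ 2 / 2 ≤ 2 * z / (z + 2) := by
    rw [le_div_iff₀ (by positivity)]
    linarith [pow_nonneg hz 3]
  linarith

theorem log_upper {z : ℝ} (hz : 0 ≤ z) : Real.log (1 + z) ≤ z := by
  have := Real.log_le_sub_one_of_pos (show 0 < 1 + z by linarith)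
  linarith

/-- bounds of `gfY(r) - y ln(1+r)` for small `r` -/
theorem gfY_sub_abs_le {x y B C r : ℝ} (hx : 0 ≤ x) (hy : 0 ≤ y) (hB : 0 ≤ B) (hC : 0 ≤ C)
    (hr : 0 ≤ r) (hr1 : r ≤ 1) :
    |gfY x y B C r - y * Real.log (1 + r)| ≤
      (y * (3 * (x + y) + C + (1 + (x + y)) * C) + y + y ^ 2) * r ^ 2 := by
  have hN := one_le_gN hx hy hB hC hr
  have hn2 := gn_le hx hy hB hC hr
  have hpq := pq_eq hx hy hB hC hr
  have hp := p_nonneg hx hB hr
  have hq := p_nonneg hy hC hr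
  have hq1 := p_le hy hC hr
  have hq2 := p_ge hy hC hr
  have hsq := gN_sq hx hy hB hC hr
  have hN1 : gN x y B C r - 1 ≤ (x + y) * r / 2 := by
    rw [← hsq] at hn2
    have : 0 ≤ (gN x y B C r - 1) ^ 2 := sq_nonneg _
    linarith
  obtain ⟨a1, a2, a3, a4⟩ := quot4 hq hN (by linarith)
  obtain ⟨b1, b2, b3, b4⟩ := quot3 hq hN (by linarith)
  have hqN := mul_le_mul hq1 hN1 (by linarith) (by positivity)
  have m3 : y * Real.log (1 + r) ≤ y * r := mul_le_mul_of_nonneg_left (log_upper hr) hy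
  have m4 : y * (r - r ^ 2 / 2) ≤ y * Real.log (1 + r) :=
    mul_le_mul_of_nonneg_left (log_lower hr) hy
  have e : gfY x y B C r - y * Real.log (1 + r) =
      2 * Real.log (1 + gf4 x y B C r) + 2 * gf3 x y B C r - gf3 x y B C r ^ 2
        - gtY x y B C r - y * Real.log (1 + r) := by
    unfold gfY gS
    ring
  rw [e, abs_le]
  constructor
  · exact core_lower hx hy hC hr hq1 hq2 (by linarith) a1 a3 a4 b1 b3 b4 (log_lower a1) m3
      (gtY_upper hx hy hB hC hr)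
  · exact core_upper hx hy hC hq1 a3 b3 (log_upper a1) m4 (gtY_lower hx hy hB hC hr hr1)

end GIntAux

open GIntAux

/-- N6a -/
theorem gfY_integrable {x y B C : ℝ} (hx : 0 < x) (hy : 0 < y) (hB : 0 ≤ B) (hC : 0 ≤ C) :
    IntegrableOn (fun t : ℝ => gfY x y B C (1 / t) - y * Real.log (1 + 1 / t)) (Ioi 0) := by
  set K1 : ℝ := 2 * Real.sqrt (x + y) + 1 + 2 * y with hK1
  set K2 : ℝ := (y * (3 * (x + y) + C + (1 + (x + y)) * C) + y + y ^ 2) with hK2
  have hK1n : 0 ≤ K1 := by positivity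
  have hK2n : 0 ≤ K2 := by positivity
  refine integrable_of_bounds (K := K1 + K2) ?_ ?_ ?_
  · have := measurable_gfY x y B C
    have h1 : Measurable (fun t : ℝ => gfY x y B C (1 / t)) := this.comp (by fun_prop)
    fun_prop
  · intro t ht ht1
    have hr : 0 ≤ 1 / t := by positivity
    have h1 := gfY_abs_le hx.le hy.le hB hC hr
    have hs : t ^ (-(1 / 2) : ℝ) = Real.sqrt (1 / t) := by
      rw [Real.rpow_neg ht.le, ← Real.sqrt_eq_rpow, one_div, Real.sqrt_inv]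
    have hs1 : 1 ≤ Real.sqrt (1 / t) := by
      rw [Real.one_le_sqrt, one_div]
      exact (one_le_inv₀ ht).2 ht1
    have key : ∀ a : ℝ, 0 ≤ a → Real.log (1 + a * (1 / t)) ≤ 2 * Real.sqrt a * Real.sqrt (1 / t) := by
      intro a ha
      have h2 : Real.log (1 + a * (1 / t)) = 2 * Real.log (Real.sqrt (1 + a * (1 / t))) := by
        rw [Real.log_sqrt (by positivity)]
        ring
      have h3 : Real.log (Real.sqrt (1 + a * (1 / t))) ≤ Real.sqrt (1 + a * (1 / t)) - 1 :=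
        Real.log_le_sub_one_of_pos (by positivity)
      have h4 : Real.sqrt (1 + a * (1 / t)) ≤ 1 + Real.sqrt (a * (1 / t)) := by
        rw [Real.sqrt_le_left (by positivity)]
        have := Real.sq_sqrt (show 0 ≤ a * (1 / t) by positivity)
        nlinarith [Real.sqrt_nonneg (a * (1 / t))]
      have h5 : Real.sqrt (a * (1 / t)) = Real.sqrt a * Real.sqrt (1 / t) := Real.sqrt_mul ha _
      rw [h2]
      linarith
    have h2 := key (x + y) (by positivity)
    have h3 := key 1 zero_le_one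
    rw [Real.sqrt_one, one_mul] at h3
    have h4 : 0 ≤ Real.log (1 + 1 / t) := Real.log_nonneg (by linarith)
    have h5 : |gfY x y B C (1 / t) - y * Real.log (1 + 1 / t)| ≤
        |gfY x y B C (1 / t)| + y * Real.log (1 + 1 / t) := by
      refine (abs_sub _ _).trans ?_
      rw [abs_of_nonneg (mul_nonneg hy.le h4)]
    have h6 : y * Real.log (1 + 1 / t) ≤ y * (2 * Real.sqrt (1 / t)) :=
      mul_le_mul_of_nonneg_left (by linarith) hy.le
    rw [hs]
    have h7 : 0 ≤ K2 * Real.sqrt (1 / t) := by positivity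
    nlinarith
  · intro t ht
    have ht0 : 0 < t := by linarith
    have hr : 0 ≤ 1 / t := by positivity
    have hr1 : 1 / t ≤ 1 := by
      rw [div_le_one ht0]
      exact ht
    have h1 := gfY_sub_abs_le hx.le hy.le hB hC hr hr1
    have h2 : 0 ≤ K1 * (1 / t) ^ 2 := by positivity
    linarith

end Vale.Agent.P358
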