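import Vale.Agent.P358.GEC4All

/-!
# P358, general `ν`: the key entropy inequality for the generalized amplitude-damping channel
-/

open Matrix Finset MeasureTheory Set
open scoped BigOperators ComplexOrder MatrixOrder

namespace Vale.Agent.P358

section
variable {R S : Type} [Fintype R] [DecidableEq R] [Fintype S] [DecidableEq S]

/-- `η(M) - η(Tr M)`, homogeneous of degree one -/
noncomputable def GG1 (M : Matrix R R ℂ) : ℝ := eta M - Real.negMulLog (rtr M)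

omit [Fintype S] [DecidableEq S] in
lemma GG1_smul (c : ℝ) (M : Matrix R R ℂ) (hM : M.IsHermitian) :
    GG1 ((c : ℂ) • M) = c * GG1 M := by
  unfold GG1
  rw [eta_smul c M hM, rtr_smul, Real.negMulLog_mul]
  ring

omit [Fintype S] [DecidableEq S] in
lemma GG1_add (M N : Matrix R R ℂ) (hM : M.PosSemidef) (hN : N.PosSemidef) :
    GG1 M + GG1 N ≤ GG1 (M + N) := eta_superadd M N hM hN

/-- Block entropy inequality for `[[αX+βY, κZ],[κZ*, α'X+β'Y]]`. -/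
theorem eta_block_ge (P Q : Matrix R S ℂ) (α β α' β' κ : ℝ) (hα : 0 < α) (hβ : 0 ≤ β)
    (hα' : 0 ≤ α') (hκ : 0 ≤ κ) (h1 : α + α' = 1) (h2 : β + β' = 1)
    (hdet : α * β' = κ * κ + α' * β) :
    eta (P * Pᴴ) + eta (Q * Qᴴ) - Real.negMulLog (rtr (P * Pᴴ)) - Real.negMulLog (rtr (Q * Qᴴ))
      + eta !![((α * rtr (P * Pᴴ) + β * rtr (Q * Qᴴ) : ℝ) : ℂ),
          ((κ * Real.sqrt (rtr (P * Pᴴ) * rtr (Q * Qᴴ)) : ℝ) : ℂ);
          ((κ * Real.sqrt (rtr (P * Pᴴ) * rtr (Q * Qᴴ)) : ℝ) : ℂ),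
          ((α' * rtr (P * Pᴴ) + β' * rtr (Q * Qᴴ) : ℝ) : ℂ)]
    ≤ eta (Matrix.fromBlocks ((α : ℂ) • (P * Pᴴ) + (β : ℂ) • (Q * Qᴴ)) ((κ : ℂ) • (P * Qᴴ))
        ((κ : ℂ) • (Q * Pᴴ)) ((α' : ℂ) • (P * Pᴴ) + (β' : ℂ) • (Q * Qᴴ))) := by
  have hPP := Matrix.posSemidef_self_mul_conjTranspose P
  have hQQ := Matrix.posSemidef_self_mul_conjTranspose Q
  set x := rtr (P * Pᴴ) with hx
  set y := rtr (Q * Qᴴ) with hy
  have hx0 : 0 ≤ x := rtr_nonneg _ hPP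
  have hy0 : 0 ≤ y := rtr_nonneg _ hQQ
  set P' : Matrix R S ℂ := ((Real.sqrt α : ℝ) : ℂ) • P with hP'
  set Q' : Matrix R S ℂ := ((κ / Real.sqrt α : ℝ) : ℂ) • Q with hQ'
  have hsα : 0 < Real.sqrt α := Real.sqrt_pos.mpr hα
  have hsα2 : Real.sqrt α * Real.sqrt α = α := Real.mul_self_sqrt hα.le
  have ePP : P' * P'ᴴ = (α : ℂ) • (P * Pᴴ) := by
    rw [hP', Matrix.conjTranspose_smul, Matrix.smul_mul, Matrix.mul_smul, smul_smul]
    congr 1
    simp only [Complex.star_def, Complex.conj_ofReal]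
    rw [← Complex.ofReal_mul, hsα2]
  have eQQ : Q' * Q'ᴴ = ((κ * κ / α : ℝ) : ℂ) • (Q * Qᴴ) := by
    rw [hQ', Matrix.conjTranspose_smul, Matrix.smul_mul, Matrix.mul_smul, smul_smul]
    congr 1
    simp only [Complex.star_def, Complex.conj_ofReal]
    rw [← Complex.ofReal_mul]
    congr 1
    rw [div_mul_div_comm, hsα2]
  have ePQ : P' * Q'ᴴ = (κ : ℂ) • (P * Qᴴ) := by
    rw [hP', hQ', Matrix.conjTranspose_smul, Matrix.smul_mul, Matrix.mul_smul, smul_smul]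
    congr 1
    simp only [Complex.star_def, Complex.conj_ofReal]
    rw [← Complex.ofReal_mul]
    congr 1
    field_simp
  have eQP : Q' * P'ᴴ = (κ : ℂ) • (Q * Pᴴ) := by
    rw [hP', hQ', Matrix.conjTranspose_smul, Matrix.smul_mul, Matrix.mul_smul, smul_smul]
    congr 1
    simp only [Complex.star_def, Complex.conj_ofReal]
    rw [← Complex.ofReal_mul]
    congr 1
    field_simp
  set Bh : Matrix R R ℂ := (β : ℂ) • (Q * Qᴴ) with hBh
  set Ch : Matrix R R ℂ := ((α' / α : ℝ) : ℂ) • ((α : ℂ) • (P * Pᴴ) + (β : ℂ) • (Q * Qᴴ)) with hCh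
  have hBpsd : Bh.PosSemidef := hQQ.smul (Complex.zero_le_real.mpr hβ)
  have hαX : ((α : ℂ) • (P * Pᴴ)).PosSemidef := hPP.smul (Complex.zero_le_real.mpr hα.le)
  have hS : ((α : ℂ) • (P * Pᴴ) + (β : ℂ) • (Q * Qᴴ)).PosSemidef := hαX.add hBpsd
  have hCpsd : Ch.PosSemidef := hS.smul (Complex.zero_le_real.mpr (by positivity))
  have hQ'psd := Matrix.posSemidef_self_mul_conjTranspose Q'
  have key := ec4_all P' Q' Bh Ch hBpsd hCpsd
  unfold EC4 at key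
  have eblk : Matrix.fromBlocks (P' * P'ᴴ + Bh) (P' * Q'ᴴ) (Q' * P'ᴴ) (Q' * Q'ᴴ + Ch)
      = Matrix.fromBlocks ((α : ℂ) • (P * Pᴴ) + (β : ℂ) • (Q * Qᴴ)) ((κ : ℂ) • (P * Qᴴ))
        ((κ : ℂ) • (Q * Pᴴ)) ((α' : ℂ) • (P * Pᴴ) + (β' : ℂ) • (Q * Qᴴ)) := by
    rw [ePP, ePQ, eQP, eQQ]
    congr 1
    rw [hCh, smul_add, smul_smul, smul_smul, ← Complex.ofReal_mul, ← Complex.ofReal_mul,
      add_left_comm, ← add_smul, ← Complex.ofReal_add]
    congr 2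
    · congr 1; field_simp
    · congr 1
      have : β' = (κ * κ + α' * β) / α := by rw [← hdet]; field_simp
      rw [this]; field_simp
  rw [eblk] at key
  have rP : rtr (P' * P'ᴴ) = α * x := by rw [ePP, rtr_smul]
  have rQ : rtr (Q' * Q'ᴴ) = κ * κ / α * y := by rw [eQQ, rtr_smul]
  have rB : rtr Bh = β * y := by rw [hBh, rtr_smul]
  have rC : rtr Ch = α' / α * (α * x + β * y) := by
    rw [hCh, rtr_smul, rtr_add, rtr_smul, rtr_smul]
  have hsq : Real.sqrt (α * x * (κ * κ / α * y)) = κ * Real.sqrt (x * y) := by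
    have : α * x * (κ * κ / α * y) = κ ^ 2 * (x * y) := by field_simp
    rw [this, Real.sqrt_mul (by positivity), Real.sqrt_sq hκ]
  have e22 : κ * κ / α * y + α' / α * (α * x + β * y) = α' * x + β' * y := by
    have : β' = (κ * κ + α' * β) / α := by rw [← hdet]; field_simp
    rw [this]; field_simp; ring
  rw [rP, rQ, rB, rC, hsq, e22] at key
  -- homogeneous parts
  have g1 : eta (P' * P'ᴴ) - Real.negMulLog (rtr (P' * P'ᴴ)) = α * GG1 (P * Pᴴ) := by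
    rw [ePP]; exact GG1_smul α _ hPP.1
  have g2 : eta (Q' * Q'ᴴ) - Real.negMulLog (rtr (Q' * Q'ᴴ)) = κ * κ / α * GG1 (Q * Qᴴ) := by
    rw [eQQ]; exact GG1_smul _ _ hQQ.1
  have g3 : eta Bh - Real.negMulLog (rtr Bh) = β * GG1 (Q * Qᴴ) := GG1_smul β _ hQQ.1
  have g4 : eta Ch - Real.negMulLog (rtr Ch)
      = α' / α * GG1 ((α : ℂ) • (P * Pᴴ) + (β : ℂ) • (Q * Qᴴ)) := GG1_smul _ _ hS.1
  have g5 := GG1_add _ _ hαX hBpsd
  rw [GG1_smul α _ hPP.1, hBh, GG1_smul β _ hQQ.1] at g5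
  have g6 := mul_le_mul_of_nonneg_left g5 (show 0 ≤ α' / α by positivity)
  have g7 : α' / α * (α * GG1 (P * Pᴴ) + β * GG1 (Q * Qᴴ))
      + α * GG1 (P * Pᴴ) + κ * κ / α * GG1 (Q * Qᴴ) + β * GG1 (Q * Qᴴ)
      = GG1 (P * Pᴴ) + GG1 (Q * Qᴴ) := by
    have e1 : α' / α * (α * GG1 (P * Pᴴ) + β * GG1 (Q * Qᴴ))
      + α * GG1 (P * Pᴴ) + κ * κ / α * GG1 (Q * Qᴴ) + β * GG1 (Q * Qᴴ)
      = (α + α') * GG1 (P * Pᴴ) + (β + (κ * κ + α' * β) / α) * GG1 (Q * Qᴴ) := by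
      field_simp
      ring
    rw [e1, h1, ← hdet, mul_div_cancel_left₀ _ hα.ne', h2]
    ring
  have g8 : GG1 (P * Pᴴ) = eta (P * Pᴴ) - Real.negMulLog x := rfl
  have g9 : GG1 (Q * Qᴴ) = eta (Q * Qᴴ) - Real.negMulLog y := rfl
  rw [rP] at g1
  rw [rQ] at g2
  rw [rB] at g3
  rw [rC] at g4
  linarith

end

end Vale.Agent.P358
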