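import Vale.Agent.P358.GStar

/-!
# P358, general `ν`: `Star (gadc γ ν)` for all parameters
-/

open Matrix Finset MeasureTheory Set
open scoped BigOperators ComplexOrder MatrixOrder

namespace Vale.Agent.P358

/-- The key entropy inequality for the generalized amplitude-damping channel, all parameters. -/
theorem star_gadc (γ ν : ℝ) (hγ0 : 0 ≤ γ) (hγ1 : γ ≤ 1) (hν0 : 0 ≤ ν) (hν1 : ν ≤ 1) :
    Star (gadc γ ν) := by
  rcases hν1.eq_or_lt with h1 | hν1'
  · rw [h1]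
    exact star_gadc_one γ hγ0 hγ1 (star_gadc_zero γ hγ0 hγ1)
  have hα : 0 < 1 - γ * ν := by nlinarith
  intro R _ _ M hM
  obtain ⟨a, ha⟩ := CStarAlgebra.nonneg_iff_eq_star_mul_self.mp hM.nonneg
  set P : Matrix R (Fin 2 × R) ℂ := Matrix.of fun r s => aᴴ (0, r) s with hP
  set Q : Matrix R (Fin 2 × R) ℂ := Matrix.of fun r s => aᴴ (1, r) s with hQ
  have hentry : ∀ u v, M u v = ∑ s, aᴴ u s * a s v := by
    intro u v
    rw [ha, Matrix.star_eq_conjTranspose, Matrix.mul_apply]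
  have h00 : ∀ r r', M (0, r) (0, r') = (P * Pᴴ) r r' := by
    intro r r'
    rw [hentry, Matrix.mul_apply]
    apply Finset.sum_congr rfl
    intro s _
    simp [hP, Matrix.conjTranspose_apply]
  have h01 : ∀ r r', M (0, r) (1, r') = (P * Qᴴ) r r' := by
    intro r r'
    rw [hentry, Matrix.mul_apply]
    apply Finset.sum_congr rfl
    intro s _
    simp [hP, hQ, Matrix.conjTranspose_apply]
  have h10 : ∀ r r', M (1, r) (0, r') = (Q * Pᴴ) r r' := by
    intro r r'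
    rw [hentry, Matrix.mul_apply]
    apply Finset.sum_congr rfl
    intro s _
    simp [hP, hQ, Matrix.conjTranspose_apply]
  have h11 : ∀ r r', M (1, r) (1, r') = (Q * Qᴴ) r r' := by
    intro r r'
    rw [hentry, Matrix.mul_apply]
    apply Finset.sum_congr rfl
    intro s _
    simp [hQ, Matrix.conjTranspose_apply]
  have hb0 : blk 0 M = P * Pᴴ := by
    ext r r'; exact h00 r r'
  have hb1 : blk 1 M = Q * Qᴴ := by
    ext r r'; exact h11 r r'
  have hout : (actL (gadc γ ν) M).submatrix (sumEquiv R) (sumEquiv R)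
      = Matrix.fromBlocks (((1 - γ * ν : ℝ) : ℂ) • (P * Pᴴ) + ((γ * (1 - ν) : ℝ) : ℂ) • (Q * Qᴴ))
        (((Real.sqrt (1 - γ) : ℝ) : ℂ) • (P * Qᴴ)) (((Real.sqrt (1 - γ) : ℝ) : ℂ) • (Q * Pᴴ))
        (((γ * ν : ℝ) : ℂ) • (P * Pᴴ) + ((1 - γ * (1 - ν) : ℝ) : ℂ) • (Q * Qᴴ)) := by
    ext u v
    rcases u with r | r <;> rcases v with r' | r'
    · simp only [sumEquiv, Matrix.submatrix_apply, Equiv.coe_fn_mk, Sum.elim_inl, actL,
        Matrix.of_apply, gadc, LinearMap.coe_mk, AddHom.coe_mk, Matrix.fromBlocks_apply₁₁,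
        Matrix.add_apply, Matrix.smul_apply, smul_eq_mul]
      simp [h00, h11]
      ring
    · simp only [sumEquiv, Matrix.submatrix_apply, Equiv.coe_fn_mk, Sum.elim_inl,
        Sum.elim_inr, actL,
        Matrix.of_apply, gadc, LinearMap.coe_mk, AddHom.coe_mk, Matrix.fromBlocks_apply₁₂,
        Matrix.smul_apply, smul_eq_mul]
      simp [h01]
    · simp only [sumEquiv, Matrix.submatrix_apply, Equiv.coe_fn_mk, Sum.elim_inl,
        Sum.elim_inr, actL,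
        Matrix.of_apply, gadc, LinearMap.coe_mk, AddHom.coe_mk, Matrix.fromBlocks_apply₂₁,
        Matrix.smul_apply, smul_eq_mul]
      simp [h10]
    · simp only [sumEquiv, Matrix.submatrix_apply, Equiv.coe_fn_mk,
        Sum.elim_inr, actL,
        Matrix.of_apply, gadc, LinearMap.coe_mk, AddHom.coe_mk, Matrix.fromBlocks_apply₂₂,
        Matrix.add_apply, Matrix.smul_apply, smul_eq_mul]
      simp [h00, h11]
      ring
  have heta : eta (actL (gadc γ ν) M) = eta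
      (Matrix.fromBlocks (((1 - γ * ν : ℝ) : ℂ) • (P * Pᴴ) + ((γ * (1 - ν) : ℝ) : ℂ) • (Q * Qᴴ))
        (((Real.sqrt (1 - γ) : ℝ) : ℂ) • (P * Qᴴ)) (((Real.sqrt (1 - γ) : ℝ) : ℂ) • (Q * Pᴴ))
        (((γ * ν : ℝ) : ℂ) • (P * Pᴴ) + ((1 - γ * (1 - ν) : ℝ) : ℂ) • (Q * Qᴴ))) := by
    rw [← hout, eta_submatrix_equiv]
  have hk0 : 0 ≤ 1 - γ := by linarith
  have hmain := eta_block_ge P Q (1 - γ * ν) (γ * (1 - ν)) (γ * ν) (1 - γ * (1 - ν))
    (Real.sqrt (1 - γ)) hα (mul_nonneg hγ0 (by linarith)) (mul_nonneg hγ0 hν0)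
    (Real.sqrt_nonneg _) (by ring) (by ring)
    (by rw [Real.mul_self_sqrt hk0]; ring)
  have hFF : FF (gadc γ ν) (rtr (P * Pᴴ)) (rtr (Q * Qᴴ))
      = eta !![(((1 - γ * ν) * rtr (P * Pᴴ) + γ * (1 - ν) * rtr (Q * Qᴴ) : ℝ) : ℂ),
          ((Real.sqrt (1 - γ) * Real.sqrt (rtr (P * Pᴴ) * rtr (Q * Qᴴ)) : ℝ) : ℂ);
          ((Real.sqrt (1 - γ) * Real.sqrt (rtr (P * Pᴴ) * rtr (Q * Qᴴ)) : ℝ) : ℂ),
          ((γ * ν * rtr (P * Pᴴ) + (1 - γ * (1 - ν)) * rtr (Q * Qᴴ) : ℝ) : ℂ)] := by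
    unfold FF
    congr 1
    ext i j
    fin_cases i <;> fin_cases j <;> simp [gadc, psi] <;> ring
  rw [hb0, hb1, heta, hFF]
  exact hmain

end Vale.Agent.P358
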