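import Vale.Agent.P358.Classical

/-!
# P358, piece C : tensor powers with a side system
-/

open Matrix Finset
open scoped BigOperators ComplexOrder

namespace Vale.Agent.P358

namespace TensorAux

/-- a linear map is determined by its values on matrix units -/
theorem map_eq_sum {α β : Type} [Fintype α] [DecidableEq α]
    (Φ : Matrix α α ℂ →ₗ[ℂ] Matrix β β ℂ) (N : Matrix α α ℂ) (b c : β) :
    Φ N b c = ∑ a, ∑ a', Φ (Matrix.single a a' 1) b c * N a a' := by
  conv_lhs => rw [Matrix.matrix_eq_sum_single N]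
  simp only [map_sum, Matrix.sum_apply]
  refine Finset.sum_congr rfl fun a _ => Finset.sum_congr rfl fun a' _ => ?_
  have h : Matrix.single a a' (N a a') = N a a' • Matrix.single a a' (1 : ℂ) := by
    rw [Matrix.smul_single, smul_eq_mul, mul_one]
  rw [h, map_smul, Matrix.smul_apply, smul_eq_mul, mul_comm]

theorem tensorPow_apply {α β : Type} [Fintype α] [DecidableEq α]
    (Φ : Matrix α α ℂ →ₗ[ℂ] Matrix β β ℂ) (n : ℕ) (M : Matrix (Fin n → α) (Fin n → α) ℂ)
    (i j : Fin n → β) :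
    tensorPow Φ n M i j = ∑ k : Fin n → α, ∑ l : Fin n → α,
      (∏ m, Φ (Matrix.single (k m) (l m) 1) (i m) (j m)) * M k l := rfl

theorem actL_apply {α β R : Type} (Φ : Matrix α α ℂ →ₗ[ℂ] Matrix β β ℂ)
    (M : Matrix (α × R) (α × R) ℂ) (b c : β) (r s : R) :
    actL Φ M (b, r) (c, s) = Φ (Matrix.of fun a a' => M (a, r) (a', s)) b c := rfl

theorem tensorPow_zero_apply {α β : Type} [Fintype α] [DecidableEq α]
    (Φ : Matrix α α ℂ →ₗ[ℂ] Matrix β β ℂ) (M : Matrix (Fin 0 → α) (Fin 0 → α) ℂ)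
    (i j : Fin 0 → β) (i' j' : Fin 0 → α) : tensorPow Φ 0 M i j = M i' j' := by
  rw [tensorPow_apply, Fintype.sum_unique, Fintype.sum_unique]
  rw [Finset.univ_eq_empty, Finset.prod_empty, one_mul, Subsingleton.elim i' default,
    Subsingleton.elim j' default]

theorem tensorPow_fin_two_apply (Φ : Matrix (Fin 2) (Fin 2) ℂ →ₗ[ℂ] Matrix (Fin 2) (Fin 2) ℂ)
    (n : ℕ) (M : Matrix (Fin (n + 1) → Fin 2) (Fin (n + 1) → Fin 2) ℂ)
    (i j : Fin (n + 1) → Fin 2) :
    tensorPow Φ (n + 1) M i j = ∑ k : Fin n → Fin 2, ∑ l : Fin n → Fin 2,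
      (∏ m, Φ (Matrix.single (k m) (l m) 1) (i m.succ) (j m.succ)) *
        Φ (Matrix.of fun a a' => M (Fin.cons a k) (Fin.cons a' l)) (i 0) (j 0) := by
  rw [tensorPow_apply, ClassicalAux.sum_fin_cons, Finset.sum_comm]
  refine Finset.sum_congr rfl fun k _ => ?_
  simp_rw [ClassicalAux.sum_fin_cons (n := n)]
  have h1 : ∀ a : Fin 2, (∑ a' : Fin 2, ∑ l : Fin n → Fin 2,
      (∏ m, Φ (Matrix.single ((Fin.cons a k : Fin (n + 1) → Fin 2) m)
        ((Fin.cons a' l : Fin (n + 1) → Fin 2) m) 1) (i m) (j m)) *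
        M (Fin.cons a k) (Fin.cons a' l)) =
      ∑ l : Fin n → Fin 2, ∑ a' : Fin 2, (∏ m, Φ (Matrix.single (k m) (l m) 1) (i m.succ)
        (j m.succ)) * (Φ (Matrix.single a a' 1) (i 0) (j 0) * M (Fin.cons a k) (Fin.cons a' l)) := by
    intro a
    rw [Finset.sum_comm]
    refine Finset.sum_congr rfl fun l _ => Finset.sum_congr rfl fun a' _ => ?_
    rw [Fin.prod_univ_succ]
    simp only [Fin.cons_zero, Fin.cons_succ]
    ring
  rw [Finset.sum_congr rfl fun a _ => h1 a, Finset.sum_comm]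
  refine Finset.sum_congr rfl fun l _ => ?_
  rw [map_eq_sum Φ (Matrix.of fun a a' => M (Fin.cons a k) (Fin.cons a' l)), Finset.mul_sum]
  refine Finset.sum_congr rfl fun a _ => ?_
  rw [Finset.mul_sum]
  rfl

end TensorAux

open TensorAux

section C
variable {Φ : Matrix (Fin 2) (Fin 2) ℂ →ₗ[ℂ] Matrix (Fin 2) (Fin 2) ℂ} {W : Fin 2 → Fin 2 → ℝ}
  {κ : ℝ}

/-- C1 : trace preservation with side system -/
theorem DiagChan.rtr_actL (h : DiagChan Φ W κ) {R : Type} [Fintype R] [DecidableEq R]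
    (M : Matrix (Fin 2 × R) (Fin 2 × R) ℂ) :
    rtr (actL Φ M) = rtr (blk 0 M) + rtr (blk 1 M) := by
  unfold rtr Matrix.trace
  rw [← Complex.add_re]
  congr 1
  simp only [Matrix.diag_apply, blk, Matrix.submatrix_apply]
  rw [Fintype.sum_prod_type_right, ← Finset.sum_add_distrib]
  refine Finset.sum_congr rfl fun r _ => ?_
  simp only [actL_apply, h.diag, Matrix.of_apply]
  rw [Finset.sum_comm]
  simp_rw [← Finset.sum_mul, ← Complex.ofReal_sum, h.sum_one]
  simp [Fin.sum_univ_two]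

/-- C2 : recursion `Φ^{⊗(n+1)} ⊗ id_R = (Φ^{⊗n} ⊗ id) ∘ (Φ ⊗ id)` up to reindexing. -/
theorem actL_tensorPow_succ (Φ : Matrix (Fin 2) (Fin 2) ℂ →ₗ[ℂ] Matrix (Fin 2) (Fin 2) ℂ) (n : ℕ)
    {R : Type} (M : Matrix ((Fin (n + 1) → Fin 2) × R) ((Fin (n + 1) → Fin 2) × R) ℂ) :
    actL (tensorPow Φ (n + 1)) M =
      (actL (tensorPow Φ n)
        ((actL Φ (M.submatrix
            (fun x : Fin 2 × ((Fin n → Fin 2) × R) => ((Fin.cons x.1 x.2.1 : Fin (n + 1) → Fin 2), x.2.2))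
            (fun x : Fin 2 × ((Fin n → Fin 2) × R) => ((Fin.cons x.1 x.2.1 : Fin (n + 1) → Fin 2), x.2.2)))).submatrix
          (fun x : (Fin n → Fin 2) × (Fin 2 × R) => (x.2.1, (x.1, x.2.2)))
          (fun x : (Fin n → Fin 2) × (Fin 2 × R) => (x.2.1, (x.1, x.2.2))))).submatrix
        (fun x : (Fin (n + 1) → Fin 2) × R => (Fin.tail x.1, (x.1 0, x.2)))
        (fun x : (Fin (n + 1) → Fin 2) × R => (Fin.tail x.1, (x.1 0, x.2))) := by
  ext ⟨i, r⟩ ⟨j, s⟩
  rw [actL_apply, tensorPow_fin_two_apply, Matrix.submatrix_apply, actL_apply, tensorPow_apply]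
  rfl

/-- C3 : complete positivity of tensor powers -/
theorem DiagChan.cp_tensorPow (h : DiagChan Φ W κ) (n : ℕ) (R : Type) [Fintype R] [DecidableEq R]
    (M : Matrix ((Fin n → Fin 2) × R) ((Fin n → Fin 2) × R) ℂ) (hM : M.PosSemidef) :
    (actL (tensorPow Φ n) M).PosSemidef := by
  induction n generalizing R with
  | zero =>
    have h0 : actL (tensorPow Φ 0) M = M := by
      ext ⟨i, r⟩ ⟨j, s⟩
      rw [actL_apply, tensorPow_zero_apply Φ _ i j i j, Matrix.of_apply]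
    rw [h0]
    exact hM
  | succ n ih =>
    rw [actL_tensorPow_succ]
    refine Matrix.PosSemidef.submatrix ?_ _
    refine ih _ _ ?_
    refine Matrix.PosSemidef.submatrix ?_ _
    exact h.cp _ _ (hM.submatrix _)

/-- C6 -/
theorem DiagChan.posSemidef_tensorPow (h : DiagChan Φ W κ) (n : ℕ)
    (M : Matrix (Fin n → Fin 2) (Fin n → Fin 2) ℂ) (hM : M.PosSemidef) :
    (tensorPow Φ n M).PosSemidef := by
  have h1 := h.cp_tensorPow n Unit (M.submatrix Prod.fst Prod.fst) (hM.submatrix _)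
  exact h1.submatrix fun i => (i, ())

/-- C7 -/
theorem DiagChan.diag_tensorPow (h : DiagChan Φ W κ) (n : ℕ)
    (M : Matrix (Fin n → Fin 2) (Fin n → Fin 2) ℂ) (y : Fin n → Fin 2) :
    tensorPow Φ n M y y = ∑ z, (((∏ m, W (y m) (z m) : ℝ)) : ℂ) * M z z := by
  rw [tensorPow_apply]
  refine Finset.sum_congr rfl fun k _ => ?_
  rw [Finset.sum_eq_single k]
  · congr 1
    rw [Complex.ofReal_prod]
    refine Finset.prod_congr rfl fun m _ => ?_
    rw [h.diag, Finset.sum_eq_single (k m)]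
    · simp
    · intro a _ ha
      rw [Matrix.single_apply_of_ne _ _ _ _ _ (fun h => ha h.1.symm), mul_zero]
    · intro h'
      exact absurd (Finset.mem_univ _) h'
  · intro l _ hl
    obtain ⟨m, hm⟩ : ∃ m, l m ≠ k m := by
      by_contra hcon
      push Not at hcon
      exact hl (funext hcon)
    rw [Finset.prod_eq_zero (Finset.mem_univ m), zero_mul]
    rw [h.diag]
    refine Finset.sum_eq_zero fun a _ => ?_
    rw [Matrix.single_apply_of_ne _ _ _ _ _ (fun h => hm (h.2.trans h.1.symm)), mul_zero]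
  · intro h'
    exact absurd (Finset.mem_univ _) h'

/-- C8 -/
theorem DiagChan.rtr_tensorPow (h : DiagChan Φ W κ) (n : ℕ)
    (M : Matrix (Fin n → Fin 2) (Fin n → Fin 2) ℂ) :
    rtr (tensorPow Φ n M) = rtr M := by
  unfold rtr Matrix.trace
  congr 1
  simp only [Matrix.diag_apply]
  simp_rw [h.diag_tensorPow]
  rw [Finset.sum_comm]
  refine Finset.sum_congr rfl fun z _ => ?_
  rw [← Finset.sum_mul, ← Complex.ofReal_sum, ClassicalAux.sum_prod_W W h.sum_one]
  simp

end C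

end Vale.Agent.P358
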