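import Vale.Agent.P358.EtaIneq
import Vale.Agent.P358.Tensor

/-!
# P358 : Holevo quantities, single-letter bound
-/

open Matrix Finset
open scoped BigOperators ComplexOrder

namespace Vale.Agent.P358

section E
variable {α β : Type} [Fintype α] [Fintype β] [DecidableEq β]

/-- E1 : ensembles indexed by any finite type -/
theorem mem_holevoSet_of_fintype (N : Matrix α α ℂ →ₗ[ℂ] Matrix β β ℂ) {ι : Type} [Fintype ι]
    (q : ι → ℝ) (ρ : ι → Matrix α α ℂ) (hq : ∀ a, 0 ≤ q a) (hq1 : ∑ a, q a = 1)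
    (hρ : ∀ a, IsState (ρ a)) :
    vonNeumann (∑ a, (q a : ℂ) • N (ρ a)) - ∑ a, q a * vonNeumann (N (ρ a)) ∈ holevoSet N := by
  set e := (Fintype.equivFin ι).symm with he
  refine ⟨Fintype.card ι, fun a => q (e a), fun a => ρ (e a), fun a => hq _, ?_, fun a => hρ _, ?_⟩
  · rw [← hq1]
    exact Equiv.sum_comp e q
  · rw [Equiv.sum_comp e (fun a => (q a : ℂ) • N (ρ a)),
      Equiv.sum_comp e (fun a => q a * vonNeumann (N (ρ a)))]

/-- boundedness from positivity and trace preservation -/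
theorem bddAbove_of_psd (N : Matrix α α ℂ →ₗ[ℂ] Matrix β β ℂ)
    (h1 : ∀ M : Matrix α α ℂ, M.PosSemidef → (N M).PosSemidef)
    (h2 : ∀ M : Matrix α α ℂ, rtr (N M) = rtr M) : BddAbove (holevoSet N) := by
  refine ⟨Fintype.card β / Real.log 2, ?_⟩
  rintro x ⟨m, q, ρ, hq, hq1, hρ, rfl⟩
  have hl : 0 < Real.log 2 := Real.log_pos (by norm_num)
  have hpsd : (∑ a, (q a : ℂ) • N (ρ a)).PosSemidef := by
    apply Matrix.posSemidef_sum
    intro a _
    exact (h1 _ (hρ a).1).smul (by exact_mod_cast hq a)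
  have e1 : vonNeumann (∑ a, (q a : ℂ) • N (ρ a)) ≤ Fintype.card β / Real.log 2 := by
    rw [vonNeumann_eq]
    exact div_le_div_of_nonneg_right (eta_le_card _ hpsd) hl.le
  have e2 : 0 ≤ ∑ a, q a * vonNeumann (N (ρ a)) := by
    apply Finset.sum_nonneg
    intro a _
    apply mul_nonneg (hq a)
    rw [vonNeumann_eq]
    apply div_nonneg _ hl.le
    apply eta_nonneg _ (h1 _ (hρ a).1)
    rw [h2]
    unfold rtr
    rw [(hρ a).2]
    simp
  linarith

variable {Φ : Matrix (Fin 2) (Fin 2) ℂ →ₗ[ℂ] Matrix (Fin 2) (Fin 2) ℂ} {W : Fin 2 → Fin 2 → ℝ}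
  {κ : ℝ}

/-- E2 -/
theorem DiagChan.bddAbove_holevoSet (h : DiagChan Φ W κ) (n : ℕ) :
    BddAbove (holevoSet (tensorPow Φ n)) :=
  bddAbove_of_psd _ (h.posSemidef_tensorPow n) (h.rtr_tensorPow n)

/-- trace preservation -/
theorem DiagChan.rtr_map (h : DiagChan Φ W κ) (M : Matrix (Fin 2) (Fin 2) ℂ) :
    rtr (Φ M) = rtr M := by
  rw [rtr_eq_sum, rtr_eq_sum, Fin.sum_univ_two, Fin.sum_univ_two, h.diag, h.diag,
    Fin.sum_univ_two, Fin.sum_univ_two]
  have s0 := h.sum_one 0
  have s1 := h.sum_one 1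
  rw [Fin.sum_univ_two] at s0 s1
  simp only [Complex.add_re, Complex.mul_re, Complex.ofReal_re, Complex.ofReal_im, zero_mul,
    sub_zero]
  linear_combination (M 0 0).re * s0 + (M 1 1).re * s1

/-- positivity -/
theorem DiagChan.posSemidef_map (h : DiagChan Φ W κ) (M : Matrix (Fin 2) (Fin 2) ℂ)
    (hM : M.PosSemidef) : (Φ M).PosSemidef := by
  have h1 : (M.submatrix (Prod.fst : Fin 2 × Unit → Fin 2) Prod.fst).PosSemidef :=
    hM.submatrix _
  have h2 := h.cp Unit _ h1
  have h3 := h2.submatrix (fun i : Fin 2 => (i, ()))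
  have e : (actL Φ (M.submatrix (Prod.fst : Fin 2 × Unit → Fin 2) Prod.fst)).submatrix
      (fun i : Fin 2 => (i, ())) (fun i : Fin 2 => (i, ())) = Φ M := by
    ext i j
    simp [actL]
    rfl
  rwa [e] at h3

theorem DiagChan.bddAbove_holevoSet_one (h : DiagChan Φ W κ) : BddAbove (holevoSet Φ) :=
  bddAbove_of_psd _ h.posSemidef_map h.rtr_map

theorem DiagChan.holevoSet_nonempty (n : ℕ) : (holevoSet (tensorPow Φ n)).Nonempty := by
  classical
  refine ⟨_, mem_holevoSet_of_fintype (tensorPow Φ n) (ι := Unit) (fun _ => 1)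
    (fun _ => Matrix.single (fun _ => 0) (fun _ => 0) 1) (fun _ => zero_le_one) (by simp) ?_⟩
  intro _
  refine ⟨?_, ?_⟩
  · have : (Matrix.single (fun _ => 0) (fun _ => 0) (1:ℂ) :
        Matrix (Fin n → Fin 2) (Fin n → Fin 2) ℂ) =
        diagonal (fun i => if i = (fun _ => 0) then 1 else 0) := by
      ext i j
      by_cases hi : i = (fun _ => 0)
      · by_cases hj : j = (fun _ => 0)
        · subst hi hj; simp
        · subst hi
          rw [diagonal_apply_ne _ (Ne.symm hj), Matrix.single_apply_of_col_ne]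
          exact Ne.symm hj
      · rw [Matrix.single_apply_of_row_ne (Ne.symm hi)]
        by_cases hij : i = j
        · subst hij; simp [hi]
        · rw [diagonal_apply_ne _ hij]
    rw [this]
    apply PosSemidef.diagonal
    intro i
    simp only [Pi.zero_apply]
    split_ifs <;> simp
  · simp

/-- the state `[[x, s√(xy)], [s√(xy), y]]` -/
noncomputable def psis (s x y : ℝ) : Matrix (Fin 2) (Fin 2) ℂ :=
  !![(x : ℂ), ((s * Real.sqrt (x * y) : ℝ) : ℂ); ((s * Real.sqrt (x * y) : ℝ) : ℂ), (y : ℂ)]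

lemma psis_psd {s x y : ℝ} (hs : s ^ 2 = 1) (hx : 0 ≤ x) (hy : 0 ≤ y) :
    (psis s x y).PosSemidef := by
  have : psis s x y = (!![((Real.sqrt x : ℝ) : ℂ), 0; ((s * Real.sqrt y : ℝ) : ℂ), 0] :
      Matrix (Fin 2) (Fin 2) ℂ) *
      (!![((Real.sqrt x : ℝ) : ℂ), 0; ((s * Real.sqrt y : ℝ) : ℂ), 0] :
      Matrix (Fin 2) (Fin 2) ℂ)ᴴ := by
    have h1 : ((x : ℝ) : ℂ) = ((Real.sqrt x : ℝ) : ℂ) * ((Real.sqrt x : ℝ) : ℂ) := by
      rw [← Complex.ofReal_mul, Real.mul_self_sqrt hx]
    have h2 : ((y : ℝ) : ℂ) = ((s * Real.sqrt y : ℝ) : ℂ) * ((s * Real.sqrt y : ℝ) : ℂ) := by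
      rw [← Complex.ofReal_mul]
      congr 1
      have := Real.mul_self_sqrt hy
      nlinarith
    have h3 : ((s * Real.sqrt (x * y) : ℝ) : ℂ) =
        ((Real.sqrt x : ℝ) : ℂ) * ((s * Real.sqrt y : ℝ) : ℂ) := by
      rw [← Complex.ofReal_mul, Real.sqrt_mul hx]
      congr 1; ring
    ext i j
    fin_cases i <;> fin_cases j
    · simp [psis, mul_apply, Fin.sum_univ_two, h1]
    · simpa [psis, mul_apply, Fin.sum_univ_two, -Complex.ofReal_mul] using h3
    · have h3' := h3
      rw [mul_comm ((Real.sqrt x : ℝ) : ℂ)] at h3'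
      simpa [psis, mul_apply, Fin.sum_univ_two, -Complex.ofReal_mul] using h3'
    · simpa [psis, mul_apply, Fin.sum_univ_two, -Complex.ofReal_mul] using h2
  rw [this]
  exact posSemidef_self_mul_conjTranspose _

lemma rtr_psis (s x y : ℝ) : rtr (psis s x y) = x + y := by
  simp [rtr_eq_sum, psis, Fin.sum_univ_two]

lemma DiagChan.eta_psis (h : DiagChan Φ W κ) {s x y : ℝ} (hs : s ^ 2 = 1) :
    eta (Φ (psis s x y)) = FF Φ x y := by
  unfold FF
  have hU : (diagonal ![(1:ℂ), (s:ℂ)] : Matrix (Fin 2) (Fin 2) ℂ) *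
      (diagonal ![(1:ℂ), (s:ℂ)])ᴴ = 1 := by
    have hs' : (s : ℂ) * s = 1 := by rw [← pow_two]; exact_mod_cast hs
    ext i j
    fin_cases i <;> fin_cases j <;>
      simp [mul_apply, Fin.sum_univ_two, diagonal, hs']
  rw [← eta_conj (Φ (psi x y)) _ hU]
  congr 1
  have hs' : (s : ℂ) * s = 1 := by rw [← pow_two]; exact_mod_cast hs
  ext i j
  have c01 := h.off01
  have c10 := h.off10
  have cd := h.diag
  fin_cases i <;> fin_cases j
  · simp [mul_apply, Fin.sum_univ_two, diagonal, cd, psis, psi]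
  · simp [mul_apply, Fin.sum_univ_two, diagonal, c01, psis, psi]
    ring
  · simp [mul_apply, Fin.sum_univ_two, diagonal, c10, psis, psi]
    ring
  · simp [mul_apply, Fin.sum_univ_two, diagonal, cd, psis, psi]
    linear_combination (-((W 1 0 : ℂ) * x + (W 1 1 : ℂ) * y)) * hs'

/-- E3 : single-letter bound: ensemble `{(x_b+y_b)/2, ψ_b^±}`. -/
theorem DiagChan.single_letter (h : DiagChan Φ W κ) (ι : Type) [Fintype ι] (x y : ι → ℝ)
    (hx : ∀ b, 0 ≤ x b) (hy : ∀ b, 0 ≤ y b) (hxy : ∑ b, (x b + y b) = 1) :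
    ∑ c, Real.negMulLog (W c 0 * ∑ b, x b + W c 1 * ∑ b, y b)
      - ∑ b, (FF Φ (x b) (y b) - Real.negMulLog (x b + y b)) ≤ Real.log 2 * holevo Φ := by
  classical
  have hl : 0 < Real.log 2 := Real.log_pos (by norm_num)
  set sg : Bool → ℝ := fun s => if s then 1 else -1 with hsg
  have hsg2 : ∀ s, sg s ^ 2 = 1 := by intro s; cases s <;> simp [hsg]
  set q : ι × Bool → ℝ := fun p => (x p.1 + y p.1) / 2 with hq
  set ρ : ι × Bool → Matrix (Fin 2) (Fin 2) ℂ := fun p =>
    if x p.1 + y p.1 = 0 then psis 1 1 0 else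
      (((x p.1 + y p.1)⁻¹ : ℝ) : ℂ) • psis (sg p.2) (x p.1) (y p.1) with hρ
  have hq0 : ∀ p, 0 ≤ q p := fun p => by
    have := hx p.1; have := hy p.1
    simp only [hq]; positivity
  have hq1 : ∑ p, q p = 1 := by
    rw [Fintype.sum_prod_type, ← hxy]
    apply Finset.sum_congr rfl
    intro b _
    simp [hq]
    ring
  have hstate : ∀ p, IsState (ρ p) := by
    intro p
    have hx0 := hx p.1
    have hy0 := hy p.1
    by_cases hz : x p.1 + y p.1 = 0
    · simp only [hρ, hz, if_true]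
      refine ⟨psis_psd (by norm_num) zero_le_one le_rfl, ?_⟩
      simp [psis, trace, Fin.sum_univ_two]
    · simp only [hρ, hz, if_false]
      refine ⟨(psis_psd (hsg2 _) hx0 hy0).smul ?_, ?_⟩
      · have : 0 ≤ (x p.1 + y p.1)⁻¹ := by positivity
        exact_mod_cast this
      · have hz' : (x p.1 : ℂ) + (y p.1 : ℂ) ≠ 0 := by exact_mod_cast hz
        simp [psis, trace, Fin.sum_univ_two]
        field_simp
  have hmem := mem_holevoSet_of_fintype Φ q ρ hq0 hq1 hstate
  have hle := le_csSup h.bddAbove_holevoSet_one hmem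
  -- weighted states
  have hwt : ∀ p, (q p : ℂ) • ρ p = ((1 / 2 : ℝ) : ℂ) • psis (sg p.2) (x p.1) (y p.1) := by
    intro p
    by_cases hz : x p.1 + y p.1 = 0
    · have hx0 : x p.1 = 0 := by have := hx p.1; have := hy p.1; linarith
      have hy0 : y p.1 = 0 := by have := hx p.1; have := hy p.1; linarith
      have e1 : psis (sg p.2) (x p.1) (y p.1) = 0 := by
        ext i j
        fin_cases i <;> fin_cases j <;> simp [psis, hx0, hy0]
      rw [e1]
      simp [hq, hx0, hy0]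
    · simp only [hρ, hz, if_false, hq]
      rw [smul_smul, ← Complex.ofReal_mul]
      congr 2
      field_simp
  have havg : ∑ p, (q p : ℂ) • Φ (ρ p) = diagonal (fun c =>
      ((W c 0 * ∑ b, x b + W c 1 * ∑ b, y b : ℝ) : ℂ)) := by
    have e1 : ∑ p, (q p : ℂ) • Φ (ρ p) = Φ (∑ p, (q p : ℂ) • ρ p) := by
      rw [map_sum]
      apply Finset.sum_congr rfl
      intro p _
      rw [map_smul]
    have e2 : ∑ p, (q p : ℂ) • ρ p = !![((∑ b, x b : ℝ) : ℂ), 0; 0, ((∑ b, y b : ℝ) : ℂ)] := by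
      rw [Finset.sum_congr rfl (fun p _ => hwt p), Fintype.sum_prod_type]
      ext i j
      fin_cases i <;> fin_cases j <;>
        simp [Matrix.sum_apply, psis, hsg]
      · apply Finset.sum_congr rfl
        intro b _
        ring
      · apply Finset.sum_congr rfl
        intro b _
        ring
    rw [e1, e2]
    ext i j
    fin_cases i <;> fin_cases j
    · simp [h.diag, Fin.sum_univ_two]
    · simp [h.off01]
    · simp [h.off10]
    · simp [h.diag, Fin.sum_univ_two]
  have hent : ∀ p, q p * eta (Φ (ρ p)) =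
      (FF Φ (x p.1) (y p.1) - Real.negMulLog (x p.1 + y p.1)) / 2 := by
    intro p
    have hx0 := hx p.1
    have hy0 := hy p.1
    by_cases hz : x p.1 + y p.1 = 0
    · have hx0 : x p.1 = 0 := by linarith
      have hy0 : y p.1 = 0 := by linarith
      have e1 : psi (x p.1) (y p.1) = 0 := by
        ext i j
        fin_cases i <;> fin_cases j <;> simp [psi, hx0, hy0]
      have e2 : FF Φ (x p.1) (y p.1) = 0 := by
        unfold FF
        rw [e1, map_zero, eta_zero]
      rw [e2]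
      simp [hq, hx0, hy0]
    · simp only [hρ, hz, if_false, hq]
      rw [map_smul, eta_smul _ _ (h.posSemidef_map _ (psis_psd (hsg2 _) hx0 hy0)).1,
        h.eta_psis (hsg2 _), h.rtr_map, rtr_psis]
      have hpos : 0 < x p.1 + y p.1 := lt_of_le_of_ne (by positivity) (Ne.symm hz)
      unfold Real.negMulLog
      rw [Real.log_inv]
      field_simp
      ring
  have hval : Real.log 2 * (vonNeumann (∑ a, (q a : ℂ) • Φ (ρ a)) -
      ∑ a, q a * vonNeumann (Φ (ρ a))) =
      ∑ c, Real.negMulLog (W c 0 * ∑ b, x b + W c 1 * ∑ b, y b)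
      - ∑ b, (FF Φ (x b) (y b) - Real.negMulLog (x b + y b)) := by
    rw [havg, vonNeumann_eq, eta_diagonal, mul_sub, mul_div_cancel₀ _ hl.ne']
    congr 1
    rw [Finset.mul_sum, Fintype.sum_prod_type]
    apply Finset.sum_congr rfl
    intro b _
    have e3 : ∀ s : Bool, Real.log 2 * (q (b, s) * vonNeumann (Φ (ρ (b, s)))) =
        (FF Φ (x b) (y b) - Real.negMulLog (x b + y b)) / 2 := by
      intro s
      rw [vonNeumann_eq, ← hent (b, s)]
      field_simp
    rw [Finset.sum_congr rfl (fun s _ => e3 s)]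
    simp
    ring
  rw [← hval]
  exact mul_le_mul_of_nonneg_left hle hl.le

end E

end Vale.Agent.P358
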