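import Vale.Agent.P358.Basic

/-!
# The matrix inequality behind additivity for amplitude damping
-/

open Matrix Finset
open scoped BigOperators ComplexOrder MatrixOrder

namespace Vale.Agent.P358

section H
variable {R S : Type} [Fintype R] [DecidableEq R] [Fintype S] [DecidableEq S]

lemma PosDef.re_det_pos {M : Matrix S S ℂ} (hM : M.PosDef) : 0 < M.det.re :=
  (Complex.pos_iff.mp hM.det_pos).1

lemma PosDef.det_eq_re {M : Matrix S S ℂ} (hM : M.PosDef) : M.det = ((M.det.re : ℝ) : ℂ) := by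
  apply Complex.ext
  · simp
  · simpa using (Complex.pos_iff.mp hM.det_pos).2.symm

omit [DecidableEq S] in
lemma PosSemidef.re_trace_nonneg {M : Matrix S S ℂ} (hM : M.PosSemidef) : 0 ≤ (M.trace).re :=
  (Complex.nonneg_iff.mp hM.trace_nonneg).1

omit [DecidableEq S] in
/-- H1 -/
lemma trace_ineq (b : Matrix R R ℂ) (hb : b.PosDef) (U W : Matrix R S ℂ) :
    2 * ((Wᴴ * U).trace).re ≤ ((Uᴴ * b⁻¹ * U).trace).re + ((Wᴴ * b * W).trace).re := by
  have h1 : (((U - b * W)ᴴ * b⁻¹ * (U - b * W)).trace).re ≥ 0 :=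
    PosSemidef.re_trace_nonneg (hb.inv.posSemidef.conjTranspose_mul_mul_same _)
  have hbu : IsUnit b.det := (Matrix.isUnit_iff_isUnit_det _).mp hb.isUnit
  have hbH : bᴴ = b := hb.1
  have h2 : (U - b * W)ᴴ * b⁻¹ * (U - b * W)
      = Uᴴ * b⁻¹ * U - Uᴴ * W - Wᴴ * U + Wᴴ * b * W := by
    rw [conjTranspose_sub, conjTranspose_mul, hbH]
    rw [Matrix.sub_mul, Matrix.sub_mul, Matrix.mul_sub, Matrix.mul_sub]
    have e1 : Uᴴ * b⁻¹ * (b * W) = Uᴴ * W := by
      rw [Matrix.mul_assoc, ← Matrix.mul_assoc b⁻¹, Matrix.nonsing_inv_mul _ hbu, Matrix.one_mul]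
    have e2 : Wᴴ * b * b⁻¹ * U = Wᴴ * U := by
      rw [Matrix.mul_assoc Wᴴ, Matrix.mul_nonsing_inv _ hbu, Matrix.mul_one]
    have e3 : Wᴴ * b * b⁻¹ * (b * W) = Wᴴ * b * W := by
      rw [Matrix.mul_assoc Wᴴ b b⁻¹, Matrix.mul_nonsing_inv _ hbu, Matrix.mul_one,
        Matrix.mul_assoc]
    rw [e1, e2, e3]
    abel
  have h3 : ((Uᴴ * W).trace).re = ((Wᴴ * U).trace).re := by
    have : Uᴴ * W = (Wᴴ * U)ᴴ := by rw [conjTranspose_mul, conjTranspose_conjTranspose]
    rw [this, trace_conjTranspose]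
    simp
  rw [h2] at h1
  simp only [trace_add, trace_sub, Complex.add_re, Complex.sub_re] at h1
  linarith

lemma re_trace_eq_sum_eigenvalues {M : Matrix S S ℂ} (hM : M.IsHermitian) :
    (M.trace).re = ∑ i, hM.eigenvalues i := by
  rw [hM.trace_eq_sum_eigenvalues]
  simp

lemma re_det_eq_prod_eigenvalues {M : Matrix S S ℂ} (hM : M.IsHermitian) :
    (M.det).re = ∏ i, hM.eigenvalues i := by
  rw [hM.det_eq_prod_eigenvalues]
  have : (∏ i, ((hM.eigenvalues i : ℝ) : ℂ)) = ((∏ i, hM.eigenvalues i : ℝ) : ℂ) := by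
    push_cast; rfl
  exact (congrArg Complex.re this).trans (Complex.ofReal_re _)

lemma log_det_le (K : Matrix S S ℂ) (hK : K.PosDef) :
    Real.log (K.det.re) ≤ (K.trace).re - Fintype.card S := by
  rw [re_det_eq_prod_eigenvalues hK.1, re_trace_eq_sum_eigenvalues hK.1,
    Real.log_prod (fun i _ => (hK.eigenvalues_pos i).ne')]
  have : (Fintype.card S : ℝ) = ∑ i : S, (1 : ℝ) := by simp
  rw [this, ← Finset.sum_sub_distrib]
  exact Finset.sum_le_sum fun i _ => Real.log_le_sub_one_of_pos (hK.eigenvalues_pos i)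

/-- a positive definite square root -/
lemma exists_sqrt (A : Matrix S S ℂ) (hA : A.PosDef) :
    ∃ δ : Matrix S S ℂ, δ.PosDef ∧ δ * δ = A := by
  refine ⟨CFC.sqrt A, ?_, ?_⟩
  · have h0 : (CFC.sqrt A).PosSemidef := (CFC.sqrt_nonneg A).posSemidef
    rw [h0.posDef_iff_det_ne_zero]
    intro h
    have h2 : CFC.sqrt A * CFC.sqrt A = A := CFC.sqrt_mul_sqrt_self A hA.posSemidef.nonneg
    have := congrArg Matrix.det h2
    rw [Matrix.det_mul, h, zero_mul] at this
    exact hA.det_pos.ne this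
  · exact CFC.sqrt_mul_sqrt_self A hA.posSemidef.nonneg

/-- H2 -/
lemma logdet_var (A c : Matrix S S ℂ) (hA : A.PosDef) (hc : c.PosDef) :
    Real.log (A.det.re) + Fintype.card S ≤ ((A * c).trace).re - Real.log (c.det.re) := by
  obtain ⟨δ, hδ, hδA⟩ := exists_sqrt A hA
  have hδH : δᴴ = δ := hδ.1
  have hK : (δ * c * δᴴ).PosDef := by
    have hu : IsUnit δ := hδ.isUnit
    exact hc.mul_mul_conjTranspose_same (Matrix.vecMul_injective_of_isUnit hu)
  have h1 := log_det_le _ hK
  have htr : (δ * c * δᴴ).trace = (A * c).trace := by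
    rw [hδH, Matrix.trace_mul_comm, ← Matrix.mul_assoc, hδA]
  have hdet : (δ * c * δᴴ).det = A.det * c.det := by
    rw [hδH, Matrix.det_mul, Matrix.det_mul, ← hδA, Matrix.det_mul]; ring
  rw [htr, hdet, PosDef.det_eq_re hA, PosDef.det_eq_re hc, ← Complex.ofReal_mul,
    Complex.ofReal_re, Real.log_mul (PosDef.re_det_pos hA).ne' (PosDef.re_det_pos hc).ne'] at h1
  linarith

/-- `(M⁻¹)_kk ≥ 1 / M_kk` -/
lemma inv_diag_ge (M : Matrix S S ℂ) (hM : M.PosDef) (k : S) :
    1 / (M k k).re ≤ (M⁻¹ k k).re := by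
  have hpos : 0 < (M k k).re := (Complex.pos_iff.mp hM.diag_pos).1
  set U : Matrix S S ℂ := Matrix.single k k 1 with hU
  set s : ℝ := 1 / (M k k).re with hs
  have h := trace_ineq M hM U ((s : ℂ) • U)
  have hUH : Uᴴ = U := by rw [hU, Matrix.conjTranspose_single]; simp
  have e1 : ((Uᴴ * M⁻¹ * U).trace).re = (M⁻¹ k k).re := by
    rw [hUH, hU, Matrix.single_mul_mul_single, Matrix.trace_single_eq_same]; simp
  have e2 : (((((s : ℂ) • U)ᴴ * M * ((s : ℂ) • U))).trace).re = s ^ 2 * (M k k).re := by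
    rw [Matrix.conjTranspose_smul, hUH, Matrix.smul_mul, Matrix.smul_mul, Matrix.mul_smul,
      hU, Matrix.single_mul_mul_single, Matrix.trace_smul, Matrix.trace_smul,
      Matrix.trace_single_eq_same]
    simp
    ring
  have e3 : (((((s : ℂ) • U)ᴴ * U)).trace).re = s := by
    rw [Matrix.conjTranspose_smul, hUH, Matrix.smul_mul, hU, Matrix.single_mul_single_same,
      Matrix.trace_smul, Matrix.trace_single_eq_same]
    simp
  rw [e1, e2, e3] at h
  have : s ^ 2 * (M k k).re = s := by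
    rw [hs]; field_simp
  rw [this] at h
  linarith

lemma det_add_single (M : Matrix S S ℂ) (hM : M.PosDef) (k : S) (e : ℝ) :
    (M + Matrix.single k k (e : ℂ)).det = M.det * (1 + (e : ℂ) * M⁻¹ k k) := by
  have hu : IsUnit M.det := (Matrix.isUnit_iff_isUnit_det _).mp hM.isUnit
  have h := Matrix.det_add_mul (A := M)
    (Matrix.of fun (i : S) (_ : Unit) => if i = k then (e : ℂ) else 0)
    (Matrix.of fun (_ : Unit) (i : S) => if i = k then (1 : ℂ) else 0) hu
  have h1 : Matrix.single k k (e : ℂ) =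
      (Matrix.of fun (i : S) (_ : Unit) => if i = k then (e : ℂ) else 0) *
      (Matrix.of fun (_ : Unit) (i : S) => if i = k then (1 : ℂ) else 0) := by
    ext i j
    simp only [Matrix.mul_apply, Matrix.single_apply, Matrix.of_apply]
    by_cases hi : k = i <;> by_cases hj : k = j <;> simp [hi, hj, eq_comm]
  rw [h1, h]
  congr 1
  rw [Matrix.det_unique]
  simp [Matrix.mul_apply]
  ring

/-- H3 -/
lemma det_add_diagonal_ge (δ : Matrix S S ℂ) (hδ : δ.PosDef) (e : S → ℝ) (he : ∀ i, 0 ≤ e i) :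
    δ.det.re * ∏ i, (1 + e i / (δ i i).re) ≤
      (δ + diagonal (fun i => (e i : ℂ))).det.re := by
  have key : ∀ s : Finset S, (δ + diagonal (fun i => ((if i ∈ s then e i else 0 : ℝ) : ℂ))).PosDef ∧
      δ.det.re * ∏ i ∈ s, (1 + e i / (δ i i).re) ≤
      (δ + diagonal (fun i => ((if i ∈ s then e i else 0 : ℝ) : ℂ))).det.re := by
    intro s
    induction s using Finset.induction_on with
    | empty => simp [hδ]
    | insert k s hk ih =>
      obtain ⟨ih1, ih2⟩ := ih
      set M := δ + diagonal (fun i => ((if i ∈ s then e i else 0 : ℝ) : ℂ)) with hM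
      have hMk : (M k k).re = (δ k k).re := by
        simp [hM, hk]
      have hadd : δ + diagonal (fun i => ((if i ∈ insert k s then e i else 0 : ℝ) : ℂ))
          = M + Matrix.single k k ((e k : ℝ) : ℂ) := by
        rw [hM, add_assoc]
        congr 1
        ext i j
        by_cases hij : i = j
        · subst hij
          by_cases hik : i = k
          · subst hik
            simp [hk]
          · simp [hik, Ne.symm hik, Finset.mem_insert]
        · by_cases hki : k = i
          · subst hki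
            simp [hij]
          · simp [hij, hki]
      refine ⟨?_, ?_⟩
      · apply hδ.add_posSemidef
        apply Matrix.PosSemidef.diagonal
        intro i
        simp only [Pi.zero_apply]
        split_ifs
        · exact_mod_cast he i
        · simp
      · rw [hadd, det_add_single M ih1, Finset.prod_insert hk]
        have hinv : 1 / (δ k k).re ≤ (M⁻¹ k k).re := by
          rw [← hMk]; exact inv_diag_ge M ih1 k
        have hMd : 0 < M.det.re := PosDef.re_det_pos ih1
        have hreal : (M.det * (1 + (e k : ℂ) * M⁻¹ k k)).re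
            = M.det.re * (1 + e k * (M⁻¹ k k).re) := by
          have him : M.det.im = 0 := by
            simpa using (Complex.pos_iff.mp ih1.det_pos).2.symm
          simp [Complex.mul_re, him]
        rw [hreal]
        have h2 : 1 + e k / (δ k k).re ≤ 1 + e k * (M⁻¹ k k).re := by
          have := mul_le_mul_of_nonneg_left hinv (he k)
          rw [mul_one_div] at this
          linarith
        have hδk : 0 < (δ k k).re := (Complex.pos_iff.mp hδ.diag_pos).1
        calc δ.det.re * ((1 + e k / (δ k k).re) * ∏ i ∈ s, (1 + e i / (δ i i).re))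
            = (δ.det.re * ∏ i ∈ s, (1 + e i / (δ i i).re)) * (1 + e k / (δ k k).re) := by ring
          _ ≤ M.det.re * (1 + e k / (δ k k).re) := by
              apply mul_le_mul_of_nonneg_right ih2
              have := div_nonneg (he k) hδk.le
              linarith
          _ ≤ M.det.re * (1 + e k * (M⁻¹ k k).re) :=
              mul_le_mul_of_nonneg_left h2 hMd.le
  simpa using (key Finset.univ).2

/-- `det (K Kᴴ + B) ≥ |det K|²` -/
lemma det_add_ge (K B : Matrix S S ℂ) (hK : K.det ≠ 0) (hB : B.PosSemidef) :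
    Complex.normSq K.det ≤ (K * Kᴴ + B).det.re := by
  have hu : IsUnit K.det := isUnit_iff_ne_zero.mpr hK
  have huH : IsUnit (Kᴴ).det := by
    rw [Matrix.det_conjTranspose]
    exact isUnit_iff_ne_zero.mpr (by simpa using hK)
  set B' := K⁻¹ * B * (K⁻¹)ᴴ with hB'
  have hB'p : B'.PosSemidef := hB.mul_mul_conjTranspose_same _
  have e1 : K * Kᴴ + B = K * (1 + B') * Kᴴ := by
    rw [hB', Matrix.mul_add, Matrix.add_mul, Matrix.mul_one]
    congr 1
    rw [Matrix.conjTranspose_nonsing_inv]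
    rw [← Matrix.mul_assoc, ← Matrix.mul_assoc, Matrix.mul_nonsing_inv _ hu, Matrix.one_mul,
      Matrix.mul_assoc, Matrix.nonsing_inv_mul _ huH, Matrix.mul_one]
  have h1 : (1 : ℝ) ≤ (1 + B').det.re := by
    have hH : (1 + B').IsHermitian := Matrix.isHermitian_one.add hB'p.1
    have hP : (1 + B').PosDef := Matrix.PosDef.one.add_posSemidef hB'p
    -- use eigenvalues of B'
    have hB1 := hB'p.1.spectral_theorem
    set Uu : Matrix S S ℂ := (hB'p.1.eigenvectorUnitary : Matrix S S ℂ) with hUu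
    have hUU : Uu * star Uu = 1 := by
      exact Unitary.coe_mul_star_self hB'p.1.eigenvectorUnitary
    have e2 : 1 + B' = Uu * (1 + diagonal (fun i => ((hB'p.1.eigenvalues i : ℝ) : ℂ))) * star Uu := by
      rw [Matrix.mul_add, Matrix.add_mul, Matrix.mul_one, hUU]
      congr 1
    rw [e2, Matrix.det_mul, Matrix.det_mul, mul_right_comm, ← Matrix.det_mul, hUU, Matrix.det_one,
      one_mul]
    have e3 : (1 + diagonal (fun i => ((hB'p.1.eigenvalues i : ℝ) : ℂ)))
        = diagonal (fun i => (((1 + hB'p.1.eigenvalues i : ℝ)) : ℂ)) := by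
      rw [← Matrix.diagonal_one, Matrix.diagonal_add]
      simp
    rw [e3, Matrix.det_diagonal, ← Complex.ofReal_prod, Complex.ofReal_re]
    calc (1 : ℝ) = ∏ _i : S, (1 : ℝ) := by simp
      _ ≤ ∏ i, (1 + hB'p.1.eigenvalues i) := by
        apply Finset.prod_le_prod
        · intro i _; norm_num
        · intro i _
          have := hB'p.eigenvalues_nonneg i
          linarith
  rw [e1, Matrix.det_mul, Matrix.det_mul, Matrix.det_conjTranspose]
  have e4 : K.det * (1 + B').det * star K.det = ((Complex.normSq K.det : ℝ) : ℂ) * (1 + B').det := by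
    rw [mul_right_comm]
    congr 1
    rw [Complex.star_def, Complex.mul_conj]
  rw [e4, Complex.re_ofReal_mul]
  nlinarith [Complex.normSq_nonneg K.det]

/-- H4 -/
lemma det_sq_add_ge (δ : Matrix S S ℂ) (hδ : δ.PosDef) (χ : S → ℝ) (hχ : ∀ i, 0 ≤ χ i) :
    δ.det.re ^ 2 * ∏ i, (1 + χ i / (δ i i).re ^ 2) ≤
      (δ * δ + diagonal (fun i => (χ i : ℂ))).det.re := by
  have hδH : δᴴ = δ := hδ.1
  have hδpos : ∀ i, 0 < (δ i i).re := fun i => (Complex.pos_iff.mp hδ.diag_pos).1
  -- angles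
  set r : S → ℝ := fun i => Real.sqrt ((δ i i).re ^ 2 + χ i) with hr
  have hrpos : ∀ i, 0 < r i := fun i => Real.sqrt_pos.mpr (by
    have := hδpos i; have := hχ i; positivity)
  have hr2 : ∀ i, r i ^ 2 = (δ i i).re ^ 2 + χ i := fun i => Real.sq_sqrt (by
    have := hδpos i; have := hχ i; positivity)
  set cc : S → ℝ := fun i => (δ i i).re / r i with hcc
  set dd : S → ℝ := fun i => Real.sqrt (χ i) / r i with hdd
  have hcd : ∀ i, cc i * cc i + dd i * dd i = 1 := by
    intro i
    have h1 := hr2 i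
    have h2 := Real.mul_self_sqrt (hχ i)
    have h3 := hrpos i
    simp only [hcc, hdd]
    field_simp
    nlinarith
  set Cd : Matrix S S ℂ := diagonal (fun i => ((cc i : ℝ) : ℂ)) with hCd
  set Dd : Matrix S S ℂ := diagonal (fun i => ((dd i : ℝ) : ℂ)) with hDd
  set Xd : Matrix S S ℂ := diagonal (fun i => ((Real.sqrt (χ i) : ℝ) : ℂ)) with hXd
  have hCdH : Cdᴴ = Cd := by
    rw [hCd, Matrix.diagonal_conjTranspose]; congr 1; ext i; simp
  have hDdH : Ddᴴ = Dd := by
    rw [hDd, Matrix.diagonal_conjTranspose]; congr 1; ext i; simp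
  have hXdH : Xdᴴ = Xd := by
    rw [hXd, Matrix.diagonal_conjTranspose]; congr 1; ext i; simp
  have hCC : Cd * Cd + Dd * Dd = 1 := by
    rw [hCd, hDd, Matrix.diagonal_mul_diagonal, Matrix.diagonal_mul_diagonal, Matrix.diagonal_add,
      ← Matrix.diagonal_one]
    congr 1; ext i
    have := hcd i
    exact_mod_cast this
  have hCD : Cd * Dd = Dd * Cd := by
    rw [hCd, hDd, Matrix.diagonal_mul_diagonal, Matrix.diagonal_mul_diagonal]
    congr 1; ext i; ring
  have hXX : Xd * Xd = diagonal (fun i => (χ i : ℂ)) := by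
    rw [hXd, Matrix.diagonal_mul_diagonal]
    congr 1; ext i
    rw [← Complex.ofReal_mul, Real.mul_self_sqrt (hχ i)]
  set K : Matrix S S ℂ := δ * Cd + Xd * Dd with hK
  set L : Matrix S S ℂ := δ * Dd - Xd * Cd with hL
  have hKL : K * Kᴴ + L * Lᴴ = δ * δ + diagonal (fun i => (χ i : ℂ)) := by
    rw [hK, hL, Matrix.conjTranspose_add, Matrix.conjTranspose_sub, Matrix.conjTranspose_mul,
      Matrix.conjTranspose_mul, Matrix.conjTranspose_mul, Matrix.conjTranspose_mul, hCdH, hDdH,
      hXdH, hδH, ← hXX]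
    have e1 : (δ * Cd + Xd * Dd) * (Cd * δ + Dd * Xd) + (δ * Dd - Xd * Cd) * (Dd * δ - Cd * Xd)
        = δ * (Cd * Cd + Dd * Dd) * δ + Xd * (Cd * Cd + Dd * Dd) * Xd
          + δ * (Cd * Dd - Dd * Cd) * Xd + Xd * (Dd * Cd - Cd * Dd) * δ := by
      noncomm_ring
    rw [e1, hCC, hCD]
    simp
  -- K = (δ + E) Cd
  set E : Matrix S S ℂ := diagonal (fun i => ((χ i / (δ i i).re : ℝ) : ℂ)) with hE
  have hKE : K = (δ + E) * Cd := by
    rw [hK, Matrix.add_mul]
    congr 1
    rw [hXd, hDd, hE, hCd, Matrix.diagonal_mul_diagonal, Matrix.diagonal_mul_diagonal]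
    congr 1; ext i
    rw [← Complex.ofReal_mul, ← Complex.ofReal_mul]
    congr 1
    have h2 := Real.mul_self_sqrt (hχ i)
    have h3 := hrpos i
    have h4 := hδpos i
    simp only [hcc, hdd]
    field_simp
    nlinarith
  have hEp : (δ + E).PosDef := by
    apply hδ.add_posSemidef
    apply Matrix.PosSemidef.diagonal
    intro i
    simp only [Pi.zero_apply]
    exact_mod_cast div_nonneg (hχ i) (hδpos i).le
  have hdetE : δ.det.re * ∏ i, (1 + (χ i / (δ i i).re) / (δ i i).re) ≤ (δ + E).det.re :=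
    det_add_diagonal_ge δ hδ _ (fun i => div_nonneg (hχ i) (hδpos i).le)
  have hdetK : K.det = (((δ + E).det.re * ∏ i, cc i : ℝ) : ℂ) := by
    rw [hKE, Matrix.det_mul, PosDef.det_eq_re hEp, hCd, Matrix.det_diagonal]
    push_cast
    rfl
  have hccpos : ∀ i, 0 < cc i := fun i => div_pos (hδpos i) (hrpos i)
  have hKne : K.det ≠ 0 := by
    rw [hdetK]
    have : 0 < (δ + E).det.re * ∏ i, cc i :=
      mul_pos (PosDef.re_det_pos hEp) (Finset.prod_pos fun i _ => hccpos i)
    exact_mod_cast this.ne'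
  have hmain := det_add_ge K (L * Lᴴ) hKne (Matrix.posSemidef_self_mul_conjTranspose L)
  rw [hKL, hdetK, Complex.normSq_ofReal] at hmain
  refine le_trans ?_ hmain
  have hprodpos : 0 < ∏ i, cc i := Finset.prod_pos fun i _ => hccpos i
  have hA : 0 ≤ δ.det.re * ∏ i, (1 + (χ i / (δ i i).re) / (δ i i).re) := by
    apply mul_nonneg (PosDef.re_det_pos hδ).le
    apply Finset.prod_nonneg
    intro i _
    have := hδpos i; have := hχ i
    positivity
  have h5 : (δ.det.re * ∏ i, (1 + (χ i / (δ i i).re) / (δ i i).re)) * (∏ i, cc i) ≤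
      (δ + E).det.re * ∏ i, cc i := mul_le_mul_of_nonneg_right hdetE hprodpos.le
  have h6 : δ.det.re ^ 2 * ∏ i, (1 + χ i / (δ i i).re ^ 2)
      = ((δ.det.re * ∏ i, (1 + (χ i / (δ i i).re) / (δ i i).re)) * (∏ i, cc i)) *
        ((δ.det.re * ∏ i, (1 + (χ i / (δ i i).re) / (δ i i).re)) * (∏ i, cc i)) := by
    have : ∏ i, (1 + χ i / (δ i i).re ^ 2) =
        (∏ i, (1 + (χ i / (δ i i).re) / (δ i i).re)) * (∏ i, cc i) *
        ((∏ i, (1 + (χ i / (δ i i).re) / (δ i i).re)) * (∏ i, cc i)) := by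
      rw [← Finset.prod_mul_distrib, ← Finset.prod_mul_distrib]
      apply Finset.prod_congr rfl
      intro i _
      have h2 := hr2 i
      have h3 := hrpos i
      have h4 := hδpos i
      simp only [hcc]
      have h5 : (1 + χ i / (δ i i).re / (δ i i).re) = r i ^ 2 / (δ i i).re ^ 2 := by
        rw [h2]; field_simp
      have h6 : (1 + χ i / (δ i i).re ^ 2) = r i ^ 2 / (δ i i).re ^ 2 := by
        rw [h2]; field_simp
      rw [h5, h6]
      field_simp
    rw [this]; ring
  rw [h6]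
  exact mul_self_le_mul_self (mul_nonneg hA hprodpos.le) h5

/-- H5, scalar inequality -/
lemma scalar_ineq (u s : ℝ) (hu : 1 ≤ u) (hs : 0 < s) :
    2 * (1 - 1 / u) + Real.log u ≤ 2 * (1 - 1 / u) * s + Real.log (1 + (u - 1) / s ^ 2) := by
  set v := u - 1 with hv
  have hv0 : 0 ≤ v := by linarith
  have huv : u = v + 1 := by linarith
  have hupos : 0 < u := by linarith
  have hs2 : 0 < s ^ 2 + v := by positivity
  -- y = u s² / (s² + v) ≤ ((s v + 1)/u)^2
  have key : u * s ^ 2 / (s ^ 2 + v) ≤ ((s * v + 1) / u) ^ 2 := by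
    rw [div_pow, div_le_div_iff₀ hs2 (by positivity), huv]
    have h1 : (s * v + 1) ^ 2 * (s ^ 2 + v) - (v + 1) * s ^ 2 * (v + 1) ^ 2
        = v * ((s - 1) ^ 2 * (2 * s + 1) + v * s * ((s - 1) ^ 2 * (s + 2))) := by ring
    have h2 : 0 ≤ v * ((s - 1) ^ 2 * (2 * s + 1) + v * s * ((s - 1) ^ 2 * (s + 2))) := by
      positivity
    linarith
  have hlog : Real.log (u * s ^ 2 / (s ^ 2 + v)) ≤ 2 * ((s * v + 1) / u - 1) := by
    calc Real.log (u * s ^ 2 / (s ^ 2 + v)) ≤ Real.log (((s * v + 1) / u) ^ 2) :=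
          Real.log_le_log (by positivity) key
      _ = 2 * Real.log ((s * v + 1) / u) := by rw [Real.log_pow]; norm_num
      _ ≤ 2 * ((s * v + 1) / u - 1) := by
          have := Real.log_le_sub_one_of_pos (x := (s * v + 1) / u) (by positivity)
          linarith
  have h3 : Real.log (1 + v / s ^ 2) = Real.log u - Real.log (u * s ^ 2 / (s ^ 2 + v)) := by
    rw [← Real.log_div hupos.ne' (by positivity)]
    congr 1
    field_simp
  rw [h3]
  have h4 : (s * v + 1) / u - 1 = (1 - 1 / u) * (s - 1) := by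
    field_simp
    rw [huv]; ring
  rw [h4] at hlog
  linarith

/-- H6 with `PᴴP` diagonal. -/
theorem matIneq_diag (P : Matrix R S ℂ) (b : Matrix R R ℂ) (c : Matrix S S ℂ) (hb : b.PosDef)
    (hc : c.PosDef) (x : S → ℝ) (hx : ∀ i, 0 ≤ x i)
    (hP : Pᴴ * P = diagonal (fun i => (x i : ℂ)))
    (β ζ : S → ℝ) (hβ : ∀ i, 0 < β i) (hζ : ∀ i, 0 < ζ i) :
    ∑ i, (Real.log ((ζ i + x i / β i) / ζ i) + 2 * (x i / (β i * (ζ i + x i / β i))))
      - ∑ i, (1 / (β i ^ 2 * (ζ i + x i / β i))) * ((Pᴴ * b * P) i i).re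
      - ∑ i, (1 / ζ i - 1 / (ζ i + x i / β i)) * (c i i).re
    ≤ Real.log ((c + Pᴴ * b⁻¹ * P).det.re) - Real.log (c.det.re) := by
  set n : S → ℝ := fun i => ζ i + x i / β i with hn
  have hnpos : ∀ i, 0 < n i := fun i => by
    have := hβ i; have := hζ i; have := hx i
    simp only [hn]; positivity
  set N : Matrix S S ℂ := c + Pᴴ * b⁻¹ * P with hN
  have hNp : N.PosDef := hc.add_posSemidef (hb.inv.posSemidef.conjTranspose_mul_mul_same _)
  obtain ⟨δ, hδ, hδN⟩ := exists_sqrt N⁻¹ hNp.inv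
  have hδH : δᴴ = δ := hδ.1
  have hNu : IsUnit N.det := (Matrix.isUnit_iff_isUnit_det _).mp hNp.isUnit
  have hδpos : ∀ i, 0 < (δ i i).re := fun i => (Complex.pos_iff.mp hδ.diag_pos).1
  -- trace identity
  have htr : ((δ * δ * c).trace).re + ((δ * Pᴴ * b⁻¹ * P * δ).trace).re = Fintype.card S := by
    have h1 : (δ * δ * N).trace = (Fintype.card S : ℂ) := by
      rw [hδN, Matrix.nonsing_inv_mul _ hNu, Matrix.trace_one]
    have h2 : (δ * δ * N).trace = (δ * δ * c).trace + (δ * Pᴴ * b⁻¹ * P * δ).trace := by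
      rw [hN, Matrix.mul_add, Matrix.trace_add]
      congr 1
      rw [Matrix.mul_assoc, Matrix.trace_mul_comm δ]
      simp only [Matrix.mul_assoc]
    rw [← Complex.add_re, ← h2, h1]
    simp
  -- (3)
  set w : S → ℝ := fun i => 1 / (β i * Real.sqrt (n i)) with hw
  set Wd : Matrix S S ℂ := diagonal (fun i => ((w i : ℝ) : ℂ)) with hWd
  have hWdH : Wdᴴ = Wd := by
    rw [hWd, Matrix.diagonal_conjTranspose]; congr 1; ext i; simp
  have h3 := trace_ineq b hb (P * δ) (P * Wd)
  have e1 : (((P * Wd)ᴴ * (P * δ)).trace).re = ∑ i, w i * x i * (δ i i).re := by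
    rw [Matrix.conjTranspose_mul, hWdH, Matrix.mul_assoc, ← Matrix.mul_assoc Pᴴ, hP,
      ← Matrix.mul_assoc, hWd, Matrix.diagonal_mul_diagonal, Matrix.trace]
    simp only [Matrix.diag_apply, Matrix.diagonal_mul, Complex.re_sum, ← Complex.ofReal_mul,
      Complex.re_ofReal_mul]
  have e2 : (((P * δ)ᴴ * b⁻¹ * (P * δ)).trace).re = ((δ * Pᴴ * b⁻¹ * P * δ).trace).re := by
    rw [Matrix.conjTranspose_mul, hδH, Matrix.mul_assoc (δ * Pᴴ * b⁻¹)]
  have e3 : (((P * Wd)ᴴ * b * (P * Wd)).trace).re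
      = ∑ i, (1 / (β i ^ 2 * n i)) * ((Pᴴ * b * P) i i).re := by
    rw [Matrix.conjTranspose_mul, hWdH]
    have : Wd * Pᴴ * b * (P * Wd) = Wd * (Pᴴ * b * P) * Wd := by
      simp only [Matrix.mul_assoc]
    rw [this, hWd, Matrix.trace]
    simp only [Matrix.diag_apply, Matrix.diagonal_mul, Matrix.mul_diagonal, Complex.re_sum]
    apply Finset.sum_congr rfl
    intro i _
    rw [mul_right_comm, ← Complex.ofReal_mul, Complex.re_ofReal_mul]
    congr 1
    simp only [hw]
    have h1 := Real.mul_self_sqrt (hnpos i).le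
    have h2 := hβ i
    have h3 := hnpos i
    rw [div_mul_div_comm, one_mul]
    congr 1
    calc β i * Real.sqrt (n i) * (β i * Real.sqrt (n i))
        = β i ^ 2 * (Real.sqrt (n i) * Real.sqrt (n i)) := by ring
      _ = β i ^ 2 * n i := by rw [h1]
  rw [e1, e2, e3] at h3
  -- (4)
  set χ : S → ℝ := fun i => 1 / ζ i - 1 / n i with hχ
  have hχ0 : ∀ i, 0 ≤ χ i := fun i => by
    simp only [hχ, sub_nonneg]
    apply one_div_le_one_div_of_le (hζ i)
    simp only [hn]
    have := div_nonneg (hx i) (hβ i).le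
    linarith
  set Xd : Matrix S S ℂ := diagonal (fun i => ((χ i : ℝ) : ℂ)) with hXd
  have hAp : (δ * δ + Xd).PosDef := by
    rw [hδN]
    apply hNp.inv.add_posSemidef
    apply Matrix.PosSemidef.diagonal
    intro i
    simp only [Pi.zero_apply]
    exact_mod_cast hχ0 i
  have h4 := logdet_var (δ * δ + Xd) c hAp hc
  have e4 : (((δ * δ + Xd) * c).trace).re = ((δ * δ * c).trace).re + ∑ i, χ i * (c i i).re := by
    rw [Matrix.add_mul, Matrix.trace_add, Complex.add_re]
    congr 1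
    rw [hXd, Matrix.trace]
    simp only [Matrix.diag_apply, Matrix.diagonal_mul, Complex.re_sum, Complex.re_ofReal_mul]
  rw [e4] at h4
  -- (5)
  have h5 := det_sq_add_ge δ hδ χ hχ0
  have hdδ : 0 < δ.det.re := PosDef.re_det_pos hδ
  have hprodpos : 0 < ∏ i, (1 + χ i / (δ i i).re ^ 2) := Finset.prod_pos fun i _ => by
    have := hχ0 i; have := hδpos i
    positivity
  have h5' : Real.log (δ.det.re ^ 2) + ∑ i, Real.log (1 + χ i / (δ i i).re ^ 2)
      ≤ Real.log ((δ * δ + Xd).det.re) := by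
    rw [← Real.log_prod, ← Real.log_mul (by positivity) hprodpos.ne']
    · exact Real.log_le_log (by positivity) h5
    · intro i _
      have := hχ0 i; have := hδpos i
      positivity
  -- det N = 1/ (det δ)^2
  have hdetN : Real.log (N.det.re) = - Real.log (δ.det.re ^ 2) := by
    have h1 : δ.det * δ.det * N.det = 1 := by
      rw [← Matrix.det_mul, hδN, ← Matrix.det_mul, Matrix.nonsing_inv_mul _ hNu, Matrix.det_one]
    rw [PosDef.det_eq_re hδ, PosDef.det_eq_re hNp] at h1
    have h2 : δ.det.re * δ.det.re * N.det.re = 1 := by exact_mod_cast h1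
    have h3 : N.det.re = (δ.det.re ^ 2)⁻¹ := by
      rw [eq_comm, inv_eq_iff_eq_inv, eq_comm]
      apply inv_eq_of_mul_eq_one_left
      rw [sq]; linarith
    rw [h3, Real.log_inv]
  rw [hdetN]
  -- (6) scalar
  have h6 : ∀ i, Real.log ((ζ i + x i / β i) / ζ i) + 2 * (x i / (β i * (ζ i + x i / β i)))
      ≤ 2 * (w i * x i * (δ i i).re) + Real.log (1 + χ i / (δ i i).re ^ 2) := by
    intro i
    have hni := hnpos i
    have hζi := hζ i
    have hβi := hβ i
    have hxi := hx i
    have hδi := hδpos i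
    have hsq := Real.mul_self_sqrt hni.le
    have hsqp : 0 < Real.sqrt (n i) := Real.sqrt_pos.mpr hni
    have hxn : x i / β i = n i - ζ i := by simp only [hn]; ring
    have hu : 1 ≤ n i / ζ i := by
      rw [le_div_iff₀ hζi]
      have := div_nonneg hxi hβi.le
      linarith
    have h := scalar_ineq (n i / ζ i) ((δ i i).re * Real.sqrt (n i)) hu (by positivity)
    have e5 : (1 - 1 / (n i / ζ i)) = x i / (β i * n i) := by
      have : x i = β i * (n i - ζ i) := by rw [← hxn]; field_simp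
      rw [this]
      field_simp
    have e6 : (n i / ζ i - 1) / ((δ i i).re * Real.sqrt (n i)) ^ 2 = χ i / (δ i i).re ^ 2 := by
      have : ((δ i i).re * Real.sqrt (n i)) ^ 2 = (δ i i).re ^ 2 * n i := by
        rw [mul_pow, sq (Real.sqrt (n i)), hsq]
      rw [this]
      simp only [hχ]
      field_simp
    have e7 : x i / (β i * n i) * ((δ i i).re * Real.sqrt (n i)) = w i * x i * (δ i i).re := by
      simp only [hw]
      have : n i = Real.sqrt (n i) * Real.sqrt (n i) := hsq.symm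
      rw [div_mul_eq_mul_div, div_eq_iff (by positivity)]
      field_simp
      nlinarith
    rw [e5, e6] at h
    have e8 : 2 * (x i / (β i * n i)) * ((δ i i).re * Real.sqrt (n i))
        = 2 * (w i * x i * (δ i i).re) := by rw [← e7]; ring
    rw [e8] at h
    have e9 : ζ i + x i / β i = n i := rfl
    rw [e9]
    linarith
  have h7 := Finset.sum_le_sum fun i (_ : i ∈ Finset.univ) => h6 i
  rw [Finset.sum_add_distrib (f := fun i => 2 * (w i * x i * (δ i i).re)), ← Finset.mul_sum] at h7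
  linarith

/-- H6, general form. -/
theorem matIneq (P : Matrix R S ℂ) (b : Matrix R R ℂ) (c : Matrix S S ℂ) (hb : b.PosDef)
    (hc : c.PosDef) (V : Matrix S S ℂ) (hV : V * Vᴴ = 1) (x : S → ℝ) (hx : ∀ i, 0 ≤ x i)
    (hP : Pᴴ * P = V * diagonal (fun i => (x i : ℂ)) * Vᴴ)
    (β ζ : S → ℝ) (hβ : ∀ i, 0 < β i) (hζ : ∀ i, 0 < ζ i) :
    ∑ i, (Real.log ((ζ i + x i / β i) / ζ i) + 2 * (x i / (β i * (ζ i + x i / β i))))
      - ∑ i, (1 / (β i ^ 2 * (ζ i + x i / β i))) * ((Vᴴ * (Pᴴ * b * P) * V) i i).re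
      - ∑ i, (1 / ζ i - 1 / (ζ i + x i / β i)) * ((Vᴴ * c * V) i i).re
    ≤ Real.log ((c + Pᴴ * b⁻¹ * P).det.re) - Real.log (c.det.re) := by
  have hV' : Vᴴ * V = 1 := mul_eq_one_comm.mp hV
  have hVu : IsUnit V := IsUnit.of_mul_eq_one _ hV
  have hc' : (Vᴴ * c * V).PosDef :=
    hc.conjTranspose_mul_mul_same (Matrix.mulVec_injective_of_isUnit hVu)
  have hP' : (P * V)ᴴ * (P * V) = diagonal (fun i => (x i : ℂ)) := by
    rw [Matrix.conjTranspose_mul, Matrix.mul_assoc, ← Matrix.mul_assoc Pᴴ, hP,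
      Matrix.mul_assoc, hV', Matrix.mul_one, ← Matrix.mul_assoc, hV', Matrix.one_mul]
  have h := matIneq_diag (P * V) b (Vᴴ * c * V) hb hc' x hx hP' β ζ hβ hζ
  have e1 : (P * V)ᴴ * b * (P * V) = Vᴴ * (Pᴴ * b * P) * V := by
    rw [Matrix.conjTranspose_mul]; simp only [Matrix.mul_assoc]
  have e2 : Vᴴ * c * V + (P * V)ᴴ * b⁻¹ * (P * V) = Vᴴ * (c + Pᴴ * b⁻¹ * P) * V := by
    rw [Matrix.conjTranspose_mul, Matrix.mul_add, Matrix.add_mul]; simp only [Matrix.mul_assoc]
  have hdV : (Vᴴ).det * V.det = 1 := by rw [← Matrix.det_mul, hV', Matrix.det_one]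
  have e3 : ∀ A : Matrix S S ℂ, (Vᴴ * A * V).det = A.det := by
    intro A
    rw [Matrix.det_mul, Matrix.det_mul, mul_right_comm, hdV, one_mul]
  rw [e1, e2, e3, e3] at h
  exact h

end H

end Vale.Agent.P358
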